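import Mathlib

/-!
# The energy `Tr X^{3/2}` on positive semidefinite matrices (S_3 Bellman function, S0097)

Everything is elementary: `Tr X^{3/2}` is `Tr S³` for the PSD root `S` of `X`; the root is unique
by the Lyapunov lemma; Klein's inequality is `Tr (S-W)²(2S+W) ≥ 0`.
-/

namespace Crest.Agent.TriH

open Matrix
open scoped ComplexOrder

variable {𝕜 : Type*} [RCLike 𝕜] {n : Type*} [Fintype n] [DecidableEq n]

/-- real part of the trace -/
noncomputable abbrev rtr (A : Matrix n n 𝕜) : ℝ := RCLike.re (trace A)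

omit [DecidableEq n] in
lemma rtr_add (A B : Matrix n n 𝕜) : rtr (A + B) = rtr A + rtr B := by simp [rtr, trace_add]
omit [DecidableEq n] in
lemma rtr_sub (A B : Matrix n n 𝕜) : rtr (A - B) = rtr A - rtr B := by simp [rtr, trace_sub]
omit [DecidableEq n] in
lemma rtr_neg (A : Matrix n n 𝕜) : rtr (-A) = - rtr A := by simp [rtr, trace_neg]
omit [DecidableEq n] in
lemma rtr_comm (A B : Matrix n n 𝕜) : rtr (A * B) = rtr (B * A) := by
  simp [rtr, trace_mul_comm A B]

omit [DecidableEq n] in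
lemma rtr_cyc (A B C : Matrix n n 𝕜) : rtr (A * B * C) = rtr (B * C * A) := by
  rw [Matrix.mul_assoc, rtr_comm]

/-- existence of a PSD square root -/
lemma exists_psd_sqrt {X : Matrix n n 𝕜} (hX : X.PosSemidef) :
    ∃ S : Matrix n n 𝕜, S.PosSemidef ∧ S * S = X := by
  classical
  set h := hX.1 with hh
  set U : Matrix n n 𝕜 := (h.eigenvectorUnitary : Matrix n n 𝕜) with hU
  have hsp : X = U * diagonal (RCLike.ofReal ∘ h.eigenvalues) * Uᴴ := by
    have := h.spectral_theorem
    rw [Unitary.conjStarAlgAut_apply] at this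
    simpa [hU, star_eq_conjTranspose] using this
  have hUU : Uᴴ * U = 1 := by
    have := Unitary.coe_star_mul_self h.eigenvectorUnitary
    simpa [hU, star_eq_conjTranspose] using this
  set d : n → 𝕜 := fun i => ((√(h.eigenvalues i) : ℝ) : 𝕜) with hd
  refine ⟨U * diagonal d * Uᴴ, ?_, ?_⟩
  · apply PosSemidef.mul_mul_conjTranspose_same
    apply PosSemidef.diagonal
    intro i
    simp [hd]
  · have : diagonal d * diagonal d = diagonal (RCLike.ofReal ∘ h.eigenvalues) := by
      rw [diagonal_mul_diagonal]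
      congr 1
      ext i
      simp only [hd, Function.comp]
      rw [← RCLike.ofReal_mul, Real.mul_self_sqrt (hX.eigenvalues_nonneg i)]
    calc U * diagonal d * Uᴴ * (U * diagonal d * Uᴴ)
        = U * diagonal d * (Uᴴ * U) * diagonal d * Uᴴ := by simp only [Matrix.mul_assoc]
      _ = U * (diagonal d * diagonal d) * Uᴴ := by rw [hUU]; simp only [Matrix.mul_assoc, Matrix.mul_one]
      _ = X := by rw [this, ← hsp]

omit [DecidableEq n] in
/-- The trace of a product of two PSD matrices has nonnegative real part. -/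
lemma rtr_mul_nonneg [DecidableEq n] {A B : Matrix n n 𝕜} (hA : A.PosSemidef) (hB : B.PosSemidef) :
    0 ≤ rtr (A * B) := by
  obtain ⟨S, hS, rfl⟩ := exists_psd_sqrt hA
  have h1 : (S * B * Sᴴ).PosSemidef := hB.mul_mul_conjTranspose_same S
  have h2 : rtr (S * S * B) = rtr (S * B * Sᴴ) := by
    rw [hS.1.eq, Matrix.mul_assoc, rtr_comm]
  rw [h2]
  have := h1.trace_nonneg
  exact (RCLike.nonneg_iff.mp this).1

omit [DecidableEq n] in
lemma herm_dot {Q : Matrix n n 𝕜} (hQ : Q.IsHermitian) (x y : n → 𝕜) :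
    star x ⬝ᵥ (Q *ᵥ y) = star (Q *ᵥ x) ⬝ᵥ y := by
  rw [star_mulVec, hQ.eq, dotProduct_mulVec]

/-- **Lyapunov lemma.** -/
lemma lyapunov {S Q : Matrix n n 𝕜} (hS : S.PosSemidef) (hQ : Q.IsHermitian)
    (hSQ : (S * Q + Q * S).PosSemidef) (hker : ∀ x : n → 𝕜, S *ᵥ x = 0 → Q *ᵥ x = 0) :
    Q.PosSemidef := by
  rw [hQ.posSemidef_iff_eigenvalues_nonneg]
  intro k
  by_contra hk
  have hk' : hQ.eigenvalues k < 0 := not_le.mp hk
  set x : n → 𝕜 := ⇑(hQ.eigenvectorBasis k) with hx
  set lam : ℝ := hQ.eigenvalues k with hlam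
  have hQx : Q *ᵥ x = lam • x := hQ.mulVec_eigenvectorBasis k
  have hx0 : x ≠ 0 := by
    intro h0
    have hn : ‖hQ.eigenvectorBasis k‖ = 1 := hQ.eigenvectorBasis.orthonormal.1 k
    have : hQ.eigenvectorBasis k = 0 := by
      ext i
      exact congrFun h0 i
    rw [this] at hn
    simp at hn
  have h1 := hSQ.re_dotProduct_nonneg x
  have e1 : star x ⬝ᵥ (Q *ᵥ (S *ᵥ x)) = (lam : 𝕜) * (star x ⬝ᵥ (S *ᵥ x)) := by
    rw [herm_dot hQ, hQx, star_smul, smul_dotProduct]
    simp [RCLike.real_smul_eq_coe_mul]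
  have e2 : star x ⬝ᵥ (S *ᵥ (Q *ᵥ x)) = (lam : 𝕜) * (star x ⬝ᵥ (S *ᵥ x)) := by
    rw [hQx, mulVec_smul, dotProduct_smul]
    simp [RCLike.real_smul_eq_coe_mul]
  have h2 : star x ⬝ᵥ ((S * Q + Q * S) *ᵥ x) = ((2 * lam : ℝ) : 𝕜) * (star x ⬝ᵥ (S *ᵥ x)) := by
    rw [add_mulVec, dotProduct_add, ← mulVec_mulVec, ← mulVec_mulVec, e1, e2]
    push_cast
    ring
  have h3 := hS.re_dotProduct_nonneg x
  rw [h2] at h1
  have h4 : RCLike.re (((2 * lam : ℝ) : 𝕜) * (star x ⬝ᵥ (S *ᵥ x))) =
      (2 * lam) * RCLike.re (star x ⬝ᵥ (S *ᵥ x)) := by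
    rw [RCLike.re_ofReal_mul]
  rw [h4] at h1
  have h5 : RCLike.re (star x ⬝ᵥ (S *ᵥ x)) = 0 := by
    nlinarith
  have h6 : star x ⬝ᵥ (S *ᵥ x) = 0 := by
    have h7 := hS.dotProduct_mulVec_nonneg x
    have h8 := (RCLike.nonneg_iff.mp h7).2
    apply RCLike.ext
    · simpa using h5
    · simpa using h8
  have h9 : S *ᵥ x = 0 := (hS.dotProduct_mulVec_zero_iff x).mp h6
  have h10 := hker x h9
  rw [hQx] at h10
  have h11 : lam ≠ 0 := ne_of_lt hk'
  exact hx0 ((smul_eq_zero.mp h10).resolve_left h11)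

/-- operator monotonicity of the square root -/
lemma le_of_sq_le {P Q : Matrix n n 𝕜} (hP : P.PosSemidef) (hQ : Q.PosSemidef)
    (h : (Q * Q - P * P).PosSemidef) : (Q - P).PosSemidef := by
  have hsum : (P + Q).PosSemidef := hP.add hQ
  apply lyapunov hsum (hQ.1.sub hP.1)
  · have : (P + Q) * (Q - P) + (Q - P) * (P + Q) = (2 : ℕ) • (Q * Q - P * P) := by noncomm_ring
    rw [this]
    exact h.smul (by norm_num)
  · intro x hx
    have h1 : star x ⬝ᵥ ((P + Q) *ᵥ x) = 0 := by rw [hx]; simp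
    rw [add_mulVec, dotProduct_add] at h1
    have hp := hP.dotProduct_mulVec_nonneg x
    have hq := hQ.dotProduct_mulVec_nonneg x
    have hp' : star x ⬝ᵥ (P *ᵥ x) = 0 := by
      apply le_antisymm _ hp
      rw [eq_neg_of_add_eq_zero_left h1]
      exact neg_nonpos.mpr hq
    have hq' : star x ⬝ᵥ (Q *ᵥ x) = 0 := by
      simpa [hp'] using h1
    have h2 := (hP.dotProduct_mulVec_zero_iff x).mp hp'
    have h3 := (hQ.dotProduct_mulVec_zero_iff x).mp hq'
    rw [sub_mulVec, h2, h3, sub_zero]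

/-- uniqueness of the PSD root -/
lemma psd_root_unique {P Q : Matrix n n 𝕜} (hP : P.PosSemidef) (hQ : Q.PosSemidef)
    (h : P * P = Q * Q) : P = Q := by
  have h1 : (Q - P).PosSemidef := le_of_sq_le hP hQ (by rw [h, sub_self]; exact PosSemidef.zero)
  have h2 : (P - Q).PosSemidef := le_of_sq_le hQ hP (by rw [h, sub_self]; exact PosSemidef.zero)
  have h3 : (Q - P).trace = 0 := by
    have := h1.trace_nonneg
    have h4 := h2.trace_nonneg
    rw [trace_sub] at this h4
    apply le_antisymm _ (by rw [trace_sub]; exact this)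
    rw [trace_sub]
    have : trace Q - trace P = -(trace P - trace Q) := by ring
    rw [this]
    exact neg_nonpos.mpr h4
  have := (h1.trace_eq_zero_iff).mp h3
  exact (sub_eq_zero.mp this).symm

open Classical in
/-- the PSD root (junk `0` off the PSD cone) -/
noncomputable def rt (X : Matrix n n 𝕜) : Matrix n n 𝕜 :=
  if h : X.PosSemidef then Classical.choose (exists_psd_sqrt h) else 0

lemma rt_psd {X : Matrix n n 𝕜} (h : X.PosSemidef) : (rt X).PosSemidef := by
  rw [rt, dif_pos h]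
  exact (Classical.choose_spec (exists_psd_sqrt h)).1

lemma rt_mul_self {X : Matrix n n 𝕜} (h : X.PosSemidef) : rt X * rt X = X := by
  rw [rt, dif_pos h]
  exact (Classical.choose_spec (exists_psd_sqrt h)).2

lemma rt_eq {X S : Matrix n n 𝕜} (hS : S.PosSemidef) (h : S * S = X) : rt X = S := by
  have hX : X.PosSemidef := by
    rw [← h]
    have := posSemidef_conjTranspose_mul_self S
    rwa [hS.1.eq] at this
  exact psd_root_unique (rt_psd hX) hS (by rw [rt_mul_self hX, h])

/-- The energy `Tr X^{3/2}`. -/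
noncomputable def E32 (X : Matrix n n 𝕜) : ℝ := rtr (rt X * rt X * rt X)

lemma E32_eq_of_root {X S : Matrix n n 𝕜} (hS : S.PosSemidef) (h : S * S = X) :
    E32 X = rtr (S * S * S) := by
  rw [E32, rt_eq hS h]

lemma E32_zero : E32 (0 : Matrix n n 𝕜) = 0 := by
  rw [E32_eq_of_root PosSemidef.zero (by simp : (0 : Matrix n n 𝕜) * 0 = 0)]
  simp [rtr]

omit [DecidableEq n] in
/-- the cubic Young inequality in trace form: `Tr (S-W)²(2S+W) ≥ 0`. -/
lemma klein_tr [DecidableEq n] {S W : Matrix n n 𝕜} (hS : S.PosSemidef) (hW : W.PosSemidef) :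
    3 * rtr (S * S * W) ≤ 2 * rtr (S * S * S) + rtr (W * W * W) := by
  have h1 : ((S - W) * (S - W)).PosSemidef := by
    have := posSemidef_conjTranspose_mul_self (S - W)
    rwa [(hS.1.sub hW.1).eq] at this
  have h2 : (S + S + W).PosSemidef := (hS.add hS).add hW
  have h3 := rtr_mul_nonneg h1 h2
  have h4 : (S - W) * (S - W) * (S + S + W) =
      (S * S * S + S * S * S) + S * S * W - (S * W * S + S * W * S) - S * W * W
        - (W * S * S + W * S * S) - W * S * W + (W * W * S + W * W * S) + W * W * W := by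
    noncomm_ring
  rw [h4] at h3
  simp only [rtr_add, rtr_sub] at h3
  have c1 : rtr (S * W * S) = rtr (S * S * W) := by rw [rtr_cyc, rtr_cyc]
  have c2 : rtr (W * S * S) = rtr (S * S * W) := by rw [rtr_cyc]
  have c3 : rtr (S * W * W) = rtr (W * W * S) := by rw [rtr_cyc]
  have c4 : rtr (W * S * W) = rtr (W * W * S) := by rw [rtr_cyc, rtr_cyc]
  rw [c1, c2, c3, c4] at h3
  linarith

/-- Klein in the form used everywhere: the variational lower bound of the energy. -/
lemma E32_ge {X W : Matrix n n 𝕜} (hX : X.PosSemidef) (hW : W.PosSemidef) :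
    (3 / 2) * rtr (X * W) - (1 / 2) * rtr (W * W * W) ≤ E32 X := by
  have h := klein_tr (rt_psd hX) hW
  rw [rt_mul_self hX] at h
  have : rtr (rt X * rt X * rt X) = E32 X := rfl
  rw [rt_mul_self hX] at this
  rw [this] at h
  linarith

lemma E32_eq_self_mul {X : Matrix n n 𝕜} : E32 X = rtr (rt X * rt X * rt X) := rfl

lemma E32_nonneg {X : Matrix n n 𝕜} (hX : X.PosSemidef) : 0 ≤ E32 X := by
  have h := rtr_mul_nonneg (rt_psd hX) (rt_psd hX)
  have h2 : (rt X * rt X).PosSemidef := by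
    rw [rt_mul_self hX]; exact hX
  have h3 := rtr_mul_nonneg h2 (rt_psd hX)
  simpa [E32] using h3

/-- **Jensen** for the energy. -/
lemma E32_jensen {X Y : Matrix n n 𝕜} (hp : (X + Y).PosSemidef) (hm : (X - Y).PosSemidef) :
    2 * E32 X ≤ E32 (X + Y) + E32 (X - Y) := by
  have hX : X.PosSemidef := by
    have h := (hp.add hm).smul (α := ℝ) (a := (1 / 2 : ℝ)) (by norm_num)
    have e : (1 / 2 : ℝ) • ((X + Y) + (X - Y)) = X := by
      have : (X + Y) + (X - Y) = (2 : ℝ) • X := by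
        rw [two_smul]; abel
      rw [this, smul_smul]; norm_num
    rwa [e] at h
  have hS := rt_psd hX
  have h1 := E32_ge hp hS
  have h2 := E32_ge hm hS
  have e1 : rtr ((X + Y) * rt X) + rtr ((X - Y) * rt X) = 2 * rtr (X * rt X) := by
    rw [add_mul, sub_mul, rtr_add, rtr_sub]; ring
  have e2 : rtr (X * rt X) = E32 X := by
    have : rtr (rt X * rt X * rt X) = E32 X := rfl
    rwa [rt_mul_self hX] at this
  have e3 : rtr (rt X * rt X * rt X) = E32 X := rfl
  linarith

omit [DecidableEq n] in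
/-- if `T ± W ≥ 0` then `ker T ⊂ ker W` -/
lemma ker_of_pm {T W : Matrix n n 𝕜} (hp : (T + W).PosSemidef) (hm : (T - W).PosSemidef)
    (x : n → 𝕜) (hx : T *ᵥ x = 0) : W *ᵥ x = 0 := by
  have h1 := hp.dotProduct_mulVec_nonneg x
  have h2 := hm.dotProduct_mulVec_nonneg x
  rw [add_mulVec, hx, zero_add] at h1
  rw [sub_mulVec, hx, zero_sub, dotProduct_neg] at h2
  have h3 : star x ⬝ᵥ (W *ᵥ x) = 0 := le_antisymm (neg_nonneg.mp h2) h1
  have h4 : star x ⬝ᵥ ((T + W) *ᵥ x) = 0 := by
    rw [add_mulVec, hx, zero_add, h3]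
  have h5 := (hp.dotProduct_mulVec_zero_iff x).mp h4
  rwa [add_mulVec, hx, zero_add] at h5

/-- **Sylvester solution**: for `S ≥ 0` and `S² ± W ≥ 0` there is a Hermitian `Z` with
`SZ+ZS=W` and `S/2 ± Z ≥ 0`. -/
lemma exists_sylvester {S W : Matrix n n 𝕜} (hS : S.PosSemidef) (hWh : W.IsHermitian)
    (hp : (S * S + W).PosSemidef) (hm : (S * S - W).PosSemidef) :
    ∃ Z : Matrix n n 𝕜, Z.IsHermitian ∧ S * Z + Z * S = W ∧
      ((1 / 2 : ℝ) • S + Z).PosSemidef ∧ ((1 / 2 : ℝ) • S - Z).PosSemidef := by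
  classical
  set h := hS.1 with hh
  set U : Matrix n n 𝕜 := (h.eigenvectorUnitary : Matrix n n 𝕜) with hU
  set s : n → ℝ := h.eigenvalues with hs
  have hs0 : ∀ i, 0 ≤ s i := hS.eigenvalues_nonneg
  have hsp : S = U * diagonal (fun i => ((s i : ℝ) : 𝕜)) * Uᴴ := by
    have := h.spectral_theorem
    rw [Unitary.conjStarAlgAut_apply] at this
    simpa [hU, star_eq_conjTranspose, Function.comp_def] using this
  have hUU : Uᴴ * U = 1 := by
    have := Unitary.coe_star_mul_self h.eigenvectorUnitary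
    simpa [hU, star_eq_conjTranspose] using this
  have hUU' : U * Uᴴ = 1 := by
    have := Unitary.coe_mul_star_self h.eigenvectorUnitary
    simpa [hU, star_eq_conjTranspose] using this
  set Wt : Matrix n n 𝕜 := Uᴴ * W * U with hWt
  have hWt_herm : Wt.IsHermitian := by
    rw [hWt]
    have := isHermitian_conjTranspose_mul_mul U hWh
    exact this
  set Zt : Matrix n n 𝕜 := Matrix.of (fun i j => Wt i j / (((s i + s j : ℝ)) : 𝕜)) with hZt
  -- columns at zero eigenvalues vanish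
  have hcol : ∀ i j, s j = 0 → Wt i j = 0 := by
    intro i j hj
    set x : n → 𝕜 := ⇑(h.eigenvectorBasis j) with hx
    have hUx : U *ᵥ Pi.single j 1 = x := h.eigenvectorUnitary_mulVec j
    have hSx : S *ᵥ x = 0 := by
      have := h.mulVec_eigenvectorBasis j
      rw [this]
      have : h.eigenvalues j = 0 := hj
      rw [this, zero_smul]
    have hTx : (S * S) *ᵥ x = 0 := by
      rw [← mulVec_mulVec, hSx, mulVec_zero]
    have hWx := ker_of_pm hp hm x hTx
    have : Wt *ᵥ Pi.single j 1 = 0 := by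
      rw [hWt, ← mulVec_mulVec, hUx, ← mulVec_mulVec, hWx, mulVec_zero]
    have h2 := congrFun this i
    rw [mulVec_single_one] at h2
    simpa using h2
  have hZt_zero : ∀ i j, s j = 0 → Zt i j = 0 := by
    intro i j hj
    simp [hZt, hcol i j hj]
  have hZt_herm : Zt.IsHermitian := by
    ext i j
    simp only [hZt, conjTranspose_apply, of_apply, star_div₀]
    have := hWt_herm.apply i j
    rw [this]
    congr 1
    simp [add_comm]
  have hSd : ∀ i j, ((s i : ℝ) : 𝕜) * Zt i j + Zt i j * ((s j : ℝ) : 𝕜) = Wt i j := by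
    intro i j
    by_cases h0 : s i + s j = 0
    · have hj : s j = 0 := by linarith [hs0 i, hs0 j]
      have hi : s i = 0 := by linarith [hs0 i, hs0 j]
      rw [hcol i j hj, hZt_zero i j hj]
      simp
    · have h0' : ((s i + s j : ℝ) : 𝕜) ≠ 0 := by exact_mod_cast h0
      simp only [hZt, of_apply]
      field_simp
      push_cast
      ring
  set Z : Matrix n n 𝕜 := U * Zt * Uᴴ with hZ
  have hZh : Z.IsHermitian := isHermitian_mul_mul_conjTranspose U hZt_herm
  have hsyl : S * Z + Z * S = W := by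
    have e1 : S * Z = U * (diagonal (fun i => ((s i : ℝ) : 𝕜)) * Zt) * Uᴴ := by
      rw [hZ, hsp]
      calc U * diagonal (fun i => ((s i : ℝ) : 𝕜)) * Uᴴ * (U * Zt * Uᴴ)
          = U * diagonal (fun i => ((s i : ℝ) : 𝕜)) * (Uᴴ * U) * Zt * Uᴴ := by
            simp only [Matrix.mul_assoc]
        _ = _ := by rw [hUU]; simp only [Matrix.mul_assoc, Matrix.mul_one]
    have e2 : Z * S = U * (Zt * diagonal (fun i => ((s i : ℝ) : 𝕜))) * Uᴴ := by
      rw [hZ, hsp]
      calc U * Zt * Uᴴ * (U * diagonal (fun i => ((s i : ℝ) : 𝕜)) * Uᴴ)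
          = U * Zt * (Uᴴ * U) * diagonal (fun i => ((s i : ℝ) : 𝕜)) * Uᴴ := by
            simp only [Matrix.mul_assoc]
        _ = _ := by rw [hUU]; simp only [Matrix.mul_assoc, Matrix.mul_one]
    have e3 : diagonal (fun i => ((s i : ℝ) : 𝕜)) * Zt + Zt * diagonal (fun i => ((s i : ℝ) : 𝕜))
        = Wt := by
      ext i j
      simp only [Matrix.add_apply, diagonal_mul, mul_diagonal]
      exact hSd i j
    rw [e1, e2, ← add_mul, ← mul_add, e3, hWt]
    calc U * (Uᴴ * W * U) * Uᴴ = (U * Uᴴ) * W * (U * Uᴴ) := by simp only [Matrix.mul_assoc]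
      _ = W := by rw [hUU']; simp
  have hker : ∀ x : n → 𝕜, S *ᵥ x = 0 → Z *ᵥ x = 0 := by
    intro x hx
    set y : n → 𝕜 := Uᴴ *ᵥ x with hy
    have h1 : ∀ i, ((s i : ℝ) : 𝕜) * y i = 0 := by
      have : (diagonal (fun i => ((s i : ℝ) : 𝕜))) *ᵥ y = 0 := by
        have h2 : Uᴴ *ᵥ (S *ᵥ x) = 0 := by rw [hx, mulVec_zero]
        rw [hsp, ← mulVec_mulVec, ← mulVec_mulVec, mulVec_mulVec _ Uᴴ, hUU, one_mulVec] at h2
        exact h2
      intro i
      have h3 := congrFun this i
      simpa [mulVec_diagonal] using h3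
    have h2 : Zt *ᵥ y = 0 := by
      ext i
      simp only [mulVec, dotProduct, Pi.zero_apply]
      apply Finset.sum_eq_zero
      intro j _
      by_cases hj : s j = 0
      · rw [hZt_zero i j hj, zero_mul]
      · have : y j = 0 := by
          have h3 := h1 j
          have h4 : ((s j : ℝ) : 𝕜) ≠ 0 := by exact_mod_cast hj
          exact (mul_eq_zero.mp h3).resolve_left h4
        rw [this, mul_zero]
    rw [hZ, ← mulVec_mulVec, ← mulVec_mulVec, ← hy, h2, mulVec_zero]
  have hSS : (1 / 2 : ℝ) • S * S + S * ((1 / 2 : ℝ) • S) = S * S := by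
    rw [Matrix.smul_mul, Matrix.mul_smul, ← add_smul]; norm_num
  have hSm : ((1 / 2 : ℝ) • S).IsHermitian := by
    rw [IsHermitian, conjTranspose_smul, hS.1.eq, star_trivial]
  refine ⟨Z, hZh, hsyl, ?_, ?_⟩
  · apply lyapunov hS (hSm.add hZh)
    · have : S * ((1 / 2 : ℝ) • S + Z) + ((1 / 2 : ℝ) • S + Z) * S = S * S + W := by
        rw [mul_add, add_mul, ← hsyl, ← hSS]; abel
      rw [this]; exact hp
    · intro x hx
      rw [add_mulVec, smul_mulVec, hx, hker x hx]; simp
  · apply lyapunov hS (hSm.sub hZh)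
    · have : S * ((1 / 2 : ℝ) • S - Z) + ((1 / 2 : ℝ) • S - Z) * S = S * S - W := by
        rw [mul_sub, sub_mul, ← hsyl, ← hSS]; abel
      rw [this]; exact hm
    · intro x hx
      rw [sub_mulVec, smul_mulVec, hx, hker x hx]; simp

omit [Fintype n] [DecidableEq n] in
lemma psd_of_pm {T W : Matrix n n 𝕜} (hp : (T + W).PosSemidef) (hm : (T - W).PosSemidef) :
    T.PosSemidef := by
  have h := (hp.add hm).smul (α := ℝ) (a := (1 / 2 : ℝ)) (by norm_num)
  have e : (1 / 2 : ℝ) • ((T + W) + (T - W)) = T := by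
    have : (T + W) + (T - W) = (2 : ℝ) • T := by
      rw [two_smul]; abel
    rw [this, smul_smul]; norm_num
  rwa [e] at h

omit [Fintype n] [DecidableEq n] in
lemma herm_of_pm {T W : Matrix n n 𝕜} (hp : (T + W).PosSemidef) (hm : (T - W).PosSemidef) :
    W.IsHermitian := by
  have h1 := hp.1
  have h2 := hm.1
  have h3 := h1.sub h2
  have e : (T + W) - (T - W) = (2 : ℝ) • W := by
    rw [two_smul]; abel
  rw [e] at h3
  have h4 : ((1 / 2 : ℝ) • ((2 : ℝ) • W)).IsHermitian := by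
    rw [IsHermitian, conjTranspose_smul, h3.eq, star_trivial]
  rwa [smul_smul, show (1 / 2 : ℝ) * 2 = 1 by norm_num, one_smul] at h4

/-- **The main gap estimate** (middle step of the Bellman function): for `T ± W ≥ 0` and any
Hermitian test `Y`,
`avg Tr (T ± W)^{3/2} ≥ Tr T^{3/2} + (3/4)(2 Tr WY - 2 Tr(T^{1/2} Y²))`. -/
theorem gap_main {T W Y : Matrix n n 𝕜} (hp : (T + W).PosSemidef) (hm : (T - W).PosSemidef)
    (hY : Y.IsHermitian) :
    E32 T + (3 / 4) * (2 * rtr (W * Y) - 2 * rtr (rt T * Y * Y)) ≤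
      (1 / 2) * (E32 (T + W) + E32 (T - W)) := by
  have hT : T.PosSemidef := psd_of_pm hp hm
  have hWh : W.IsHermitian := herm_of_pm hp hm
  set S := rt T with hSdef
  have hS : S.PosSemidef := rt_psd hT
  have hSS : S * S = T := rt_mul_self hT
  obtain ⟨Z, hZ, hsyl, hplus, hminus⟩ := exists_sylvester hS hWh (by rwa [hSS]) (by rwa [hSS])
  have hhalf : ((1 / 2 : ℝ) • S).PosSemidef := hS.smul (by norm_num)
  have hWp : (S + Z).PosSemidef := by
    have := hhalf.add hplus
    have e : (1 / 2 : ℝ) • S + ((1 / 2 : ℝ) • S + Z) = S + Z := by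
      rw [← add_assoc, ← add_smul]; norm_num
    rwa [e] at this
  have hWm : (S - Z).PosSemidef := by
    have := hhalf.add hminus
    have e : (1 / 2 : ℝ) • S + ((1 / 2 : ℝ) • S - Z) = S - Z := by
      rw [← add_sub_assoc, ← add_smul]; norm_num
    rwa [e] at this
  have k1 := E32_ge hp hWp
  have k2 := E32_ge hm hWm
  have e0 : E32 T = rtr (S * S * S) := rfl
  have a1 : rtr ((T + W) * (S + Z)) + rtr ((T - W) * (S - Z)) =
      2 * rtr (S * S * S) + 2 * rtr (W * Z) := by
    have : (T + W) * (S + Z) + (T - W) * (S - Z) = (T * S + T * S) + (W * Z + W * Z) := by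
      noncomm_ring
    rw [← rtr_add, this, rtr_add, rtr_add, rtr_add, ← hSS]
    ring
  have a2 : rtr ((S + Z) * (S + Z) * (S + Z)) + rtr ((S - Z) * (S - Z) * (S - Z)) =
      2 * rtr (S * S * S) + 6 * rtr (S * Z * Z) := by
    have : (S + Z) * (S + Z) * (S + Z) + (S - Z) * (S - Z) * (S - Z) =
        (S * S * S + S * S * S) + (S * Z * Z + S * Z * Z) + (Z * S * Z + Z * S * Z) +
          (Z * Z * S + Z * Z * S) := by
      noncomm_ring
    rw [← rtr_add, this]
    simp only [rtr_add]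
    have c1 : rtr (Z * S * Z) = rtr (S * Z * Z) := by rw [rtr_cyc]
    have c2 : rtr (Z * Z * S) = rtr (S * Z * Z) := by rw [rtr_cyc, rtr_cyc]
    rw [c1, c2]
    ring
  have a3 : rtr (W * Z) = 2 * rtr (S * Z * Z) := by
    rw [← hsyl, add_mul, rtr_add]
    have c1 : rtr (Z * S * Z) = rtr (S * Z * Z) := by rw [rtr_cyc]
    rw [c1]
    ring
  -- variational step
  have hZY : ((Z - Y) * (Z - Y)).PosSemidef := by
    have := posSemidef_conjTranspose_mul_self (Z - Y)
    rwa [(hZ.sub hY).eq] at this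
  have v := rtr_mul_nonneg hS hZY
  have v1 : S * ((Z - Y) * (Z - Y)) = S * Z * Z - S * Z * Y - S * Y * Z + S * Y * Y := by
    noncomm_ring
  rw [v1] at v
  simp only [rtr_add, rtr_sub] at v
  have v2 : rtr (W * Y) = rtr (S * Z * Y) + rtr (S * Y * Z) := by
    rw [← hsyl, add_mul, rtr_add]
    have c1 : rtr (Z * S * Y) = rtr (S * Y * Z) := by rw [rtr_cyc]
    rw [c1]
  have : (3 / 2 : ℝ) * rtr (T * S) = (3 / 2) * rtr (S * S * S) := by rw [← hSS]
  nlinarith

/-- Comparison of the root with an upper bound: `S² ≤ 4D²` gives `Tr S Y² ≤ 2 Tr D Y²`. -/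
lemma rtr_root_le {S D Y : Matrix n n 𝕜} (hS : S.PosSemidef) (hD : D.PosSemidef)
    (hY : Y.IsHermitian) (h : ((2 : ℝ) • (2 : ℝ) • (D * D) - S * S).PosSemidef) :
    rtr (S * Y * Y) ≤ 2 * rtr (D * Y * Y) := by
  have h2D : ((2 : ℝ) • D).PosSemidef := hD.smul (by norm_num)
  have hle : ((2 : ℝ) • D - S).PosSemidef := by
    apply le_of_sq_le hS h2D
    have e : (2 : ℝ) • D * ((2 : ℝ) • D) = (2 : ℝ) • (2 : ℝ) • (D * D) := by
      rw [Matrix.smul_mul, Matrix.mul_smul]
    rwa [e]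
  have hYY : (Y * Y).PosSemidef := by
    have := posSemidef_conjTranspose_mul_self Y
    rwa [hY.eq] at this
  have h3 := rtr_mul_nonneg hle hYY
  have e : ((2 : ℝ) • D - S) * (Y * Y) = (2 : ℝ) • (D * Y * Y) - S * Y * Y := by
    rw [sub_mul, Matrix.smul_mul]
    simp only [Matrix.mul_assoc]
  rw [e, rtr_sub] at h3
  have e2 : rtr ((2 : ℝ) • (D * Y * Y)) = 2 * rtr (D * Y * Y) := by
    simp only [rtr, trace_smul]
    rw [RCLike.real_smul_eq_coe_mul, RCLike.re_ofReal_mul]
  linarith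

end Crest.Agent.TriH
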