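import Crest.Agent.TriH.Energy

/-!
# Calculus-free trace lemmas for the energy `f = Tr (·)^{3/2}`

`Hf X Y = Tr (x-y)²(x+y)` with `x = X^{1/2}`, `y = Y^{1/2}`, the midpoint gap
`Jf X Y = (f X + f Y)/2 - f ((X+Y)/2)`.

* `Jf_le`        : `Jf X Y ≤ (3/16) Hf X Y`
* `le_Jf`        : `Hf X Y / 16 ≤ Jf X Y`
* `sqrt_Hf_add`  : `√H(g₊+p₊, g₋+p₋) ≤ √H(g₊,g₋) + √H(p₊,p₋)`
* `mixed_le`     : the mixed difference
   `f(g₊+p₊)+f(g₋+p₋)-f(g₊+p₋)-f(g₋+p₊) ≤ 12 (Jf g₊ g₋ + Jf p₊ p₋)`.
-/

set_option linter.unusedSectionVars false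

namespace Crest.Agent.TriH

open Matrix
open scoped ComplexOrder

variable {𝕜 : Type*} [RCLike 𝕜] {n : Type*} [Fintype n] [DecidableEq n]

/-- `H(X,Y) = Tr (x-y)²(x+y)`, `x = X^{1/2}`, `y = Y^{1/2}`. -/
noncomputable def Hf (X Y : Matrix n n 𝕜) : ℝ :=
  rtr ((rt X - rt Y) * (rt X - rt Y) * (rt X + rt Y))

/-- midpoint gap of the energy. -/
noncomputable def Jf (X Y : Matrix n n 𝕜) : ℝ :=
  (E32 X + E32 Y) / 2 - E32 ((1 / 2 : ℝ) • (X + Y))

lemma psd_mul_self {A : Matrix n n 𝕜} (hA : A.IsHermitian) : (A * A).PosSemidef := by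
  have := posSemidef_conjTranspose_mul_self A
  rwa [hA.eq] at this

lemma rtr_smul_real (c : ℝ) (A : Matrix n n 𝕜) : rtr (c • A) = c * rtr A := by
  simp only [rtr, trace_smul]
  rw [RCLike.real_smul_eq_coe_mul, RCLike.re_ofReal_mul]

lemma half_mul_half (A B : Matrix n n 𝕜) :
    ((1 / 2 : ℝ) • A) * ((1 / 2 : ℝ) • B) = (1 / 4 : ℝ) • (A * B) := by
  rw [Matrix.smul_mul, Matrix.mul_smul, smul_smul]
  congr 1
  norm_num

lemma half_cube (A : Matrix n n 𝕜) :
    ((1 / 2 : ℝ) • A) * ((1 / 2 : ℝ) • A) * ((1 / 2 : ℝ) • A) = (1 / 8 : ℝ) • (A * A * A) := by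
  rw [half_mul_half, Matrix.smul_mul, Matrix.mul_smul, smul_smul]
  congr 1
  norm_num

/-- Cyclic rewriting of the monomials in two letters. -/
lemma rtr_aba (a b : Matrix n n 𝕜) : rtr (a * b * a) = rtr (a * a * b) := by
  rw [rtr_cyc, rtr_cyc]

lemma rtr_baa (a b : Matrix n n 𝕜) : rtr (b * a * a) = rtr (a * a * b) := by
  rw [rtr_cyc]

/-- Expansion of `Hf` in traces. -/
lemma Hf_expand (a b : Matrix n n 𝕜) :
    rtr ((a - b) * (a - b) * (a + b)) =
      rtr (a * a * a) + rtr (b * b * b) - rtr (a * a * b) - rtr (b * b * a) := by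
  have h : (a - b) * (a - b) * (a + b) =
      a * a * a + a * a * b - a * b * a - a * b * b - b * a * a - b * a * b
        + b * b * a + b * b * b := by noncomm_ring
  rw [h]
  simp only [rtr_add, rtr_sub]
  rw [rtr_aba a b, rtr_baa a b, rtr_baa b a, rtr_aba b a]
  ring

lemma Hf_eq (X Y : Matrix n n 𝕜) :
    Hf X Y = rtr (rt X * rt X * rt X) + rtr (rt Y * rt Y * rt Y)
      - rtr (rt X * rt X * rt Y) - rtr (rt Y * rt Y * rt X) := Hf_expand _ _

/-- `H(X,Y) = Tr (X-Y)(x-y)`. -/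
lemma Hf_eq_diff {X Y : Matrix n n 𝕜} (hX : X.PosSemidef) (hY : Y.PosSemidef) :
    Hf X Y = rtr ((X - Y) * (rt X - rt Y)) := by
  rw [Hf_eq]
  have ha : rt X * rt X = X := rt_mul_self hX
  have hb : rt Y * rt Y = Y := rt_mul_self hY
  rw [ha, hb]
  have : (X - Y) * (rt X - rt Y) = X * rt X - X * rt Y - Y * rt X + Y * rt Y := by noncomm_ring
  rw [this]
  simp only [rtr_add, rtr_sub]
  ring

lemma Hf_nonneg {X Y : Matrix n n 𝕜} (hX : X.PosSemidef) (hY : Y.PosSemidef) :
    0 ≤ Hf X Y := by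
  have ha := rt_psd hX
  have hb := rt_psd hY
  exact rtr_mul_nonneg (psd_mul_self (ha.1.sub hb.1)) (ha.add hb)

lemma half_add_psd {X Y : Matrix n n 𝕜} (hX : X.PosSemidef) (hY : Y.PosSemidef) :
    ((1 / 2 : ℝ) • (X + Y)).PosSemidef := (hX.add hY).smul (by norm_num)

/-- **Y1.** `J ≤ (3/16) H`: test `W = (x+y)/2` in Klein at the midpoint. -/
theorem Jf_le {X Y : Matrix n n 𝕜} (hX : X.PosSemidef) (hY : Y.PosSemidef) :
    Jf X Y ≤ (3 / 16) * Hf X Y := by
  have ha := rt_psd hX
  have hb := rt_psd hY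
  have haa : rt X * rt X = X := rt_mul_self hX
  have hbb : rt Y * rt Y = Y := rt_mul_self hY
  have hW : ((1 / 2 : ℝ) • (rt X + rt Y)).PosSemidef := half_add_psd ha hb
  have key := E32_ge (half_add_psd hX hY) hW
  have h1 : E32 X = rtr (rt X * rt X * rt X) := rfl
  have h2 : E32 Y = rtr (rt Y * rt Y * rt Y) := rfl
  rw [half_mul_half, half_cube, rtr_smul_real, rtr_smul_real] at key
  generalize rt X = a at *
  generalize rt Y = b at *
  subst haa hbb
  have e1 : rtr ((a * a + b * b) * (a + b)) =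
      rtr (a * a * a) + rtr (a * a * b) + rtr (b * b * a) + rtr (b * b * b) := by
    have : (a * a + b * b) * (a + b) = a * a * a + a * a * b + b * b * a + b * b * b := by
      noncomm_ring
    rw [this]
    simp only [rtr_add]
  have e2 : rtr ((a + b) * (a + b) * (a + b)) =
      rtr (a * a * a) + 3 * rtr (a * a * b) + 3 * rtr (b * b * a) + rtr (b * b * b) := by
    have : (a + b) * (a + b) * (a + b) = a * a * a + a * a * b + a * b * a + a * b * b
        + b * a * a + b * a * b + b * b * a + b * b * b := by noncomm_ring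
    rw [this]
    simp only [rtr_add]
    rw [rtr_aba a b, rtr_baa a b, rtr_baa b a, rtr_aba b a]
    ring
  rw [e1, e2] at key
  have hH : Hf (a * a) (b * b) = rtr (a * a * a) + rtr (b * b * b) - rtr (a * a * b)
      - rtr (b * b * a) := by
    rw [Hf, rt_eq ha rfl, rt_eq hb rfl, Hf_expand]
  rw [Jf, hH, h1, h2]
  linarith

/-- **Y2.** `H/16 ≤ J`. -/
theorem le_Jf {X Y : Matrix n n 𝕜} (hX : X.PosSemidef) (hY : Y.PosSemidef) :
    Hf X Y / 16 ≤ Jf X Y := by
  have ha := rt_psd hX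
  have hb := rt_psd hY
  have hM := half_add_psd hX hY
  have hm := rt_psd hM
  have haa : rt X * rt X = X := rt_mul_self hX
  have hbb : rt Y * rt Y = Y := rt_mul_self hY
  have hmm : rt ((1 / 2 : ℝ) • (X + Y)) * rt ((1 / 2 : ℝ) • (X + Y)) = (1 / 2 : ℝ) • (X + Y) :=
    rt_mul_self hM
  have hE : E32 ((1 / 2 : ℝ) • (X + Y)) =
      rtr (rt ((1 / 2 : ℝ) • (X + Y)) * rt ((1 / 2 : ℝ) • (X + Y)) * rt ((1 / 2 : ℝ) • (X + Y))) := rfl
  have h1 : E32 X = rtr (rt X * rt X * rt X) := rfl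
  have h2 : E32 Y = rtr (rt Y * rt Y * rt Y) := rfl
  have hH := Hf_eq X Y
  rw [Jf, hE, h1, h2, hH]
  generalize rt ((1 / 2 : ℝ) • (X + Y)) = m at *
  have hmm2 : m * m + m * m = X + Y := by
    rw [hmm, ← two_smul ℝ, smul_smul]
    norm_num
  generalize rt X = a at *
  generalize rt Y = b at *
  subst haa hbb
  -- `(a+b) ≤ m+m`
  have hle : (m + m - (a + b)).PosSemidef := by
    apply le_of_sq_le (ha.add hb) (hm.add hm)
    have : (m + m) * (m + m) - (a + b) * (a + b) = (a - b) * (a - b) := by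
      have e : (m + m) * (m + m) = (m * m + m * m) + (m * m + m * m) := by noncomm_ring
      rw [e, hmm2]
      noncomm_ring
    rw [this]
    exact psd_mul_self (ha.1.sub hb.1)
  have p1 := rtr_mul_nonneg (psd_mul_self (ha.1.sub hm.1)) ha
  have p2 := rtr_mul_nonneg (psd_mul_self (hb.1.sub hm.1)) hb
  have hsum : ((a + b - (m + m)) * (a + b - (m + m))).PosSemidef :=
    psd_mul_self ((ha.1.add hb.1).sub (hm.1.add hm.1))
  have p3 := rtr_mul_nonneg hsum hm
  have p4 := rtr_mul_nonneg (psd_mul_self (ha.1.sub hb.1)) hle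
  -- expansions
  have mm1 : rtr (a * a * m) + rtr (b * b * m) = 2 * rtr (m * m * m) := by
    have : a * a * m + b * b * m = (m * m + m * m) * m := by
      rw [hmm2]; noncomm_ring
    rw [← rtr_add, this, add_mul, rtr_add]
    ring
  have e1 : rtr ((a - m) * (a - m) * a) =
      rtr (a * a * a) - 2 * rtr (a * a * m) + rtr (m * m * a) := by
    have : (a - m) * (a - m) * a = a * a * a - a * m * a - m * a * a + m * m * a := by
      noncomm_ring
    rw [this]
    simp only [rtr_add, rtr_sub]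
    rw [rtr_aba a m, rtr_baa a m]
    ring
  have e2 : rtr ((b - m) * (b - m) * b) =
      rtr (b * b * b) - 2 * rtr (b * b * m) + rtr (m * m * b) := by
    have : (b - m) * (b - m) * b = b * b * b - b * m * b - m * b * b + m * m * b := by
      noncomm_ring
    rw [this]
    simp only [rtr_add, rtr_sub]
    rw [rtr_aba b m, rtr_baa b m]
    ring
  have e3 : rtr ((a + b - (m + m)) * (a + b - (m + m)) * m) =
      rtr (a * a * m) + rtr (b * b * m) + rtr (a * b * m) + rtr (b * a * m)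
        - 4 * rtr (m * m * a) - 4 * rtr (m * m * b) + 4 * rtr (m * m * m) := by
    have : (a + b - (m + m)) * (a + b - (m + m)) * m =
        a * a * m + b * b * m + a * b * m + b * a * m
          - a * m * m - a * m * m - b * m * m - b * m * m
          - m * a * m - m * a * m - m * b * m - m * b * m
          + m * m * m + m * m * m + m * m * m + m * m * m := by
      noncomm_ring
    rw [this]
    simp only [rtr_add, rtr_sub]
    rw [rtr_baa m a, rtr_baa m b, rtr_aba m a, rtr_aba m b]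
    ring
  have e4 : rtr ((a - b) * (a - b) * (m + m - (a + b))) =
      2 * (rtr (a * a * m) + rtr (b * b * m) - rtr (a * b * m) - rtr (b * a * m))
        - (rtr (a * a * a) + rtr (b * b * b) - rtr (a * a * b) - rtr (b * b * a)) := by
    have : (a - b) * (a - b) * (m + m - (a + b)) =
        ((a * a * m + b * b * m - a * b * m - b * a * m)
          + (a * a * m + b * b * m - a * b * m - b * a * m))
          - (a - b) * (a - b) * (a + b) := by
      noncomm_ring
    rw [this, rtr_sub, Hf_expand]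
    simp only [rtr_add, rtr_sub]
    ring
  rw [e1] at p1
  rw [e2] at p2
  rw [e3] at p3
  rw [e4] at p4
  linarith

/-- Monotonicity of the trace pairing. -/
lemma rtr_mono {P A B : Matrix n n 𝕜} (hP : P.PosSemidef) (h : (B - A).PosSemidef) :
    rtr (A * P) ≤ rtr (B * P) := by
  have := rtr_mul_nonneg h hP
  rw [sub_mul, rtr_sub] at this
  linarith

/-- **Cauchy–Schwarz** for the form `(u,v) ↦ Tr s (uv+vu)`. -/
lemma rtr_cs {s u v : Matrix n n 𝕜} (hs : s.PosSemidef) (hu : u.IsHermitian) (hv : v.IsHermitian) :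
    rtr (u * v * s) + rtr (v * u * s) ≤
      2 * (Real.sqrt (rtr (u * u * s)) * Real.sqrt (rtr (v * v * s))) := by
  have ha : 0 ≤ rtr (u * u * s) := rtr_mul_nonneg (psd_mul_self hu) hs
  have hc : 0 ≤ rtr (v * v * s) := rtr_mul_nonneg (psd_mul_self hv) hs
  set a := rtr (u * u * s)
  set c := rtr (v * v * s)
  set b := rtr (u * v * s) + rtr (v * u * s) with hb
  have hq : ∀ t : ℝ, 0 ≤ a + t * b + t * t * c := by
    intro t
    have hH : (u + t • v).IsHermitian := hu.add (by
      rw [IsHermitian, conjTranspose_smul, hv.eq, star_trivial])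
    have h0 := rtr_mul_nonneg (psd_mul_self hH) hs
    have e : (u + t • v) * (u + t • v) * s =
        u * u * s + t • (u * v * s + v * u * s) + (t * t) • (v * v * s) := by
      simp only [add_mul, mul_add, Matrix.smul_mul, Matrix.mul_smul, smul_add, smul_smul]
      abel
    rw [e, rtr_add, rtr_add, rtr_smul_real, rtr_smul_real, rtr_add] at h0
    exact h0
  -- discriminant
  have hdisc : b * b ≤ 4 * a * c := by
    by_cases hc0 : c = 0
    · -- then `b = 0`
      have hb0 : b = 0 := by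
        by_contra hne
        have h1 := hq (-(a + 1) / b)
        rw [hc0] at h1
        have : a + (-(a + 1) / b) * b + (-(a + 1) / b) * (-(a + 1) / b) * 0 = -1 := by
          field_simp
          ring
        linarith
      rw [hb0, hc0]; simp
    · have hcpos : 0 < c := lt_of_le_of_ne hc (Ne.symm hc0)
      have h1 := hq (-b / (2 * c))
      have e : a + (-b / (2 * c)) * b + (-b / (2 * c)) * (-b / (2 * c)) * c =
          a - b * b / (4 * c) := by
        field_simp
        ring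
      rw [e] at h1
      have h2 : b * b / (4 * c) ≤ a := by linarith
      rw [div_le_iff₀ (by positivity)] at h2
      linarith
  have : b ≤ Real.sqrt (4 * a * c) := by
    apply Real.le_sqrt_of_sq_le
    nlinarith
  have e : Real.sqrt (4 * a * c) = 2 * (Real.sqrt a * Real.sqrt c) := by
    rw [show 4 * a * c = 2 ^ 2 * (a * c) by ring, Real.sqrt_mul (by positivity),
      Real.sqrt_sq (by norm_num), Real.sqrt_mul ha]
  linarith

/-- one half of the subadditivity proof: `Tr (g₊-g₋) Z ≤ √H(g₊,g₋) √H(A,B)`. -/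
lemma rtr_diff_le {gp gm qp qm : Matrix n n 𝕜} (hgp : gp.PosSemidef) (hgm : gm.PosSemidef)
    (hqp : qp.PosSemidef) (hqm : qm.PosSemidef) :
    rtr ((gp - gm) * (rt (gp + qp) - rt (gm + qm))) ≤
      Real.sqrt (Hf gp gm) * Real.sqrt (Hf (gp + qp) (gm + qm)) := by
  have hA : (gp + qp).PosSemidef := hgp.add hqp
  have hB : (gm + qm).PosSemidef := hgm.add hqm
  have ha := rt_psd hA
  have hb := rt_psd hB
  have hr := rt_psd hgp
  have hs := rt_psd hgm
  have haa : rt (gp + qp) * rt (gp + qp) = gp + qp := rt_mul_self hA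
  have hbb : rt (gm + qm) * rt (gm + qm) = gm + qm := rt_mul_self hB
  have hrr : rt gp * rt gp = gp := rt_mul_self hgp
  have hss : rt gm * rt gm = gm := rt_mul_self hgm
  have e1 : Hf gp gm = rtr ((rt gp - rt gm) * (rt gp - rt gm) * (rt gp + rt gm)) := rfl
  have e2 : Hf (gp + qp) (gm + qm) = rtr ((rt (gp + qp) - rt (gm + qm)) *
      (rt (gp + qp) - rt (gm + qm)) * (rt (gp + qp) + rt (gm + qm))) := rfl
  rw [e1, e2]
  generalize rt (gp + qp) = A at *
  generalize rt (gm + qm) = B at *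
  generalize rt gp = r at *
  generalize rt gm = s at *
  subst hrr hss
  have hrA : (A - r).PosSemidef := by
    apply le_of_sq_le hr ha
    rw [haa]; simpa using hqp
  have hsB : (B - s).PosSemidef := by
    apply le_of_sq_le hs hb
    rw [hbb]; simpa using hqm
  have hZ : (A - B).IsHermitian := ha.1.sub hb.1
  have hz : (r - s).IsHermitian := hr.1.sub hs.1
  have hsum : (r + s).PosSemidef := hr.add hs
  have hcs := rtr_cs (s := r + s) hsum hz hZ
  have e3 : rtr ((r - s) * (A - B) * (r + s)) + rtr ((A - B) * (r - s) * (r + s)) =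
      2 * rtr ((r * r - s * s) * (A - B)) := by
    have t1 : rtr ((A - B) * (r - s) * (r + s)) = rtr ((r - s) * (r + s) * (A - B)) := by
      rw [rtr_cyc]
    have t2 : rtr ((r - s) * (A - B) * (r + s)) = rtr ((r + s) * (r - s) * (A - B)) := by
      rw [rtr_cyc, rtr_cyc]
    rw [t1, t2, ← rtr_add, ← add_mul]
    have : (r + s) * (r - s) + (r - s) * (r + s) = (r * r - s * s) + (r * r - s * s) := by
      noncomm_ring
    rw [this, add_mul, rtr_add]
    ring
  rw [e3] at hcs
  have hmono : rtr ((A - B) * (A - B) * (r + s)) ≤ rtr ((A - B) * (A - B) * (A + B)) := by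
    have := rtr_mul_nonneg (psd_mul_self hZ)
      (show ((A + B) - (r + s)).PosSemidef by
        have := hrA.add hsB
        have e : (A - r) + (B - s) = (A + B) - (r + s) := by abel
        rwa [e] at this)
    rw [mul_sub, rtr_sub] at this
    linarith
  have hsq : Real.sqrt (rtr ((A - B) * (A - B) * (r + s))) ≤
      Real.sqrt (rtr ((A - B) * (A - B) * (A + B))) := Real.sqrt_le_sqrt hmono
  have hnn : 0 ≤ Real.sqrt (rtr ((r - s) * (r - s) * (r + s))) := Real.sqrt_nonneg _
  nlinarith [mul_le_mul_of_nonneg_left hsq hnn]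

/-- **Y3.** Subadditivity of `√H`. -/
theorem sqrt_Hf_add {gp gm qp qm : Matrix n n 𝕜} (hgp : gp.PosSemidef) (hgm : gm.PosSemidef)
    (hqp : qp.PosSemidef) (hqm : qm.PosSemidef) :
    Real.sqrt (Hf (gp + qp) (gm + qm)) ≤ Real.sqrt (Hf gp gm) + Real.sqrt (Hf qp qm) := by
  have hA : (gp + qp).PosSemidef := hgp.add hqp
  have hB : (gm + qm).PosSemidef := hgm.add hqm
  have h1 := rtr_diff_le hgp hgm hqp hqm
  have h2 := rtr_diff_le hqp hqm hgp hgm
  rw [add_comm qp gp, add_comm qm gm] at h2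
  have h0 : Hf (gp + qp) (gm + qm) =
      rtr ((gp - gm) * (rt (gp + qp) - rt (gm + qm))) +
        rtr ((qp - qm) * (rt (gp + qp) - rt (gm + qm))) := by
    rw [Hf_eq_diff hA hB, ← rtr_add, ← add_mul]
    congr 2
    abel
  have hH := Hf_nonneg hA hB
  set h := Real.sqrt (Hf (gp + qp) (gm + qm)) with hdef
  have hsq : h * h = Hf (gp + qp) (gm + qm) := Real.mul_self_sqrt hH
  have hh : h * h ≤ (Real.sqrt (Hf gp gm) + Real.sqrt (Hf qp qm)) * h := by
    rw [hsq, h0]
    linarith
  by_cases hpos : 0 < h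
  · exact le_of_mul_le_mul_right hh hpos
  · have : h = 0 := le_antisymm (not_lt.mp hpos) (Real.sqrt_nonneg _)
    rw [this]
    positivity

/-- `D ≤ 2 J` : the cross terms dominate the midpoint. -/
lemma mixed_le_J {gp gm qp qm : Matrix n n 𝕜} (hgp : gp.PosSemidef) (hgm : gm.PosSemidef)
    (hqp : qp.PosSemidef) (hqm : qm.PosSemidef) :
    E32 (gp + qp) + E32 (gm + qm) - E32 (gp + qm) - E32 (gm + qp) ≤
      2 * Jf (gp + qp) (gm + qm) := by
  have hM := half_add_psd (hgp.add hqp) (hgm.add hqm)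
  have hw := rt_psd hM
  have hww := rt_mul_self hM
  have k1 := E32_ge (hgp.add hqm) hw
  have k2 := E32_ge (hgm.add hqp) hw
  have e0 : E32 ((1 / 2 : ℝ) • (gp + qp + (gm + qm))) =
      rtr (rt ((1 / 2 : ℝ) • (gp + qp + (gm + qm))) * rt ((1 / 2 : ℝ) • (gp + qp + (gm + qm)))
        * rt ((1 / 2 : ℝ) • (gp + qp + (gm + qm)))) := rfl
  have e1 : rtr ((gp + qm) * rt ((1 / 2 : ℝ) • (gp + qp + (gm + qm)))) +
      rtr ((gm + qp) * rt ((1 / 2 : ℝ) • (gp + qp + (gm + qm)))) =
      2 * E32 ((1 / 2 : ℝ) • (gp + qp + (gm + qm))) := by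
    rw [e0, hww, ← rtr_add, ← add_mul, Matrix.smul_mul, rtr_smul_real]
    have : gp + qm + (gm + qp) = gp + qp + (gm + qm) := by abel
    rw [this]
    ring
  rw [Jf]
  have e2 : rtr (rt ((1 / 2 : ℝ) • (gp + qp + (gm + qm))) * rt ((1 / 2 : ℝ) • (gp + qp + (gm + qm)))
        * rt ((1 / 2 : ℝ) • (gp + qp + (gm + qm)))) = E32 ((1 / 2 : ℝ) • (gp + qp + (gm + qm))) := rfl
  rw [e2] at k1 k2
  linarith

/-- **Y4.** The mixed difference. -/
theorem mixed_le {gp gm qp qm : Matrix n n 𝕜} (hgp : gp.PosSemidef) (hgm : gm.PosSemidef)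
    (hqp : qp.PosSemidef) (hqm : qm.PosSemidef) :
    E32 (gp + qp) + E32 (gm + qm) - E32 (gp + qm) - E32 (gm + qp) ≤
      12 * (Jf gp gm + Jf qp qm) := by
  have h1 := mixed_le_J hgp hgm hqp hqm
  have h2 := Jf_le (hgp.add hqp) (hgm.add hqm)
  have h3 := sqrt_Hf_add hgp hgm hqp hqm
  have h4 := le_Jf hgp hgm
  have h5 := le_Jf hqp hqm
  have hH := Hf_nonneg (hgp.add hqp) (hgm.add hqm)
  have hg := Hf_nonneg hgp hgm
  have hq := Hf_nonneg hqp hqm
  have h6 : Hf (gp + qp) (gm + qm) ≤ 2 * (Hf gp gm + Hf qp qm) := by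
    have a0 := Real.sqrt_nonneg (Hf (gp + qp) (gm + qm))
    have a1 := Real.sqrt_nonneg (Hf gp gm)
    have a2 := Real.sqrt_nonneg (Hf qp qm)
    have s0 := Real.mul_self_sqrt hH
    have s1 := Real.mul_self_sqrt hg
    have s2 := Real.mul_self_sqrt hq
    have := mul_self_le_mul_self a0 h3
    nlinarith [sq_nonneg (Real.sqrt (Hf gp gm) - Real.sqrt (Hf qp qm))]
  linarith

end Crest.Agent.TriH
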