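import Crest.Agent.TriH.LemmaA
import Crest.Agent.TriH.Energy

/-!
# Weak SVD, matrix form of Lemma A, and the off-diagonal test for the energy gap

`A = U Σ Vᴴ` with `V` unitary (eigenbasis of `AᴴA`) and `U = A V Σ⁻¹` a partial isometry; no
completion of `U` is needed.
-/

namespace Crest.Agent.TriH

open Matrix
open scoped ComplexOrder

variable {𝕜 : Type*} [RCLike 𝕜] {m n l : Type*} [Fintype m] [Fintype n] [Fintype l]
  [DecidableEq m] [DecidableEq n] [DecidableEq l]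

/-- Weak singular value decomposition. -/
structure WSVD (A : Matrix m n 𝕜) where
  /-- singular values -/
  s : n → ℝ
  s_nonneg : ∀ i, 0 ≤ s i
  /-- partial isometry -/
  U : Matrix m n 𝕜
  /-- unitary -/
  V : Matrix n n 𝕜
  VV : Vᴴ * V = 1
  VV' : V * Vᴴ = 1
  UU : Uᴴ * U = diagonal (fun i => if s i = 0 then (0 : 𝕜) else 1)
  eq : A = U * diagonal (fun i => ((s i : ℝ) : 𝕜)) * Vᴴ

omit [DecidableEq m] in
/-- Existence of the weak SVD. -/
theorem exists_wsvd (A : Matrix m n 𝕜) : Nonempty (WSVD A) := by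
  classical
  have hH : (Aᴴ * A).IsHermitian := isHermitian_conjTranspose_mul_self A
  have hPSD : (Aᴴ * A).PosSemidef := posSemidef_conjTranspose_mul_self A
  set V : Matrix n n 𝕜 := (hH.eigenvectorUnitary : Matrix n n 𝕜) with hV
  set lam : n → ℝ := hH.eigenvalues with hlam
  have hlam0 : ∀ i, 0 ≤ lam i := hPSD.eigenvalues_nonneg
  have hsp : Aᴴ * A = V * diagonal (fun i => ((lam i : ℝ) : 𝕜)) * Vᴴ := by
    have := hH.spectral_theorem
    rw [Unitary.conjStarAlgAut_apply] at this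
    simpa [hV, star_eq_conjTranspose, Function.comp_def] using this
  have hVV : Vᴴ * V = 1 := by
    have := Unitary.coe_star_mul_self hH.eigenvectorUnitary
    simpa [hV, star_eq_conjTranspose] using this
  have hVV' : V * Vᴴ = 1 := by
    have := Unitary.coe_mul_star_self hH.eigenvectorUnitary
    simpa [hV, star_eq_conjTranspose] using this
  set s : n → ℝ := fun i => √(lam i) with hs
  have hs0 : ∀ i, 0 ≤ s i := fun i => Real.sqrt_nonneg _
  have hss : ∀ i, s i * s i = lam i := fun i => Real.mul_self_sqrt (hlam0 i)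
  set U : Matrix m n 𝕜 := A * V * diagonal (fun i => (((s i)⁻¹ : ℝ) : 𝕜)) with hU
  have hAV : (A * V)ᴴ * (A * V) = diagonal (fun i => ((lam i : ℝ) : 𝕜)) := by
    rw [conjTranspose_mul]
    calc Vᴴ * Aᴴ * (A * V) = Vᴴ * (Aᴴ * A) * V := by simp only [Matrix.mul_assoc]
      _ = (Vᴴ * V) * diagonal (fun i => ((lam i : ℝ) : 𝕜)) * (Vᴴ * V) := by
          rw [hsp]; simp only [Matrix.mul_assoc]
      _ = _ := by rw [hVV]; simp
  have hcol0 : ∀ i, s i = 0 → ∀ x, (A * V) x i = 0 := by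
    intro i hi x
    have h1 : ((A * V)ᴴ * (A * V)) i i = ((lam i : ℝ) : 𝕜) := by
      rw [hAV]; simp
    have h2 : lam i = 0 := by
      have := hss i
      rw [hi] at this
      linarith
    rw [h2] at h1
    have h3 : ∑ y, star ((A * V) y i) * (A * V) y i = 0 := by
      rw [mul_apply] at h1
      simpa [conjTranspose_apply] using h1
    have h4 : ∑ y, ‖(A * V) y i‖ ^ 2 = 0 := by
      have : ((∑ y, ‖(A * V) y i‖ ^ 2 : ℝ) : 𝕜) = 0 := by
        push_cast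
        rw [← h3]
        apply Finset.sum_congr rfl
        intro y _
        rw [RCLike.star_def, RCLike.conj_mul]
      exact_mod_cast this
    have h5 := (Finset.sum_eq_zero_iff_of_nonneg (fun y _ => by positivity)).mp h4 x (Finset.mem_univ _)
    simpa using h5
  refine ⟨⟨s, hs0, U, V, hVV, hVV', ?_, ?_⟩⟩
  · -- `UᴴU`
    rw [hU, conjTranspose_mul]
    have e : (diagonal (fun i => (((s i)⁻¹ : ℝ) : 𝕜)))ᴴ = diagonal (fun i => (((s i)⁻¹ : ℝ) : 𝕜)) := by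
      ext i j
      by_cases h : i = j
      · subst h; simp
      · simp [h, diagonal, Ne.symm h]
    rw [e]
    calc diagonal (fun i => (((s i)⁻¹ : ℝ) : 𝕜)) * (A * V)ᴴ * (A * V * diagonal (fun i => (((s i)⁻¹ : ℝ) : 𝕜)))
        = diagonal (fun i => (((s i)⁻¹ : ℝ) : 𝕜)) * ((A * V)ᴴ * (A * V)) *
            diagonal (fun i => (((s i)⁻¹ : ℝ) : 𝕜)) := by simp only [Matrix.mul_assoc]
      _ = _ := by
        rw [hAV, diagonal_mul_diagonal, diagonal_mul_diagonal]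
        congr 1
        ext i
        by_cases h : s i = 0
        · simp [h]
        · have h' : ((s i : ℝ) : 𝕜) ≠ 0 := by exact_mod_cast h
          rw [if_neg h, ← hss i]
          push_cast
          field_simp
  · -- `A = U Σ Vᴴ`
    have h1 : U * diagonal (fun i => ((s i : ℝ) : 𝕜)) = A * V := by
      rw [hU, Matrix.mul_assoc, diagonal_mul_diagonal]
      ext x i
      rw [mul_diagonal]
      by_cases h : s i = 0
      · simp [hcol0 i h x, h]
      · have h' : ((s i : ℝ) : 𝕜) ≠ 0 := by exact_mod_cast h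
        push_cast
        field_simp
    rw [h1, Matrix.mul_assoc, hVV', Matrix.mul_one]

omit [DecidableEq m] [DecidableEq n] in
lemma rtr_rect (V : Matrix m n 𝕜) (M : Matrix n n 𝕜) : rtr (V * M * Vᴴ) = rtr (M * (Vᴴ * V)) := by
  have : trace (V * M * Vᴴ) = trace (M * (Vᴴ * V)) := by
    rw [trace_mul_comm, ← Matrix.mul_assoc, trace_mul_comm]
  simp [rtr, this]

/-- A chosen weak SVD. -/
noncomputable def svd (A : Matrix m n 𝕜) : WSVD A := Classical.choice (exists_wsvd A)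

namespace WSVD

variable {A : Matrix m n 𝕜} (W : WSVD A)

/-- The diagonal matrix of singular values. -/
noncomputable def sig : Matrix n n 𝕜 := diagonal (fun i => ((W.s i : ℝ) : 𝕜))

omit [DecidableEq m] in
lemma sig_psd : W.sig.PosSemidef := by
  apply PosSemidef.diagonal
  intro i
  simp [W.s_nonneg i]

omit [DecidableEq m] in
lemma sig_herm : W.sig.IsHermitian := W.sig_psd.1

omit [DecidableEq m] in
lemma A_eq : A = W.U * W.sig * W.Vᴴ := W.eq

omit [DecidableEq m] in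
lemma UU_sig : W.Uᴴ * W.U * W.sig = W.sig := by
  rw [W.UU, sig, diagonal_mul_diagonal]
  congr 1
  ext i
  by_cases h : W.s i = 0 <;> simp [h]

omit [DecidableEq m] in
lemma sig_UU : W.sig * (W.Uᴴ * W.U) = W.sig := by
  rw [W.UU, sig, diagonal_mul_diagonal]
  congr 1
  ext i
  by_cases h : W.s i = 0 <;> simp [h]

omit [DecidableEq m] in
lemma conj_A : Aᴴ = W.V * W.sig * W.Uᴴ := by
  conv_lhs => rw [W.A_eq]
  rw [conjTranspose_mul, conjTranspose_mul, conjTranspose_conjTranspose, W.sig_herm.eq]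
  simp only [Matrix.mul_assoc]

omit [DecidableEq m] in
lemma conj_mul_self : Aᴴ * A = W.V * (W.sig * W.sig) * W.Vᴴ := by
  calc Aᴴ * A = W.V * W.sig * W.Uᴴ * (W.U * W.sig * W.Vᴴ) := by rw [← W.conj_A, ← W.A_eq]
    _ = W.V * (W.sig * (W.Uᴴ * W.U * W.sig)) * W.Vᴴ := by simp only [Matrix.mul_assoc]
    _ = _ := by rw [W.UU_sig]

omit [DecidableEq m] in
lemma mul_conj_self : A * Aᴴ = W.U * (W.sig * W.sig) * W.Uᴴ := by
  calc A * Aᴴ = W.U * W.sig * W.Vᴴ * (W.V * W.sig * W.Uᴴ) := by rw [← W.conj_A, ← W.A_eq]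
    _ = W.U * W.sig * (W.Vᴴ * W.V) * W.sig * W.Uᴴ := by simp only [Matrix.mul_assoc]
    _ = _ := by rw [W.VV]; simp only [Matrix.mul_assoc, Matrix.mul_one]

/-- the root of `AAᴴ` -/
noncomputable def rootL : Matrix m m 𝕜 := W.U * W.sig * W.Uᴴ
/-- the root of `AᴴA` -/
noncomputable def rootR : Matrix n n 𝕜 := W.V * W.sig * W.Vᴴ

omit [DecidableEq m] in
lemma rootL_psd : W.rootL.PosSemidef := W.sig_psd.mul_mul_conjTranspose_same W.U
omit [DecidableEq m] in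
lemma rootR_psd : W.rootR.PosSemidef := W.sig_psd.mul_mul_conjTranspose_same W.V

omit [DecidableEq m] in
lemma rootL_sq : W.rootL * W.rootL = A * Aᴴ := by
  rw [W.mul_conj_self, rootL]
  calc W.U * W.sig * W.Uᴴ * (W.U * W.sig * W.Uᴴ)
      = W.U * (W.sig * (W.Uᴴ * W.U * W.sig)) * W.Uᴴ := by simp only [Matrix.mul_assoc]
    _ = _ := by rw [W.UU_sig]

omit [DecidableEq m] in
lemma rootR_sq : W.rootR * W.rootR = Aᴴ * A := by
  rw [W.conj_mul_self, rootR]
  calc W.V * W.sig * W.Vᴴ * (W.V * W.sig * W.Vᴴ)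
      = W.V * W.sig * (W.Vᴴ * W.V) * W.sig * W.Vᴴ := by simp only [Matrix.mul_assoc]
    _ = _ := by rw [W.VV]; simp only [Matrix.mul_assoc, Matrix.mul_one]

omit [DecidableEq m] in
lemma rtr_sig3 : rtr (W.sig * W.sig * W.sig) = ∑ i, (W.s i) ^ 3 := by
  simp only [sig, diagonal_mul_diagonal, rtr, trace_diagonal, map_sum]
  apply Finset.sum_congr rfl
  intro i _
  rw [← RCLike.ofReal_mul, ← RCLike.ofReal_mul, RCLike.ofReal_re]
  ring

omit [DecidableEq m] in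
lemma E32_right : E32 (Aᴴ * A) = ∑ i, (W.s i) ^ 3 := by
  rw [E32_eq_of_root W.rootR_psd W.rootR_sq, ← W.rtr_sig3, rootR]
  have : W.V * W.sig * W.Vᴴ * (W.V * W.sig * W.Vᴴ) * (W.V * W.sig * W.Vᴴ) =
      W.V * (W.sig * (W.Vᴴ * W.V) * W.sig * (W.Vᴴ * W.V) * W.sig) * W.Vᴴ := by
    simp only [Matrix.mul_assoc]
  rw [this, W.VV, rtr_rect, W.VV]
  simp

lemma E32_left : E32 (A * Aᴴ) = ∑ i, (W.s i) ^ 3 := by
  rw [E32_eq_of_root W.rootL_psd W.rootL_sq, ← W.rtr_sig3, rootL]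
  have : W.U * W.sig * W.Uᴴ * (W.U * W.sig * W.Uᴴ) * (W.U * W.sig * W.Uᴴ) =
      W.U * (W.sig * (W.Uᴴ * W.U * W.sig) * (W.Uᴴ * W.U * W.sig)) * W.Uᴴ := by
    simp only [Matrix.mul_assoc]
  rw [this, W.UU_sig, rtr_rect, Matrix.mul_assoc, W.sig_UU]

end WSVD

/-- `Tr (AᴴA)^{3/2} = Tr (AAᴴ)^{3/2}` for rectangular `A`. -/
theorem E32_conj_comm (A : Matrix m n 𝕜) : E32 (Aᴴ * A) = E32 (A * Aᴴ) := by
  rw [(svd A).E32_right, (svd A).E32_left]

/-! ### Contractions -/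

lemma re_star_dot_self {ι : Type*} [Fintype ι] (v : ι → 𝕜) :
    RCLike.re (star v ⬝ᵥ v) = ∑ i, ‖v i‖ ^ 2 := by
  simp only [dotProduct, Pi.star_apply, map_sum]
  apply Finset.sum_congr rfl
  intro i _
  rw [RCLike.star_def, RCLike.conj_mul]
  norm_cast

section contr

variable {J K : Type*} [Fintype J] [Fintype K] [DecidableEq J] [DecidableEq K]

omit [DecidableEq J] in
/-- `MᴴM ≤ 1` implies the bilinear contraction bound. -/
lemma isContr_of_le_one {M : Matrix J K 𝕜} (h : (1 - Mᴴ * M).PosSemidef) : IsContr M := by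
  intro p q
  set y : J → 𝕜 := M *ᵥ q with hy
  have e1 : ∑ j, ∑ k, p j * M j k * q k = ∑ j, p j * y j := by
    apply Finset.sum_congr rfl
    intro j _
    simp only [hy, mulVec, dotProduct, Finset.mul_sum, mul_assoc]
  have h1 : ‖∑ j, p j * y j‖ ≤ ∑ j, ‖p j‖ * ‖y j‖ := by
    refine (norm_sum_le _ _).trans ?_
    simp [norm_mul]
  have h2 := Finset.sum_mul_sq_le_sq_mul_sq Finset.univ (fun j => ‖p j‖) (fun j => ‖y j‖)
  have h3 : ∑ j, ‖y j‖ ^ 2 ≤ ∑ k, ‖q k‖ ^ 2 := by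
    have h4 := h.re_dotProduct_nonneg q
    have e2 : star q ⬝ᵥ ((1 - Mᴴ * M) *ᵥ q) = star q ⬝ᵥ q - star y ⬝ᵥ y := by
      rw [sub_mulVec, one_mulVec, dotProduct_sub, ← mulVec_mulVec, hy]
      congr 1
      rw [dotProduct_mulVec, star_mulVec]
    rw [e2, map_sub] at h4
    rw [re_star_dot_self, re_star_dot_self] at h4
    linarith
  rw [e1]
  have h5 : 0 ≤ ∑ j, ‖p j‖ * ‖y j‖ := Finset.sum_nonneg (fun _ _ => by positivity)
  have h6 : 0 ≤ ∑ j, ‖p j‖ ^ 2 := Finset.sum_nonneg (fun _ _ => by positivity)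
  calc ‖∑ j, p j * y j‖ ^ 2 ≤ (∑ j, ‖p j‖ * ‖y j‖) ^ 2 := by gcongr
    _ ≤ (∑ j, ‖p j‖ ^ 2) * ∑ j, ‖y j‖ ^ 2 := h2
    _ ≤ _ := by gcongr

end contr

omit [DecidableEq m] in
/-- `Vᴴ D U` is a contraction. -/
lemma contr_VDU {A : Matrix m n 𝕜} {B : Matrix n l 𝕜} (Wa : WSVD A) (Wb : WSVD B)
    (D : Matrix n n 𝕜) (hD : (1 - Dᴴ * D).PosSemidef) : IsContr (Wa.Vᴴ * D * Wb.U) := by
  apply isContr_of_le_one
  have e : (1 : Matrix l l 𝕜) - (Wa.Vᴴ * D * Wb.U)ᴴ * (Wa.Vᴴ * D * Wb.U) =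
      (1 - Wb.Uᴴ * Wb.U) + Wb.Uᴴ * (1 - Dᴴ * D) * Wb.U := by
    have : (Wa.Vᴴ * D * Wb.U)ᴴ * (Wa.Vᴴ * D * Wb.U) = Wb.Uᴴ * (Dᴴ * D) * Wb.U := by
      rw [conjTranspose_mul, conjTranspose_mul, conjTranspose_conjTranspose]
      calc Wb.Uᴴ * (Dᴴ * Wa.V) * (Wa.Vᴴ * D * Wb.U)
          = Wb.Uᴴ * Dᴴ * (Wa.V * Wa.Vᴴ) * D * Wb.U := by simp only [Matrix.mul_assoc]
        _ = _ := by rw [Wa.VV']; simp only [Matrix.mul_assoc, Matrix.mul_one]
    rw [this]
    simp only [Matrix.mul_sub, Matrix.sub_mul, Matrix.mul_one]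
    abel
  rw [e]
  apply PosSemidef.add
  · rw [Wb.UU]
    have : (1 : Matrix l l 𝕜) - diagonal (fun i => if Wb.s i = 0 then (0 : 𝕜) else 1) =
        diagonal (fun i => if Wb.s i = 0 then (1 : 𝕜) else 0) := by
      ext i j
      by_cases h : i = j
      · subst h
        by_cases h2 : Wb.s i = 0 <;> simp [h2]
      · simp [h]
    rw [this]
    apply PosSemidef.diagonal
    intro i
    by_cases h2 : Wb.s i = 0 <;> simp [h2]
  · exact hD.conjTranspose_mul_mul_same Wb.U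

/-! ### The pair functional `S` and Lemma A in matrix form -/

/-- The pair functional: `Sum φ(c_k,a_i)|Z_ki|²` with `Z = V_Aᴴ D U_B`; it equals
`⟨ADB, (L⊗1+1⊗R)⁻¹ ADB⟩`, with `L=(AAᴴ)^{1/2}`, `R=(BᴴB)^{1/2}`. -/
noncomputable def pairS (A : Matrix m n 𝕜) (B : Matrix n l 𝕜) (D : Matrix n n 𝕜) : ℝ :=
  ∑ k, ∑ i, phi ((svd A).s k) ((svd B).s i) * ‖((svd A).Vᴴ * D * (svd B).U) k i‖ ^ 2

omit [DecidableEq m] in
lemma pairS_nonneg (A : Matrix m n 𝕜) (B : Matrix n l 𝕜) (D : Matrix n n 𝕜) : 0 ≤ pairS A B D := by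
  apply Finset.sum_nonneg; intro k _
  apply Finset.sum_nonneg; intro i _
  exact mul_nonneg (phi_nonneg ((svd A).s_nonneg k) ((svd B).s_nonneg i)) (by positivity)

lemma trace_six {I J K : Type*} [Fintype I] [Fintype J] [Fintype K]
    [DecidableEq I] [DecidableEq J] [DecidableEq K] (a : I → ℝ) (b : J → ℝ) (c : K → ℝ)
    (X : Matrix I J 𝕜) (Y : Matrix J K 𝕜) (Z : Matrix K I 𝕜) :
    trace (diagonal (fun i => ((a i : ℝ) : 𝕜)) * X * diagonal (fun j => ((b j : ℝ) : 𝕜)) * Y *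
        diagonal (fun k => ((c k : ℝ) : 𝕜)) * Z) =
      ∑ i, ∑ j, ∑ k, ((a i * b j * c k : ℝ) : 𝕜) * X i j * Y j k * Z k i := by
  have s1 : ∀ i j, (diagonal (fun i => ((a i : ℝ) : 𝕜)) * X * diagonal (fun j => ((b j : ℝ) : 𝕜))) i j
      = ((a i : ℝ) : 𝕜) * X i j * ((b j : ℝ) : 𝕜) := by
    intro i j
    rw [mul_diagonal, diagonal_mul]
  simp only [trace, diag_apply]
  apply Finset.sum_congr rfl
  intro i _
  rw [mul_apply, Finset.sum_comm]
  apply Finset.sum_congr rfl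
  intro k _
  rw [mul_diagonal, mul_apply, Finset.sum_mul, Finset.sum_mul]
  apply Finset.sum_congr rfl
  intro j _
  rw [s1]
  push_cast
  ring

/-- **Lemma A.** `|Tr(A₀D₁A₁D₂A₂D₀)| ≤ S₁ + S₂ + S₀`. -/
theorem lemmaA_matrix {H0 H1 H2 : Type*} [Fintype H0] [Fintype H1] [Fintype H2]
    [DecidableEq H0] [DecidableEq H1] [DecidableEq H2]
    (A0 : Matrix H0 H1 𝕜) (A1 : Matrix H1 H2 𝕜) (A2 : Matrix H2 H0 𝕜)
    (D0 : Matrix H0 H0 𝕜) (D1 : Matrix H1 H1 𝕜) (D2 : Matrix H2 H2 𝕜)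
    (h0 : (1 - D0ᴴ * D0).PosSemidef) (h1 : (1 - D1ᴴ * D1).PosSemidef)
    (h2 : (1 - D2ᴴ * D2).PosSemidef) :
    ‖trace (A0 * D1 * A1 * D2 * A2 * D0)‖ ≤ pairS A0 A1 D1 + pairS A1 A2 D2 + pairS A2 A0 D0 := by
  set W0 := svd A0 with hW0
  set W1 := svd A1 with hW1
  set W2 := svd A2 with hW2
  set X := W0.Vᴴ * D1 * W1.U with hX
  set Y := W1.Vᴴ * D2 * W2.U with hY
  set Z := W2.Vᴴ * D0 * W0.U with hZ
  have hXc : IsContr X := contr_VDU W0 W1 D1 h1
  have hYc : IsContr Y := contr_VDU W1 W2 D2 h2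
  have hZc : IsContr Z := contr_VDU W2 W0 D0 h0
  have key := lemmaA_core W0.s W1.s W2.s W0.s_nonneg W1.s_nonneg W2.s_nonneg X Y Z hXc hYc hZc
  have e : trace (A0 * D1 * A1 * D2 * A2 * D0) =
      ∑ i, ∑ j, ∑ k, ((W0.s i * W1.s j * W2.s k : ℝ) : 𝕜) * X i j * Y j k * Z k i := by
    have e1 : A0 * D1 * A1 * D2 * A2 * D0 =
        W0.U * (W0.sig * X * W1.sig * Y * W2.sig * (W2.Vᴴ * D0)) := by
      have a0 := W0.A_eq
      have a1 := W1.A_eq
      have a2 := W2.A_eq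
      calc A0 * D1 * A1 * D2 * A2 * D0
          = (W0.U * W0.sig * W0.Vᴴ) * D1 * (W1.U * W1.sig * W1.Vᴴ) * D2 *
              (W2.U * W2.sig * W2.Vᴴ) * D0 := by rw [← a0, ← a1, ← a2]
        _ = _ := by simp only [hX, hY, Matrix.mul_assoc]
    rw [e1, trace_mul_comm]
    have e2 : W0.sig * X * W1.sig * Y * W2.sig * (W2.Vᴴ * D0) * W0.U =
        W0.sig * X * W1.sig * Y * W2.sig * Z := by
      simp only [hZ, Matrix.mul_assoc]
    rw [e2]
    exact trace_six _ _ _ X Y Z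
  rw [e]
  exact key

end Crest.Agent.TriH
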