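import Crest.Prelude.Def_TriangularHilbert

/-!
# S0095 from S0096

`annularVariation` (the `r`-variation, `r > 2`) is controlled by the disjoint-annulus count
functions: sorting the increments of a chain gives the pointwise bound
`V_r ≤ ∑' m, 2^(m (1/r - 1)) S_{2^m}`, and Minkowski in `L^{3/2}` sums up the bounds of S0096.

Also: a.e. measurability of `annularTriangularHT`, `annulusCount`, for `L³`-type inputs.
-/

set_option autoImplicit false

namespace Crest.Agent.TriH.VarFromCount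

open MeasureTheory Crest.AnalysisR Filter Topology
open scoped ENNReal

/-! ### Measurability -/

theorem qmp_shift (v : ℝ → ℝ × ℝ) (hv : Measurable v) :
    Measure.QuasiMeasurePreserving (fun p : (ℝ × ℝ) × ℝ => p.1 + v p.2)
      ((volume : Measure (ℝ × ℝ)).prod (volume : Measure ℝ)) (volume : Measure (ℝ × ℝ)) := by
  have h1 : MeasurePreserving (Prod.swap : (ℝ × ℝ) × ℝ → ℝ × (ℝ × ℝ))
      ((volume : Measure (ℝ × ℝ)).prod (volume : Measure ℝ))
      ((volume : Measure ℝ).prod (volume : Measure (ℝ × ℝ))) :=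
    Measure.measurePreserving_swap
  have h2 : MeasurePreserving (fun p : ℝ × (ℝ × ℝ) => (p.1, p.2 + v p.1))
      ((volume : Measure ℝ).prod (volume : Measure (ℝ × ℝ)))
      ((volume : Measure ℝ).prod (volume : Measure (ℝ × ℝ))) := by
    refine MeasurePreserving.skew_product (f := fun t : ℝ => t) (g := fun t z => z + v t)
      (MeasurePreserving.id _) ?_ ?_
    · exact (measurable_snd.add (hv.comp measurable_fst))
    · filter_upwards with t
      exact map_add_right_eq_self _ _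
  have h3 : Measure.QuasiMeasurePreserving (Prod.snd : ℝ × (ℝ × ℝ) → ℝ × ℝ)
      ((volume : Measure ℝ).prod (volume : Measure (ℝ × ℝ))) (volume : Measure (ℝ × ℝ)) :=
    Measure.quasiMeasurePreserving_snd
  exact h3.comp (h2.quasiMeasurePreserving.comp h1.quasiMeasurePreserving)

theorem aestronglyMeasurable_annularTriangularHT {F G : ℝ × ℝ → ℂ}
    (hF : AEStronglyMeasurable F volume) (hG : AEStronglyMeasurable G volume) (ε R : ℝ) :
    AEStronglyMeasurable (annularTriangularHT F G ε R) volume := by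
  let A : Set ℝ := {t : ℝ | ε < |t| ∧ |t| < R}
  have hac : ((volume : Measure (ℝ × ℝ)).prod ((volume : Measure ℝ).restrict A)) ≪
      ((volume : Measure (ℝ × ℝ)).prod (volume : Measure ℝ)) :=
    Measure.AbsolutelyContinuous.prod Measure.AbsolutelyContinuous.rfl
      Measure.restrict_le_self.absolutelyContinuous
  have h1 : AEStronglyMeasurable (fun p : (ℝ × ℝ) × ℝ => F (p.1 + ((p.2, 0) : ℝ × ℝ)))
      ((volume : Measure (ℝ × ℝ)).prod (volume : Measure ℝ)) :=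
    hF.comp_quasiMeasurePreserving (qmp_shift (fun t => (t, 0)) (by fun_prop))
  have h2 : AEStronglyMeasurable (fun p : (ℝ × ℝ) × ℝ => G (p.1 + ((0, p.2) : ℝ × ℝ)))
      ((volume : Measure (ℝ × ℝ)).prod (volume : Measure ℝ)) :=
    hG.comp_quasiMeasurePreserving (qmp_shift (fun t => (0, t)) (by fun_prop))
  have h3 : AEStronglyMeasurable (fun p : (ℝ × ℝ) × ℝ => ((p.2 : ℂ))⁻¹)
      ((volume : Measure (ℝ × ℝ)).prod (volume : Measure ℝ)) := by
    apply Measurable.aestronglyMeasurable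
    fun_prop
  have h4 : AEStronglyMeasurable
      (fun p : (ℝ × ℝ) × ℝ => F (p.1.1 + p.2, p.1.2) * G (p.1.1, p.1.2 + p.2) / (p.2 : ℂ))
      ((volume : Measure (ℝ × ℝ)).prod ((volume : Measure ℝ).restrict A)) := by
    have := ((h1.mul h2).mul h3).mono_ac hac
    refine this.congr (Filter.Eventually.of_forall fun p => ?_)
    have e1 : p.1 + ((p.2, 0) : ℝ × ℝ) = (p.1.1 + p.2, p.1.2) := by ext <;> simp
    have e2 : p.1 + ((0, p.2) : ℝ × ℝ) = (p.1.1, p.1.2 + p.2) := by ext <;> simp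
    simp only [Pi.mul_apply, e1, e2, div_eq_mul_inv]
  have h5 := h4.integral_prod_right'
  exact h5

theorem aemeasurable_enorm_ht {F G : ℝ × ℝ → ℂ}
    (hF : AEStronglyMeasurable F volume) (hG : AEStronglyMeasurable G volume) (ε R : ℝ) :
    AEMeasurable (fun z => ‖annularTriangularHT F G ε R z‖ₑ) volume :=
  (aestronglyMeasurable_annularTriangularHT hF hG ε R).enorm

theorem aemeasurable_annulusCount {F G : ℝ × ℝ → ℂ}
    (hF : AEStronglyMeasurable F volume) (hG : AEStronglyMeasurable G volume) (n : ℕ) :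
    AEMeasurable (annulusCount n F G) volume := by
  unfold annulusCount
  refine AEMeasurable.iSup fun m => AEMeasurable.iSup fun _ => AEMeasurable.iSup fun ε =>
    AEMeasurable.iSup fun R => AEMeasurable.iSup fun _ => AEMeasurable.iSup fun _ => ?_
  exact Finset.aemeasurable_fun_sum _ fun j _ => aemeasurable_enorm_ht hF hG _ _

/-! ### Pointwise bound -/

theorem sum_le_annulusCount {F G : ℝ × ℝ → ℂ} {J : ℕ} (t : Fin (J + 2) → ℚ) (ht : StrictMono t)
    (h0 : 0 < t 0) (I : Finset (Fin (J + 1))) {n : ℕ} (hI : I.card ≤ n) (z : ℝ × ℝ) :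
    ∑ j ∈ I, ‖annularTriangularHT F G (t (Fin.castSucc j) : ℝ) (t (Fin.succ j) : ℝ) z‖ₑ ≤
      annulusCount n F G z := by
  classical
  let e : Fin I.card ≃ I := I.equivFin.symm
  let ε : Fin I.card → ℚ := fun i => t (Fin.castSucc (e i).1)
  let R : Fin I.card → ℚ := fun i => t (Fin.succ (e i).1)
  have hstep : ∀ j : Fin (J + 1), t (Fin.castSucc j) < t (Fin.succ j) := fun j =>
    ht (Fin.castSucc_lt_succ)
  have hεR : ∀ j, 0 < ε j ∧ ε j < R j := by
    intro j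
    refine ⟨lt_of_lt_of_le h0 (ht.monotone (Fin.zero_le _)), hstep _⟩
  have hle : ∀ a b : Fin (J + 1), a < b → t (Fin.succ a) ≤ t (Fin.castSucc b) := by
    intro a b hab
    apply ht.monotone
    rw [Fin.le_def]
    simp only [Fin.val_succ, Fin.val_castSucc]
    exact hab
  have hdisj : ∀ i j, i ≠ j → R i ≤ ε j ∨ R j ≤ ε i := by
    intro i j hij
    have hne : (e i).1 ≠ (e j).1 := fun h => hij (e.injective (Subtype.ext h))
    rcases lt_or_gt_of_ne hne with h | h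
    · exact Or.inl (hle _ _ h)
    · exact Or.inr (hle _ _ h)
  have hsum : ∑ j ∈ I, ‖annularTriangularHT F G (t (Fin.castSucc j) : ℝ) (t (Fin.succ j) : ℝ) z‖ₑ =
      ∑ i, ‖annularTriangularHT F G (ε i : ℝ) (R i : ℝ) z‖ₑ := by
    rw [← Finset.sum_coe_sort I]
    exact (Equiv.sum_comp e
      (fun j : I => ‖annularTriangularHT F G (t (Fin.castSucc j.1) : ℝ) (t (Fin.succ j.1) : ℝ) z‖ₑ)).symm
  rw [hsum]
  unfold annulusCount
  exact le_iSup_of_le I.card (le_iSup_of_le hI (le_iSup_of_le ε (le_iSup_of_le R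
    (le_iSup_of_le hεR (le_iSup_of_le hdisj le_rfl)))))

/-- Dyadic weights. -/
noncomputable def w (r : ℝ) (m : ℕ) : ℝ≥0∞ := (2 : ℝ≥0∞) ^ ((m : ℝ) * (1 / r - 1))

theorem two_rpow_ne_zero (x : ℝ) : (2 : ℝ≥0∞) ^ x ≠ 0 := by
  simp [ENNReal.rpow_eq_zero_iff]

theorem two_rpow_ne_top (x : ℝ) : (2 : ℝ≥0∞) ^ x ≠ ⊤ := by
  simp [ENNReal.rpow_eq_top_iff]

/-- Block estimate for an antitone sequence. -/
theorem antitone_sum_rpow_le {N : ℕ} (e : Fin N → ℝ≥0∞) (b : ℕ → ℝ≥0∞) (r : ℝ) (hr : 1 ≤ r)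
    (hb : ∀ (k : Fin N) (m : ℕ), 2 ^ m ≤ k.val + 1 → (2 : ℝ≥0∞) ^ m * e k ≤ b m) :
    (∑ k, e k ^ r) ^ (1 / r) ≤ ∑' m, w r m * b m := by
  classical
  have hr0 : 0 < r := by linarith
  let ℓ : Fin N → ℕ := fun k => Nat.log 2 (k.val + 1)
  -- pointwise bound
  have hpt : ∀ k : Fin N, e k ^ r ≤ (2 : ℝ≥0∞) ^ (-(ℓ k : ℝ) * r) * b (ℓ k) ^ r := by
    intro k
    have h1 := hb k (ℓ k) (Nat.pow_log_le_self 2 (by omega))
    have h2 : ((2 : ℝ≥0∞) ^ (ℓ k) * e k) ^ r ≤ b (ℓ k) ^ r :=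
      ENNReal.rpow_le_rpow h1 hr0.le
    rw [ENNReal.mul_rpow_of_nonneg _ _ hr0.le] at h2
    have h3 : ((2 : ℝ≥0∞) ^ (ℓ k)) ^ r = (2 : ℝ≥0∞) ^ ((ℓ k : ℝ) * r) := by
      rw [ENNReal.rpow_mul, ENNReal.rpow_natCast]
    rw [h3] at h2
    have h4 : (2 : ℝ≥0∞) ^ (-(ℓ k : ℝ) * r) * (2 : ℝ≥0∞) ^ ((ℓ k : ℝ) * r) = 1 := by
      rw [← ENNReal.rpow_add _ _ (two_rpow_ne_zero 1 |> fun _ => by norm_num)
        (by norm_num)]
      simp
    calc e k ^ r = ((2 : ℝ≥0∞) ^ (-(ℓ k : ℝ) * r) * (2 : ℝ≥0∞) ^ ((ℓ k : ℝ) * r)) * e k ^ r := by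
          rw [h4, one_mul]
      _ = (2 : ℝ≥0∞) ^ (-(ℓ k : ℝ) * r) * ((2 : ℝ≥0∞) ^ ((ℓ k : ℝ) * r) * e k ^ r) := by ring
      _ ≤ _ := by gcongr
  -- fibres
  have hfib : ∀ m : ℕ, ((Finset.univ.filter fun k : Fin N => ℓ k = m).card : ℝ≥0∞) ≤ 2 ^ m := by
    intro m
    have hcard : (Finset.univ.filter fun k : Fin N => ℓ k = m).card ≤ (Finset.range (2 ^ m)).card := by
      refine Finset.card_le_card_of_injOn (fun k => k.val + 1 - 2 ^ m) ?_ ?_
      · intro k hk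
        have hk' : ℓ k = m := by simpa using hk
        have h1 : 2 ^ m ≤ k.val + 1 := hk' ▸ Nat.pow_log_le_self 2 (by omega)
        have h2 : k.val + 1 < 2 ^ (m + 1) := hk' ▸ Nat.lt_pow_succ_log_self (by norm_num) _
        simp only [Finset.coe_range, Set.mem_Iio]
        rw [pow_succ] at h2
        omega
      · intro k hk k' hk' hkk
        have hk1 : ℓ k = m := by simpa using hk
        have hk2 : ℓ k' = m := by simpa using hk'
        have h1 : 2 ^ m ≤ k.val + 1 := hk1 ▸ Nat.pow_log_le_self 2 (by omega)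
        have h2 : 2 ^ m ≤ k'.val + 1 := hk2 ▸ Nat.pow_log_le_self 2 (by omega)
        have : k.val = k'.val := by
          simp only at hkk
          omega
        exact Fin.ext this
    rw [Finset.card_range] at hcard
    exact_mod_cast hcard
  let M := (Finset.univ.image ℓ)
  have hsum : ∑ k, e k ^ r ≤ ∑ m ∈ M, (w r m * b m) ^ r := by
    calc ∑ k, e k ^ r ≤ ∑ k, (2 : ℝ≥0∞) ^ (-(ℓ k : ℝ) * r) * b (ℓ k) ^ r :=
          Finset.sum_le_sum fun k _ => hpt k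
      _ = ∑ m ∈ M, ∑ k ∈ Finset.univ.filter (fun k => ℓ k = m),
            (2 : ℝ≥0∞) ^ (-(ℓ k : ℝ) * r) * b (ℓ k) ^ r := by
          rw [Finset.sum_fiberwise_of_maps_to]
          intro k _
          exact Finset.mem_image_of_mem _ (Finset.mem_univ _)
      _ ≤ ∑ m ∈ M, (w r m * b m) ^ r := by
          refine Finset.sum_le_sum fun m _ => ?_
          have : ∀ k ∈ Finset.univ.filter (fun k => ℓ k = m),
              (2 : ℝ≥0∞) ^ (-(ℓ k : ℝ) * r) * b (ℓ k) ^ r =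
                (2 : ℝ≥0∞) ^ (-(m : ℝ) * r) * b m ^ r := by
            intro k hk
            have hk' : ℓ k = m := by simpa using hk
            rw [hk']
          rw [Finset.sum_congr rfl this, Finset.sum_const, nsmul_eq_mul]
          have hw : (w r m * b m) ^ r =
              (2 : ℝ≥0∞) ^ (m : ℝ) * ((2 : ℝ≥0∞) ^ (-(m : ℝ) * r) * b m ^ r) := by
            rw [ENNReal.mul_rpow_of_nonneg _ _ hr0.le, w, ← ENNReal.rpow_mul, ← mul_assoc,
              ← ENNReal.rpow_add _ _ (by norm_num) (by norm_num)]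
            congr 2
            field_simp
            ring
          rw [hw]
          have := hfib m
          rw [ENNReal.rpow_natCast]
          gcongr
  have hell1 : ∀ (s : Finset ℕ) (a : ℕ → ℝ≥0∞), ∑ m ∈ s, a m ^ r ≤ (∑ m ∈ s, a m) ^ r := by
    intro s a
    induction s using Finset.induction_on with
    | empty => simp [hr0]
    | insert x s hx ih =>
      rw [Finset.sum_insert hx, Finset.sum_insert hx]
      exact (add_le_add_right ih _).trans (ENNReal.add_rpow_le_rpow_add _ _ hr)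
  calc (∑ k, e k ^ r) ^ (1 / r) ≤ ((∑ m ∈ M, w r m * b m) ^ r) ^ (1 / r) :=
        ENNReal.rpow_le_rpow (hsum.trans (hell1 M _)) (by positivity)
    _ = ∑ m ∈ M, w r m * b m := by
        rw [← ENNReal.rpow_mul, mul_one_div_cancel hr0.ne', ENNReal.rpow_one]
    _ ≤ ∑' m, w r m * b m := ENNReal.sum_le_tsum _

/-- The pointwise bound: variation by the dyadic count functions. -/
theorem annularVariation_le_tsum (F G : ℝ × ℝ → ℂ) (r : ℝ) (hr : 1 ≤ r) (z : ℝ × ℝ) :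
    annularVariation r F G z ≤ ∑' m, w r m * annulusCount (2 ^ m) F G z := by
  classical
  unfold annularVariation
  refine iSup_le fun J => iSup_le fun t => iSup_le fun ht => iSup_le fun h0 => ?_
  let d : Fin (J + 1) → ℝ≥0∞ := fun j =>
    ‖annularTriangularHT F G (t (Fin.castSucc j) : ℝ) (t (Fin.succ j) : ℝ) z‖ₑ
  let dd : Fin (J + 1) → (ℝ≥0∞)ᵒᵈ := fun j => OrderDual.toDual (d j)
  let σ : Equiv.Perm (Fin (J + 1)) := Tuple.sort dd
  have hanti : ∀ i j : Fin (J + 1), i ≤ j → d (σ j) ≤ d (σ i) := by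
    intro i j hij
    exact Tuple.monotone_sort dd hij
  have hsumσ : ∑ j, d j ^ r = ∑ k, (d (σ k)) ^ r :=
    (Equiv.sum_comp σ (fun j => d j ^ r)).symm
  show (∑ j, d j ^ r) ^ (1 / r) ≤ _
  rw [hsumσ]
  refine antitone_sum_rpow_le (fun k => d (σ k)) (fun m => annulusCount (2 ^ m) F G z) r hr ?_
  intro k m hkm
  have hle : 2 ^ m ≤ J + 1 := hkm.trans (by omega)
  let I : Finset (Fin (J + 1)) :=
    (Finset.univ : Finset (Fin (2 ^ m))).map ((Fin.castLEEmb hle).trans σ.toEmbedding)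
  have hIc : I.card ≤ 2 ^ m := by simp [I]
  have h1 := sum_le_annulusCount (F := F) (G := G) t ht h0 I hIc z
  refine le_trans ?_ h1
  have h2 : ∑ j ∈ I, ‖annularTriangularHT F G (t (Fin.castSucc j) : ℝ) (t (Fin.succ j) : ℝ) z‖ₑ =
      ∑ i : Fin (2 ^ m), d (σ (Fin.castLE hle i)) := by
    simp [I, d]
  rw [h2]
  have h3 : ∀ i : Fin (2 ^ m), d (σ k) ≤ d (σ (Fin.castLE hle i)) := by
    intro i
    apply hanti
    rw [Fin.le_def]
    simp only [Fin.val_castLE]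
    have := i.isLt
    omega
  calc (2 : ℝ≥0∞) ^ m * d (σ k) = ∑ _i : Fin (2 ^ m), d (σ k) := by
        simp [Finset.sum_const, nsmul_eq_mul]
    _ ≤ _ := Finset.sum_le_sum fun i _ => h3 i

/-! ### Minkowski for series -/

theorem lintegral_rpow_tsum_le {α : Type*} [MeasurableSpace α] {μ : Measure α} {p : ℝ} (hp : 1 ≤ p)
    (g : ℕ → α → ℝ≥0∞) (hg : ∀ m, AEMeasurable (g m) μ) :
    (∫⁻ a, (∑' m, g m a) ^ p ∂μ) ^ (1 / p) ≤ ∑' m, (∫⁻ a, g m a ^ p ∂μ) ^ (1 / p) := by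
  have hp0 : 0 < p := by linarith
  have hfin : ∀ M : ℕ, (∫⁻ a, (∑ m ∈ Finset.range M, g m a) ^ p ∂μ) ^ (1 / p) ≤
      ∑ m ∈ Finset.range M, (∫⁻ a, g m a ^ p ∂μ) ^ (1 / p) := by
    intro M
    induction M with
    | zero => simp [ENNReal.zero_rpow_of_pos, hp0]
    | succ M ih =>
      simp only [Finset.sum_range_succ]
      have hm : AEMeasurable (fun a => ∑ m ∈ Finset.range M, g m a) μ :=
        Finset.aemeasurable_fun_sum _ fun m _ => hg m
      refine (ENNReal.lintegral_Lp_add_le hm (hg M) hp).trans ?_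
      gcongr
  have hmeas : ∀ M : ℕ, AEMeasurable (fun a => (∑ m ∈ Finset.range M, g m a) ^ p) μ := fun M =>
    (Finset.aemeasurable_fun_sum _ fun m _ => hg m).pow_const p
  have hmono : ∀ᵐ a ∂μ, Monotone fun M : ℕ => (∑ m ∈ Finset.range M, g m a) ^ p := by
    filter_upwards with a
    intro M M' hMM'
    exact ENNReal.rpow_le_rpow (Finset.sum_le_sum_of_subset (Finset.range_mono hMM')) hp0.le
  have hlim : ∀ᵐ a ∂μ, Tendsto (fun M : ℕ => (∑ m ∈ Finset.range M, g m a) ^ p) atTop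
      (𝓝 ((∑' m, g m a) ^ p)) := by
    filter_upwards with a
    exact (ENNReal.continuous_rpow_const.tendsto _).comp (ENNReal.tendsto_nat_tsum _)
  have h := lintegral_tendsto_of_tendsto_of_monotone hmeas hmono hlim
  have h' := (ENNReal.continuous_rpow_const (y := 1 / p)).tendsto _ |>.comp h
  refine le_of_tendsto' h' fun M => ?_
  exact (hfin M).trans (ENNReal.sum_le_tsum _)

/-! ### Numerics -/

theorem summable_weights {r : ℝ} (hr : 2 < r) :
    Summable fun m : ℕ => (2 : ℝ) ^ ((m : ℝ) * (1 / r - 1)) * (Real.sqrt ((2 ^ m : ℕ) : ℝ) *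
      Real.log (2 + ((2 ^ m : ℕ) : ℝ))) := by
  have hr0 : 0 < r := by linarith
  set δ : ℝ := 1 / 2 - 1 / r with hδ
  have hδ0 : 0 < δ := by
    have : 1 / r < 1 / 2 := by
      apply one_div_lt_one_div_of_lt <;> linarith
    simp only [hδ]; linarith
  set ρ : ℝ := (2 : ℝ) ^ (-δ) with hρ
  have hρ0 : 0 < ρ := by positivity
  have hρ1 : ρ < 1 := by
    rw [hρ]
    exact Real.rpow_lt_one_of_one_lt_of_neg (by norm_num) (by linarith)
  have hs : Summable fun m : ℕ => ((m : ℝ) ^ 1 * ρ ^ m) :=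
    summable_pow_mul_geometric_of_norm_lt_one 1 (by rwa [Real.norm_of_nonneg hρ0.le])
  have hs0 : Summable fun m : ℕ => ρ ^ m := summable_geometric_of_lt_one hρ0.le hρ1
  have hbound : Summable fun m : ℕ => 2 * ((m : ℝ) ^ 1 * ρ ^ m) + 2 * ρ ^ m :=
    (hs.mul_left 2).add (hs0.mul_left 2)
  refine Summable.of_nonneg_of_le (fun m => ?_) (fun m => ?_) hbound
  · have h2 : (1 : ℝ) ≤ 2 + ((2 ^ m : ℕ) : ℝ) := by
      have : (0 : ℝ) ≤ ((2 ^ m : ℕ) : ℝ) := by positivity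
      linarith
    have := Real.log_nonneg h2
    positivity
  · have hsq : Real.sqrt ((2 ^ m : ℕ) : ℝ) = (2 : ℝ) ^ ((m : ℝ) * (1 / 2)) := by
      rw [Real.sqrt_eq_rpow, Real.rpow_mul (by norm_num)]
      norm_num
    have hlog : Real.log (2 + ((2 ^ m : ℕ) : ℝ)) ≤ 2 * ((m : ℝ) + 1) := by
      have h1 : (2 : ℝ) + ((2 ^ m : ℕ) : ℝ) ≤ 2 ^ (2 * (m + 1)) := by
        push_cast
        have h1m : (1 : ℝ) ≤ 2 ^ m := one_le_pow₀ (by norm_num)
        have : (2 : ℝ) ^ (2 * (m + 1)) = 4 * (2 ^ m) ^ 2 := by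
          rw [pow_mul', pow_succ]; ring
        rw [this]
        nlinarith
      have h2 : Real.log ((2 : ℝ) + ((2 ^ m : ℕ) : ℝ)) ≤ Real.log (2 ^ (2 * (m + 1))) :=
        Real.log_le_log (by positivity) h1
      rw [Real.log_pow] at h2
      have hl2 : Real.log 2 ≤ 1 := by
        have := Real.log_two_lt_d9
        linarith
      have hm : (0 : ℝ) ≤ (((2 * (m + 1) : ℕ)) : ℝ) := by positivity
      calc _ ≤ _ := h2
        _ ≤ ((2 * (m + 1) : ℕ) : ℝ) * 1 := by gcongr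
        _ = _ := by push_cast; ring
    have hpow : (2 : ℝ) ^ ((m : ℝ) * (1 / r - 1)) * (2 : ℝ) ^ ((m : ℝ) * (1 / 2)) = ρ ^ m := by
      rw [← Real.rpow_add (by norm_num), hρ, ← Real.rpow_natCast, ← Real.rpow_mul (by norm_num)]
      congr 1
      simp only [hδ]
      ring
    calc (2 : ℝ) ^ ((m : ℝ) * (1 / r - 1)) * (Real.sqrt ((2 ^ m : ℕ) : ℝ) *
          Real.log (2 + ((2 ^ m : ℕ) : ℝ)))
        = ((2 : ℝ) ^ ((m : ℝ) * (1 / r - 1)) * (2 : ℝ) ^ ((m : ℝ) * (1 / 2))) *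
          Real.log (2 + ((2 ^ m : ℕ) : ℝ)) := by rw [hsq]; ring
      _ = ρ ^ m * Real.log (2 + ((2 ^ m : ℕ) : ℝ)) := by rw [hpow]
      _ ≤ ρ ^ m * (2 * ((m : ℝ) + 1)) := by gcongr
      _ = _ := by ring

/-! ### The implication -/

/-- **S0095 from S0096.** -/
theorem variation_bound_of_count_bound
    (hS : ∃ C : ℝ, ∀ n : ℕ, 1 ≤ n → ∀ F G : ℝ × ℝ → ℂ,
      MeasureTheory.MemLp F 3 MeasureTheory.volume → MeasureTheory.MemLp G 3 MeasureTheory.volume →
        (∫⁻ z, Crest.AnalysisR.annulusCount n F G z ^ (3 / 2 : ℝ)) ^ (2 / 3 : ℝ) ≤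
          ENNReal.ofReal (C * Real.sqrt n * Real.log (2 + n)) *
            MeasureTheory.eLpNorm F 3 MeasureTheory.volume *
            MeasureTheory.eLpNorm G 3 MeasureTheory.volume)
    (r : ℝ) (hr : 2 < r) :
    ∃ C : ℝ, ∀ F G : ℝ × ℝ → ℂ,
      MeasureTheory.MemLp F 3 MeasureTheory.volume → MeasureTheory.MemLp G 3 MeasureTheory.volume →
        (∫⁻ z, Crest.AnalysisR.annularVariation r F G z ^ (3 / 2 : ℝ)) ^ (2 / 3 : ℝ) ≤
          ENNReal.ofReal C * MeasureTheory.eLpNorm F 3 MeasureTheory.volume *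
            MeasureTheory.eLpNorm G 3 MeasureTheory.volume := by
  obtain ⟨C₀, hC₀⟩ := hS
  have hr1 : 1 ≤ r := by linarith
  set C := max C₀ 0 with hC
  have hC0 : 0 ≤ C := le_max_right _ _
  have hsumm := (summable_weights hr).mul_left C
  refine ⟨∑' m : ℕ, C * ((2 : ℝ) ^ ((m : ℝ) * (1 / r - 1)) * (Real.sqrt ((2 ^ m : ℕ) : ℝ) *
      Real.log (2 + ((2 ^ m : ℕ) : ℝ)))), fun F G hF hG => ?_⟩
  have hexp : (2 / 3 : ℝ) = 1 / (3 / 2 : ℝ) := by norm_num
  have hp : (1 : ℝ) ≤ 3 / 2 := by norm_num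
  have hmono : (∫⁻ z, annularVariation r F G z ^ (3 / 2 : ℝ)) ≤
      ∫⁻ z, (∑' m, w r m * annulusCount (2 ^ m) F G z) ^ (3 / 2 : ℝ) :=
    lintegral_mono fun z =>
      ENNReal.rpow_le_rpow (annularVariation_le_tsum F G r hr1 z) (by norm_num)
  have hgm : ∀ m : ℕ, AEMeasurable (fun z => w r m * annulusCount (2 ^ m) F G z) volume := fun m =>
    (aemeasurable_annulusCount hF.1 hG.1 _).const_mul _
  have hnn : ∀ m : ℕ, 0 ≤ C * ((2 : ℝ) ^ ((m : ℝ) * (1 / r - 1)) * (Real.sqrt ((2 ^ m : ℕ) : ℝ) *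
      Real.log (2 + ((2 ^ m : ℕ) : ℝ)))) := by
    intro m
    have h2 : (1 : ℝ) ≤ 2 + ((2 ^ m : ℕ) : ℝ) := by
      have : (0 : ℝ) ≤ ((2 ^ m : ℕ) : ℝ) := by positivity
      linarith
    have := Real.log_nonneg h2
    positivity
  have hterm : ∀ m : ℕ, (∫⁻ z, (w r m * annulusCount (2 ^ m) F G z) ^ (3 / 2 : ℝ)) ^ (1 / (3 / 2 : ℝ)) ≤
      ENNReal.ofReal (C * ((2 : ℝ) ^ ((m : ℝ) * (1 / r - 1)) * (Real.sqrt ((2 ^ m : ℕ) : ℝ) *
      Real.log (2 + ((2 ^ m : ℕ) : ℝ))))) * (eLpNorm F 3 volume * eLpNorm G 3 volume) := by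
    intro m
    have hw : (w r m) ≠ ⊤ := two_rpow_ne_top _
    have hbase := hC₀ (2 ^ m) Nat.one_le_two_pow F G hF hG
    have hfactor : (∫⁻ z, (w r m * annulusCount (2 ^ m) F G z) ^ (3 / 2 : ℝ)) ^ (1 / (3 / 2 : ℝ)) =
        w r m * (∫⁻ z, annulusCount (2 ^ m) F G z ^ (3 / 2 : ℝ)) ^ (2 / 3 : ℝ) := by
      have h1 : ∀ z, (w r m * annulusCount (2 ^ m) F G z) ^ (3 / 2 : ℝ) =
          (w r m) ^ (3 / 2 : ℝ) * annulusCount (2 ^ m) F G z ^ (3 / 2 : ℝ) := fun z =>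
        ENNReal.mul_rpow_of_nonneg _ _ (by norm_num)
      simp_rw [h1]
      rw [lintegral_const_mul' _ _ (ENNReal.rpow_ne_top_of_nonneg (by norm_num) hw),
        ENNReal.mul_rpow_of_nonneg _ _ (by norm_num), ← ENNReal.rpow_mul, ← hexp]
      norm_num
    rw [hfactor]
    have hwof : w r m = ENNReal.ofReal ((2 : ℝ) ^ ((m : ℝ) * (1 / r - 1))) := by
      unfold w
      rw [← ENNReal.ofReal_rpow_of_pos (by norm_num)]
      norm_num
    have hsqlog : 0 ≤ Real.sqrt ((2 ^ m : ℕ) : ℝ) * Real.log (2 + ((2 ^ m : ℕ) : ℝ)) := by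
      have h2 : (1 : ℝ) ≤ 2 + ((2 ^ m : ℕ) : ℝ) := by
        have : (0 : ℝ) ≤ ((2 ^ m : ℕ) : ℝ) := by positivity
        linarith
      have := Real.log_nonneg h2
      positivity
    calc w r m * (∫⁻ z, annulusCount (2 ^ m) F G z ^ (3 / 2 : ℝ)) ^ (2 / 3 : ℝ)
        ≤ w r m * (ENNReal.ofReal (C₀ * Real.sqrt ((2 ^ m : ℕ) : ℝ) * Real.log (2 + ((2 ^ m : ℕ) : ℝ))) *
            eLpNorm F 3 volume * eLpNorm G 3 volume) := by gcongr
      _ ≤ w r m * (ENNReal.ofReal (C * (Real.sqrt ((2 ^ m : ℕ) : ℝ) * Real.log (2 + ((2 ^ m : ℕ) : ℝ)))) *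
            eLpNorm F 3 volume * eLpNorm G 3 volume) := by
          have hk : C₀ * Real.sqrt ((2 ^ m : ℕ) : ℝ) * Real.log (2 + ((2 ^ m : ℕ) : ℝ)) ≤
              C * (Real.sqrt ((2 ^ m : ℕ) : ℝ) * Real.log (2 + ((2 ^ m : ℕ) : ℝ))) := by
            rw [mul_assoc]
            exact mul_le_mul_of_nonneg_right (le_max_left _ _) hsqlog
          have hk' := ENNReal.ofReal_le_ofReal hk
          gcongr
      _ = _ := by
          have hcomb : ENNReal.ofReal ((2 : ℝ) ^ ((m : ℝ) * (1 / r - 1))) *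
              ENNReal.ofReal (C * (Real.sqrt ((2 ^ m : ℕ) : ℝ) * Real.log (2 + ((2 ^ m : ℕ) : ℝ)))) =
              ENNReal.ofReal (C * ((2 : ℝ) ^ ((m : ℝ) * (1 / r - 1)) * (Real.sqrt ((2 ^ m : ℕ) : ℝ) *
                Real.log (2 + ((2 ^ m : ℕ) : ℝ))))) := by
            rw [← ENNReal.ofReal_mul (by positivity)]
            congr 1
            ring
          rw [hwof, ← hcomb]
          ring
  calc (∫⁻ z, annularVariation r F G z ^ (3 / 2 : ℝ)) ^ (2 / 3 : ℝ)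
      ≤ (∫⁻ z, (∑' m, w r m * annulusCount (2 ^ m) F G z) ^ (3 / 2 : ℝ)) ^ (1 / (3 / 2 : ℝ)) := by
        rw [← hexp]
        exact ENNReal.rpow_le_rpow hmono (by norm_num)
    _ ≤ ∑' m, (∫⁻ z, (w r m * annulusCount (2 ^ m) F G z) ^ (3 / 2 : ℝ)) ^ (1 / (3 / 2 : ℝ)) :=
        lintegral_rpow_tsum_le hp _ hgm
    _ ≤ ∑' m : ℕ, ENNReal.ofReal (C * ((2 : ℝ) ^ ((m : ℝ) * (1 / r - 1)) *
          (Real.sqrt ((2 ^ m : ℕ) : ℝ) * Real.log (2 + ((2 ^ m : ℕ) : ℝ))))) *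
          (eLpNorm F 3 volume * eLpNorm G 3 volume) :=
        ENNReal.tsum_le_tsum hterm
    _ = _ := by
        rw [ENNReal.tsum_mul_right, ← ENNReal.ofReal_tsum_of_nonneg hnn hsumm, mul_assoc]

end Crest.Agent.TriH.VarFromCount
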