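import Crest.Prelude.Def_TriangularHilbert
import Crest.Agent.TriH.VarFromCount

/-!
# S0096 from a discrete theorem on `ℤ²`

The statement of S0096 is reduced to a scale invariant theorem on `ℤ²` about finitely supported
functions: density of continuous compactly supported functions, Riemann sums at mesh `1/N`, and
the decomposition of the plane into cosets of `(ℤ/N)²`.
-/

set_option autoImplicit false

namespace Crest.Agent.TriH.CountFromDiscrete

open MeasureTheory Crest.AnalysisR Filter Topology Set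
open scoped ENNReal

/-- The integer annulus `a < |τ| < b`. -/
noncomputable def annSet (a b : ℕ) : Finset ℤ :=
  (Finset.Ioo (-(b : ℤ)) (b : ℤ)).filter fun τ => (a : ℤ) < |τ|

/-- The discrete triangular Hilbert transform on an integer annulus. -/
noncomputable def discT (a b : ℕ) (f g : ℤ × ℤ → ℂ) (p : ℤ × ℤ) : ℂ :=
  ∑ τ ∈ annSet a b, f (p.1 + τ, p.2) * g (p.1, p.2 + τ) / (τ : ℂ)

/-- The discrete disjoint-annulus count: same shape as `annulusCount`. -/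
noncomputable def discCount (n : ℕ) (f g : ℤ × ℤ → ℂ) (p : ℤ × ℤ) : ℝ≥0∞ :=
  ⨆ (m : ℕ) (_ : m ≤ n) (a : Fin m → ℕ) (b : Fin m → ℕ) (_ : ∀ j, 0 < a j ∧ a j < b j)
    (_ : ∀ i j, i ≠ j → b i ≤ a j ∨ b j ≤ a i),
    ∑ j, ‖discT (a j) (b j) f g p‖ₑ

/-- The discrete form of S0096. -/
def DiscreteCountBound (C : ℝ) : Prop :=
  ∀ n : ℕ, 1 ≤ n → ∀ f g : ℤ × ℤ → ℂ, f.support.Finite → g.support.Finite →
    (∑' p, discCount n f g p ^ (3 / 2 : ℝ)) ^ (2 / 3 : ℝ) ≤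
      ENNReal.ofReal (C * Real.sqrt n * Real.log (2 + n)) *
        (∑' p, ‖f p‖ₑ ^ (3 : ℝ)) ^ (1 / 3 : ℝ) * (∑' p, ‖g p‖ₑ ^ (3 : ℝ)) ^ (1 / 3 : ℝ)

/-- The discrete disjoint-annulus count restricted to radii in `[lo, hi]`. -/
noncomputable def discCountIn (n lo hi : ℕ) (f g : ℤ × ℤ → ℂ) (p : ℤ × ℤ) : ℝ≥0∞ :=
  ⨆ (m : ℕ) (_ : m ≤ n) (a : Fin m → ℕ) (b : Fin m → ℕ)
    (_ : ∀ j, 0 < a j ∧ a j < b j ∧ lo ≤ a j ∧ b j ≤ hi)
    (_ : ∀ i j, i ≠ j → b i ≤ a j ∨ b j ≤ a i),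
    ∑ j, ‖discT (a j) (b j) f g p‖ₑ

/-- A weaker form of the discrete theorem, which is enough: only large radii, with a bounded
ratio of the largest radius to the smallest (the threshold may depend on `n` and the ratio `Λ`). -/
def DiscreteCountBoundLarge (C : ℝ) : Prop :=
  ∀ n : ℕ, 1 ≤ n → ∀ Λ : ℕ, ∃ R₀ : ℕ, ∀ lo : ℕ, R₀ ≤ lo → ∀ f g : ℤ × ℤ → ℂ, f.support.Finite →
    g.support.Finite →
    (∑' p, discCountIn n lo (Λ * lo) f g p ^ (3 / 2 : ℝ)) ^ (2 / 3 : ℝ) ≤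
      ENNReal.ofReal (C * Real.sqrt n * Real.log (2 + n)) *
        (∑' p, ‖f p‖ₑ ^ (3 : ℝ)) ^ (1 / 3 : ℝ) * (∑' p, ‖g p‖ₑ ^ (3 : ℝ)) ^ (1 / 3 : ℝ)

lemma discCountIn_le_discCount (n lo hi : ℕ) (f g : ℤ × ℤ → ℂ) (p : ℤ × ℤ) :
    discCountIn n lo hi f g p ≤ discCount n f g p := by
  unfold discCountIn discCount
  refine iSup_le fun m => iSup_le fun hm => iSup_le fun a => iSup_le fun b =>
    iSup_le fun h1 => iSup_le fun h2 => ?_
  exact le_iSup_of_le m (le_iSup_of_le hm (le_iSup_of_le a (le_iSup_of_le b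
    (le_iSup_of_le (fun j => ⟨(h1 j).1, (h1 j).2.1⟩) (le_iSup_of_le h2 le_rfl)))))

/-- The full discrete theorem implies the weaker form. -/
lemma DiscreteCountBound.large {C : ℝ} (hD : DiscreteCountBound C) : DiscreteCountBoundLarge C := by
  intro n hn Λ
  refine ⟨0, fun lo _ f g hf hg => le_trans ?_ (hD n hn f g hf hg)⟩
  refine ENNReal.rpow_le_rpow (ENNReal.tsum_le_tsum fun p => ?_) (by norm_num)
  exact ENNReal.rpow_le_rpow (discCountIn_le_discCount _ _ _ _ _ _) (by norm_num)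

/-! ### One-dimensional Riemann sums -/

/-- Riemann sums at mesh `h` along a bounded interval, with the error controlled by the oscillation. -/
lemma riemann_error {ψ : ℝ → ℂ} {x₀ h : ℝ} (hh : 0 < h) (L : ℕ)
    (hψ : ContinuousOn ψ (Icc x₀ (x₀ + L * h))) {η : ℝ}
    (hosc : ∀ s ∈ Icc x₀ (x₀ + L * h), ∀ t ∈ Icc x₀ (x₀ + L * h), |s - t| ≤ h → ‖ψ s - ψ t‖ ≤ η) :
    ‖(∫ t in x₀..(x₀ + L * h), ψ t) - (h : ℂ) * ∑ i ∈ Finset.range L, ψ (x₀ + i * h)‖ ≤
      η * (L * h) := by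
  set a : ℕ → ℝ := fun i => x₀ + i * h with ha
  have ha0 : a 0 = x₀ := by simp [ha]
  have haL : a L = x₀ + L * h := rfl
  have hastep : ∀ i, a (i + 1) = a i + h := fun i => by simp only [ha]; push_cast; ring
  have hmem : ∀ i ≤ L, a i ∈ Icc x₀ (x₀ + L * h) := fun i hi => by
    have : (i : ℝ) ≤ L := by exact_mod_cast hi
    refine ⟨?_, ?_⟩
    · simp only [ha]; have : (0 : ℝ) ≤ i * h := by positivity
      linarith
    · simp only [ha]; nlinarith
  have hsub : ∀ i < L, uIcc (a i) (a (i + 1)) ⊆ Icc x₀ (x₀ + L * h) := fun i hi => by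
    rw [uIcc_of_le (by rw [hastep]; linarith)]
    exact Icc_subset_Icc (hmem i hi.le).1 (hmem (i + 1) hi).2
  have hint : ∀ i < L, IntervalIntegrable ψ volume (a i) (a (i + 1)) := fun i hi =>
    (hψ.mono (hsub i hi)).intervalIntegrable
  have hsum := intervalIntegral.sum_integral_adjacent_intervals (f := ψ) (μ := volume) (a := a)
    (n := L) hint
  rw [ha0, haL] at hsum
  rw [← hsum, Finset.mul_sum, ← Finset.sum_sub_distrib]
  have hterm : ∀ i ∈ Finset.range L,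
      ‖(∫ t in a i..a (i + 1), ψ t) - (h : ℂ) * ψ (a i)‖ ≤ η * h := by
    intro i hi
    have hi' := Finset.mem_range.1 hi
    have hconst : (∫ _t in a i..a (i + 1), ψ (a i)) = (h : ℂ) * ψ (a i) := by
      rw [intervalIntegral.integral_const, hastep]
      simp [Complex.real_smul]
    rw [← hconst, ← intervalIntegral.integral_sub (hint i hi') intervalIntegrable_const]
    have hbound : ∀ t ∈ Set.uIoc (a i) (a (i + 1)), ‖ψ t - ψ (a i)‖ ≤ η := by
      intro t ht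
      have htt : t ∈ Icc x₀ (x₀ + L * h) := hsub i hi' (uIoc_subset_uIcc ht)
      rw [uIoc_of_le (by rw [hastep]; linarith)] at ht
      refine hosc t htt _ (hmem i hi'.le) ?_
      rw [hastep] at ht
      rw [abs_le]; constructor <;> linarith [ht.1, ht.2]
    have := intervalIntegral.norm_integral_le_of_norm_le_const hbound
    rw [hastep, add_sub_cancel_left, abs_of_pos hh] at this
    rw [hastep]
    exact this
  calc _ ≤ ∑ i ∈ Finset.range L, ‖(∫ t in a i..a (i + 1), ψ t) - (h : ℂ) * ψ (a i)‖ :=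
        norm_sum_le _ _
    _ ≤ ∑ _i ∈ Finset.range L, η * h := Finset.sum_le_sum hterm
    _ = η * (L * h) := by simp; ring

/-- Convergence of the Riemann sums along the mesh `1/(D(k+1))` on an interval with endpoints
in `ℤ/D`, the sum over the *open* integer interval. -/
lemma riemann_tendsto {ψ : ℝ → ℂ} {α β : ℤ} {D : ℕ} (hD : 0 < D) (hαβ : α < β)
    (hψ : ContinuousOn ψ (Icc ((α : ℝ) / D) ((β : ℝ) / D))) :
    Tendsto (fun k : ℕ => (((D * (k + 1) : ℕ) : ℂ))⁻¹ *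
        ∑ τ ∈ Finset.Ioo (α * (k + 1 : ℕ)) (β * (k + 1 : ℕ)), ψ ((τ : ℝ) / ((D * (k + 1) : ℕ) : ℝ)))
      atTop (𝓝 (∫ t in ((α : ℝ) / D)..((β : ℝ) / D), ψ t)) := by
  have hDR : (0 : ℝ) < D := by exact_mod_cast hD
  set x₀ : ℝ := (α : ℝ) / D with hx₀
  set x₁ : ℝ := (β : ℝ) / D with hx₁
  have hαβR : (α : ℝ) < β := by exact_mod_cast hαβ
  have hx01 : x₀ < x₁ := by rw [hx₀, hx₁]; gcongr
  have hC : IsCompact (Icc x₀ x₁) := isCompact_Icc
  have hU := hC.uniformContinuousOn_of_continuous hψ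
  rw [Metric.uniformContinuousOn_iff] at hU
  have hbdd : ∃ B, ∀ t ∈ Icc x₀ x₁, ‖ψ t‖ ≤ B := by
    obtain ⟨B, hB⟩ := hC.exists_bound_of_continuousOn hψ
    exact ⟨B, hB⟩
  obtain ⟨B, hB⟩ := hbdd
  rw [Metric.tendsto_atTop]
  intro ε hε
  set w : ℝ := x₁ - x₀ with hw
  have hwpos : 0 < w := sub_pos.2 hx01
  set η : ℝ := ε / (2 * w) with hη
  have hηpos : 0 < η := by positivity
  obtain ⟨ρ, hρ, hU⟩ := hU η hηpos
  -- choose the threshold
  obtain ⟨K, hK⟩ : ∃ K : ℕ, ∀ k ≥ K, (1 : ℝ) / ((D * (k + 1) : ℕ) : ℝ) < min ρ (ε / (2 * (|B| + 1))) := by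
    have hmin : 0 < min ρ (ε / (2 * (|B| + 1))) := by positivity
    obtain ⟨K, hK⟩ := exists_nat_one_div_lt hmin
    refine ⟨K, fun k hk => lt_of_le_of_lt ?_ hK⟩
    have h1 : ((K : ℝ) + 1) ≤ ((D * (k + 1) : ℕ) : ℝ) := by
      have : K + 1 ≤ D * (k + 1) := by
        calc K + 1 ≤ k + 1 := by omega
          _ ≤ D * (k + 1) := Nat.le_mul_of_pos_left _ hD
      exact_mod_cast this
    exact one_div_le_one_div_of_le (by positivity) h1
  refine ⟨K, fun k hk => ?_⟩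
  have hN : (0 : ℝ) < ((D * (k + 1) : ℕ) : ℝ) := by
    have : 0 < D * (k + 1) := by positivity
    exact_mod_cast this
  set N : ℝ := ((D * (k + 1) : ℕ) : ℝ) with hNdef
  set h : ℝ := 1 / N with hh
  have hhpos : 0 < h := by positivity
  have hk' := hK k hk
  have hhρ : h < ρ := lt_of_lt_of_le hk' (min_le_left _ _)
  have hhB : h * (|B| + 1) < ε / 2 := by
    have := lt_of_lt_of_le hk' (min_le_right _ _)
    have h2 : 0 < |B| + 1 := by positivity
    rw [lt_div_iff₀ (by positivity)] at this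
    nlinarith
  -- the natural number of steps
  obtain ⟨L, hL⟩ : ∃ L : ℕ, β * ((k + 1 : ℕ) : ℤ) = α * ((k + 1 : ℕ) : ℤ) + L := by
    refine ⟨((β - α) * ((k + 1 : ℕ) : ℤ)).toNat, ?_⟩
    have : 0 ≤ (β - α) * ((k + 1 : ℕ) : ℤ) := by
      apply mul_nonneg <;> [omega; positivity]
    rw [Int.toNat_of_nonneg this]; ring
  have hLR : (L : ℝ) = ((β : ℝ) - α) * ((k : ℝ) + 1) := by
    have : ((β * ((k + 1 : ℕ) : ℤ) : ℤ) : ℝ) = ((α * ((k + 1 : ℕ) : ℤ) + L : ℤ) : ℝ) := by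
      rw [hL]
    push_cast at this
    linarith
  have hNexp : N = (D : ℝ) * ((k : ℝ) + 1) := by rw [hNdef]; push_cast; ring
  have hk1 : (0 : ℝ) < (k : ℝ) + 1 := by positivity
  have hLh : (L : ℝ) * h = w := by
    rw [hh, hLR, hNexp, hw, hx₀, hx₁]
    field_simp
  have hend : x₀ + L * h = x₁ := by rw [hLh, hw]; ring
  have hA : ((α * ((k + 1 : ℕ) : ℤ) : ℤ) : ℝ) / N = x₀ := by
    rw [hNexp, hx₀]; push_cast; field_simp
  have hψ' : ContinuousOn ψ (Icc x₀ (x₀ + L * h)) := by rwa [hend]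
  have herr := riemann_error (ψ := ψ) (x₀ := x₀) hhpos L hψ' (fun s hs t ht hst => by
    rw [hend] at hs ht
    have := hU s hs t ht (by rw [Real.dist_eq]; exact lt_of_le_of_lt hst hhρ)
    rw [dist_eq_norm] at this
    exact this.le)
  rw [hend, hLh] at herr
  -- relate the sums
  have hpt : ∀ i : ℕ, ((α * ((k + 1 : ℕ) : ℤ) + (i : ℤ) : ℤ) : ℝ) / N = x₀ + i * h := by
    intro i
    have h1 : ((α * ((k + 1 : ℕ) : ℤ) + (i : ℤ) : ℤ) : ℝ) / N =
        ((α * ((k + 1 : ℕ) : ℤ) : ℤ) : ℝ) / N + i * (1 / N) := by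
      push_cast; field_simp
    rw [h1, hA]
  have hIco : ∑ i ∈ Finset.range L, ψ (x₀ + i * h) =
      ∑ τ ∈ Finset.Ico (α * ((k + 1 : ℕ) : ℤ)) (β * ((k + 1 : ℕ) : ℤ)), ψ ((τ : ℝ) / N) := by
    rw [hL]
    refine Finset.sum_bij' (fun i _ => α * ((k + 1 : ℕ) : ℤ) + (i : ℤ))
      (fun τ _ => (τ - α * ((k + 1 : ℕ) : ℤ)).toNat) ?_ ?_ ?_ ?_ ?_
    · intro i hi
      have := Finset.mem_range.1 hi
      simp only [Finset.mem_Ico]
      omega
    · intro τ hτ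
      simp only [Finset.mem_Ico] at hτ
      simp only [Finset.mem_range]
      omega
    · intro i _
      simp
    · intro τ hτ
      simp only [Finset.mem_Ico] at hτ
      omega
    · intro i _
      rw [hpt]
  have hIcoIoo : ∑ τ ∈ Finset.Ico (α * ((k + 1 : ℕ) : ℤ)) (β * ((k + 1 : ℕ) : ℤ)), ψ ((τ : ℝ) / N) =
      ψ x₀ + ∑ τ ∈ Finset.Ioo (α * ((k + 1 : ℕ) : ℤ)) (β * ((k + 1 : ℕ) : ℤ)), ψ ((τ : ℝ) / N) := by
    have hlt : α * ((k + 1 : ℕ) : ℤ) < β * ((k + 1 : ℕ) : ℤ) := by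
      apply mul_lt_mul_of_pos_right hαβ; positivity
    rw [← Finset.Ioo_insert_left hlt,
      Finset.sum_insert (by simp), hA]
  have hNc : ((N : ℝ) : ℂ)⁻¹ = ((h : ℝ) : ℂ) := by
    rw [hh]; push_cast; simp
  have hNc' : (((D * (k + 1) : ℕ) : ℂ))⁻¹ = ((h : ℝ) : ℂ) := by
    rw [← hNc, hNdef]; push_cast; rfl
  have hx0mem : x₀ ∈ Icc x₀ x₁ := ⟨le_rfl, hx01.le⟩
  have hψ0 : ‖ψ x₀‖ ≤ |B| := (hB _ hx0mem).trans (le_abs_self _)
  rw [dist_eq_norm]
  simp only [hNc']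
  have hsplit : ((h : ℝ) : ℂ) * ∑ τ ∈ Finset.Ioo (α * ((k + 1 : ℕ) : ℤ)) (β * ((k + 1 : ℕ) : ℤ)), ψ ((τ : ℝ) / N) -
      ∫ t in x₀..x₁, ψ t =
      -((∫ t in x₀..x₁, ψ t) - (h : ℂ) * ∑ i ∈ Finset.range L, ψ (x₀ + i * h)) -
        (h : ℂ) * ψ x₀ := by
    rw [hIco, hIcoIoo]; ring
  rw [hsplit]
  have hnorm2 : ‖(h : ℂ) * ψ x₀‖ ≤ h * |B| := by
    rw [norm_mul, Complex.norm_real, Real.norm_eq_abs, abs_of_pos hhpos]
    gcongr
  have hη2 : η * w = ε / 2 := by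
    rw [hη]; field_simp
  calc _ ≤ ‖(∫ t in x₀..x₁, ψ t) - (h : ℂ) * ∑ i ∈ Finset.range L, ψ (x₀ + i * h)‖ +
        ‖(h : ℂ) * ψ x₀‖ := by
        refine (norm_sub_le _ _).trans ?_
        rw [norm_neg]
    _ ≤ η * w + h * |B| := add_le_add herr hnorm2
    _ < ε := by nlinarith

/-! ### Riemann sums of the transform -/

/-- The Riemann sum at mesh `1/N` of the annular transform. -/
noncomputable def riem (N : ℝ) (a b : ℕ) (F G : ℝ × ℝ → ℂ) (z : ℝ × ℝ) : ℂ :=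
  ∑ τ ∈ annSet a b, F (z.1 + (τ : ℝ) / N, z.2) * G (z.1, z.2 + (τ : ℝ) / N) / (τ : ℂ)

lemma sum_annSet (a b : ℕ) (Θ : ℤ → ℂ) :
    ∑ τ ∈ annSet a b, Θ τ = ∑ τ ∈ Finset.Ioo (a : ℤ) (b : ℤ), Θ τ +
      ∑ τ ∈ Finset.Ioo (-(b : ℤ)) (-(a : ℤ)), Θ τ := by
  classical
  have h : annSet a b = Finset.Ioo (a : ℤ) (b : ℤ) ∪ Finset.Ioo (-(b : ℤ)) (-(a : ℤ)) := by
    ext τ
    simp only [annSet, Finset.mem_filter, Finset.mem_Ioo, Finset.mem_union, lt_abs]
    omega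
  rw [h, Finset.sum_union]
  rw [Finset.disjoint_left]
  intro τ h1 h2
  simp only [Finset.mem_Ioo] at h1 h2
  omega

section Limit

variable {F G : ℝ × ℝ → ℂ} (cF : Continuous F) (cG : Continuous G) (z : ℝ × ℝ)

/-- the integrand -/
noncomputable def phi (F G : ℝ × ℝ → ℂ) (z : ℝ × ℝ) (t : ℝ) : ℂ :=
  F (z.1 + t, z.2) * G (z.1, z.2 + t) / (t : ℂ)

include cF cG in
lemma phi_continuousOn {s : Set ℝ} (hs : ∀ t ∈ s, t ≠ 0) : ContinuousOn (phi F G z) s := by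
  unfold phi
  refine ContinuousOn.div ?_ ?_ ?_
  · exact (Continuous.continuousOn (by fun_prop))
  · exact (Complex.continuous_ofReal.continuousOn)
  · intro t ht
    exact_mod_cast hs t ht

include cF cG in
lemma HT_eq {ε R : ℝ} (hε : 0 < ε) (hεR : ε < R) :
    annularTriangularHT F G ε R z =
      (∫ t in ε..R, phi F G z t) + ∫ t in (-R)..(-ε), phi F G z t := by
  unfold annularTriangularHT
  have hset : {t : ℝ | ε < |t| ∧ |t| < R} = Ioo ε R ∪ Ioo (-R) (-ε) := by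
    ext t
    simp only [Set.mem_ofPred_eq, mem_union, mem_Ioo, lt_abs, abs_lt]
    constructor
    · rintro ⟨h1 | h1, h2, h3⟩
      · exact Or.inl ⟨h1, h3⟩
      · exact Or.inr ⟨h2, by linarith⟩
    · rintro (⟨h1, h2⟩ | ⟨h1, h2⟩)
      · exact ⟨Or.inl h1, by linarith, h2⟩
      · exact ⟨Or.inr (by linarith), h1, by linarith⟩
  have hdis : Disjoint (Ioo ε R) (Ioo (-R) (-ε)) := by
    rw [Set.disjoint_left]
    intro t h1 h2
    linarith [h1.1, h2.2]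
  have i1 : IntegrableOn (phi F G z) (Ioo ε R) := by
    have : IntegrableOn (phi F G z) (Icc ε R) :=
      (phi_continuousOn cF cG z (fun t ht => by
        have : 0 < t := by linarith [ht.1]
        exact this.ne')).integrableOn_Icc
    exact this.mono_set Ioo_subset_Icc_self
  have i2 : IntegrableOn (phi F G z) (Ioo (-R) (-ε)) := by
    have : IntegrableOn (phi F G z) (Icc (-R) (-ε)) :=
      (phi_continuousOn cF cG z (fun t ht => by
        have : t < 0 := by linarith [ht.2]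
        exact this.ne)).integrableOn_Icc
    exact this.mono_set Ioo_subset_Icc_self
  rw [hset]
  change ∫ t in Ioo ε R ∪ Ioo (-R) (-ε), phi F G z t = _
  rw [setIntegral_union hdis measurableSet_Ioo i1 i2,
    intervalIntegral.integral_of_le hεR.le,
    intervalIntegral.integral_of_le (by linarith),
    integral_Ioc_eq_integral_Ioo, integral_Ioc_eq_integral_Ioo]

include cF cG in
/-- Pointwise convergence of the Riemann sums. -/
lemma riem_tendsto {D a b : ℕ} (hD : 0 < D) (ha : 0 < a) (hab : a < b) :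
    Tendsto (fun k : ℕ => riem (((D * (k + 1) : ℕ) : ℝ)) (a * (k + 1)) (b * (k + 1)) F G z) atTop
      (𝓝 (annularTriangularHT F G ((a : ℝ) / D) ((b : ℝ) / D) z)) := by
  have hDR : (0 : ℝ) < D := by exact_mod_cast hD
  have haR : (0 : ℝ) < a := by exact_mod_cast ha
  have habR : (a : ℝ) < b := by exact_mod_cast hab
  have hε : 0 < (a : ℝ) / D := by positivity
  have hεR : (a : ℝ) / D < (b : ℝ) / D := by gcongr
  rw [HT_eq cF cG z hε hεR]
  have hz : ∀ k : ℕ, ∀ τ : ℤ, τ ≠ 0 →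
      F (z.1 + (τ : ℝ) / ((D * (k + 1) : ℕ) : ℝ), z.2) *
          G (z.1, z.2 + (τ : ℝ) / ((D * (k + 1) : ℕ) : ℝ)) / (τ : ℂ) =
        (((D * (k + 1) : ℕ) : ℂ))⁻¹ * phi F G z ((τ : ℝ) / ((D * (k + 1) : ℕ) : ℝ)) := by
    intro k τ hτ
    unfold phi
    have h1 : ((D * (k + 1) : ℕ) : ℂ) ≠ 0 := by
      have : D * (k + 1) ≠ 0 := by positivity
      exact_mod_cast this
    have h2 : (τ : ℂ) ≠ 0 := by exact_mod_cast hτ
    generalize F (z.1 + (τ : ℝ) / ((D * (k + 1) : ℕ) : ℝ), z.2) *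
      G (z.1, z.2 + (τ : ℝ) / ((D * (k + 1) : ℕ) : ℝ)) = X
    have h3 : (((τ : ℝ) / ((D * (k + 1) : ℕ) : ℝ) : ℝ) : ℂ) = (τ : ℂ) / ((D * (k + 1) : ℕ) : ℂ) := by
      push_cast; rfl
    rw [h3]
    generalize ((D * (k + 1) : ℕ) : ℂ) = N at h1
    field_simp
  have hp := riemann_tendsto (ψ := phi F G z) (α := (a : ℤ)) (β := (b : ℤ)) hD
    (by exact_mod_cast hab) (by
      refine phi_continuousOn cF cG z fun t ht => ?_
      have : (a : ℝ) / D ≤ t := by simpa using ht.1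
      have h3 : 0 < t := by linarith
      exact h3.ne')
  have hn := riemann_tendsto (ψ := phi F G z) (α := -(b : ℤ)) (β := -(a : ℤ)) hD
    (by omega) (by
      refine phi_continuousOn cF cG z fun t ht => ?_
      have : t ≤ -(a : ℝ) / D := by simpa using ht.2
      have h3 : -(a : ℝ) / D < 0 := by
        rw [neg_div]; linarith
      exact (lt_of_le_of_lt this h3).ne)
  have e1 : (((a : ℤ) : ℝ) / D) = (a : ℝ) / D := by simp
  have e2 : (((b : ℤ) : ℝ) / D) = (b : ℝ) / D := by simp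
  have e3 : ((-(b : ℤ) : ℤ) : ℝ) / D = -((b : ℝ) / D) := by push_cast; ring
  have e4 : ((-(a : ℤ) : ℤ) : ℝ) / D = -((a : ℝ) / D) := by push_cast; ring
  rw [e1, e2] at hp
  rw [e3, e4] at hn
  refine (hp.add hn).congr fun k => ?_
  unfold riem
  rw [sum_annSet]
  have hc1 : (((a * (k + 1) : ℕ) : ℤ)) = (a : ℤ) * ((k + 1 : ℕ) : ℤ) := by push_cast; ring
  have hc2 : (((b * (k + 1) : ℕ) : ℤ)) = (b : ℤ) * ((k + 1 : ℕ) : ℤ) := by push_cast; ring
  rw [hc1, hc2, Finset.mul_sum, Finset.mul_sum]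
  have hanz : (0 : ℤ) < (a : ℤ) * ((k + 1 : ℕ) : ℤ) := by positivity
  congr 1
  · refine Finset.sum_congr rfl fun τ hτ => ?_
    have := (Finset.mem_Ioo.1 hτ).1
    rw [hz k τ (by omega)]
  · have hneg : -(b : ℤ) * ((k + 1 : ℕ) : ℤ) = -((b : ℤ) * ((k + 1 : ℕ) : ℤ)) := by ring
    have hneg' : -(a : ℤ) * ((k + 1 : ℕ) : ℤ) = -((a : ℤ) * ((k + 1 : ℕ) : ℤ)) := by ring
    rw [hneg, hneg']
    refine Finset.sum_congr rfl fun τ hτ => ?_
    have := (Finset.mem_Ioo.1 hτ).2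
    rw [hz k τ (by omega)]

end Limit

/-! ### Decomposition of the plane into cosets -/

/-- The lattice point. -/
noncomputable def vv (δ : ℝ) (p : ℤ × ℤ) : ℝ × ℝ := (δ * p.1, δ * p.2)

lemma lintegral_eq_cells {δ : ℝ} (hδ : 0 < δ) {Φ : ℝ × ℝ → ℝ≥0∞} (hΦ : Measurable Φ) :
    ∫⁻ z, Φ z = ∫⁻ ξ in Ico (0 : ℝ) δ ×ˢ Ico (0 : ℝ) δ, ∑' p : ℤ × ℤ, Φ (ξ + vv δ p) := by
  set Q : Set (ℝ × ℝ) := Ico (0 : ℝ) δ ×ˢ Ico (0 : ℝ) δ with hQ
  have hQm : MeasurableSet Q := measurableSet_Ico.prod measurableSet_Ico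
  set cell : ℤ × ℤ → Set (ℝ × ℝ) := fun p => (fun ξ => ξ + vv δ (-p)) ⁻¹' Q with hcell
  have hcellm : ∀ p, MeasurableSet (cell p) := fun p => (measurable_add_const _) hQm
  have hmem : ∀ (p : ℤ × ℤ) (z : ℝ × ℝ), z ∈ cell p ↔
      (⌊z.1 / δ⌋ = p.1 ∧ ⌊z.2 / δ⌋ = p.2) := by
    intro p z
    simp only [hcell, hQ, mem_preimage, mem_prod, mem_Ico, vv, Prod.fst_add, Prod.snd_add,
      Prod.fst_neg, Prod.snd_neg]
    have key : ∀ (x : ℝ) (q : ℤ), (0 ≤ x + δ * ((-q : ℤ) : ℝ) ∧ x + δ * ((-q : ℤ) : ℝ) < δ) ↔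
        ⌊x / δ⌋ = q := by
      intro x q
      rw [Int.floor_eq_iff]
      push_cast
      constructor
      · rintro ⟨h1, h2⟩
        constructor
        · rw [le_div_iff₀ hδ]; nlinarith
        · rw [div_lt_iff₀ hδ]; nlinarith
      · rintro ⟨h1, h2⟩
        rw [le_div_iff₀ hδ] at h1
        rw [div_lt_iff₀ hδ] at h2
        constructor <;> nlinarith
    rw [key z.1 p.1, key z.2 p.2]
  have hunion : ⋃ p, cell p = univ := by
    ext z
    simp only [mem_iUnion, mem_univ, iff_true]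
    exact ⟨(⌊z.1 / δ⌋, ⌊z.2 / δ⌋), (hmem _ _).2 ⟨rfl, rfl⟩⟩
  have hdisj : Pairwise (Function.onFun Disjoint cell) := by
    intro p q hpq
    rw [Function.onFun, Set.disjoint_left]
    intro z h1 h2
    obtain ⟨a1, a2⟩ := (hmem _ _).1 h1
    obtain ⟨b1, b2⟩ := (hmem _ _).1 h2
    exact hpq (Prod.ext (a1.symm.trans b1) (a2.symm.trans b2))
  have hcomp : ∀ p, ∫⁻ z in cell p, Φ z = ∫⁻ ξ in Q, Φ (ξ + vv δ p) := by
    intro p
    have hmp : MeasurePreserving (fun ξ : ℝ × ℝ => ξ + vv δ p) volume volume :=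
      measurePreserving_add_right volume _
    have hpre : (fun ξ : ℝ × ℝ => ξ + vv δ p) ⁻¹' cell p = Q := by
      ext ξ
      simp only [hcell, mem_preimage, vv]
      have : ξ + (δ * (p.1 : ℝ), δ * (p.2 : ℝ)) + (δ * ((-p).1 : ℤ), δ * ((-p).2 : ℤ)) = ξ := by
        ext <;> simp
      rw [this]
    have := hmp.setLIntegral_comp_preimage (hcellm p) hΦ
    rw [hpre] at this
    exact this.symm
  calc ∫⁻ z, Φ z = ∫⁻ z in ⋃ p, cell p, Φ z := by rw [hunion, Measure.restrict_univ]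
    _ = ∑' p, ∫⁻ z in cell p, Φ z := lintegral_iUnion hcellm hdisj _
    _ = ∑' p, ∫⁻ ξ in Q, Φ (ξ + vv δ p) := tsum_congr hcomp
    _ = ∫⁻ ξ in Q, ∑' p : ℤ × ℤ, Φ (ξ + vv δ p) :=
        (lintegral_tsum fun p => (hΦ.comp (measurable_add_const _)).aemeasurable).symm

lemma finite_support_coset {F : ℝ × ℝ → ℂ} (sF : HasCompactSupport F) {δ : ℝ} (hδ : 0 < δ)
    (ξ : ℝ × ℝ) : (fun q : ℤ × ℤ => F (ξ + vv δ q)).support.Finite := by
  obtain ⟨B, hB⟩ := sF.isCompact.isBounded.exists_norm_le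
  set M : ℤ := ⌈(B + ‖ξ‖) / δ⌉ with hM
  have hfin : (Icc ((-M, -M) : ℤ × ℤ) (M, M)).Finite := finite_Icc _ _
  refine hfin.subset fun q hq => ?_
  have hq' : ξ + vv δ q ∈ tsupport F := subset_tsupport F hq
  have hn := hB _ hq'
  have h1 : |δ * (q.1 : ℝ)| ≤ B + ‖ξ‖ := by
    have h2 : ‖(ξ + vv δ q).1‖ ≤ ‖ξ + vv δ q‖ := norm_fst_le _
    have h3 : ‖ξ.1‖ ≤ ‖ξ‖ := norm_fst_le _
    have h4 : δ * (q.1 : ℝ) = (ξ + vv δ q).1 - ξ.1 := by simp [vv]
    rw [h4, ← Real.norm_eq_abs]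
    exact (norm_sub_le _ _).trans (add_le_add (h2.trans hn) h3)
  have h2 : |δ * (q.2 : ℝ)| ≤ B + ‖ξ‖ := by
    have h2 : ‖(ξ + vv δ q).2‖ ≤ ‖ξ + vv δ q‖ := norm_snd_le _
    have h3 : ‖ξ.2‖ ≤ ‖ξ‖ := norm_snd_le _
    have h4 : δ * (q.2 : ℝ) = (ξ + vv δ q).2 - ξ.2 := by simp [vv]
    rw [h4, ← Real.norm_eq_abs]
    exact (norm_sub_le _ _).trans (add_le_add (h2.trans hn) h3)
  have key : ∀ t : ℤ, |δ * (t : ℝ)| ≤ B + ‖ξ‖ → -M ≤ t ∧ t ≤ M := by
    intro t ht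
    rw [abs_mul, abs_of_pos hδ] at ht
    have h5 : |(t : ℝ)| ≤ (B + ‖ξ‖) / δ := by
      rw [le_div_iff₀ hδ]; linarith
    have h6 : (B + ‖ξ‖) / δ ≤ (M : ℝ) := Int.le_ceil _
    have h7 := abs_le.1 (h5.trans h6)
    constructor
    · exact_mod_cast h7.1
    · exact_mod_cast h7.2
  obtain ⟨a1, a2⟩ := key _ h1
  obtain ⟨b1, b2⟩ := key _ h2
  exact ⟨Prod.mk_le_mk.2 ⟨a1, b1⟩, Prod.mk_le_mk.2 ⟨a2, b2⟩⟩

/-! ### The bound on each coset -/

lemma rpow_two_thirds_le {X Y : ℝ≥0∞} (h : X ^ (2 / 3 : ℝ) ≤ Y) : X ≤ Y ^ (3 / 2 : ℝ) := by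
  have := ENNReal.rpow_le_rpow h (by norm_num : (0 : ℝ) ≤ 3 / 2)
  rw [← ENNReal.rpow_mul] at this
  norm_num at this
  exact this

lemma coset_bound {K : ℝ≥0∞} (hKtop : K ≠ ⊤) {Count : (ℤ × ℤ → ℂ) → (ℤ × ℤ → ℂ) → ℤ × ℤ → ℝ≥0∞}
    (hD : ∀ f g : ℤ × ℤ → ℂ, f.support.Finite → g.support.Finite →
      (∑' p, Count f g p ^ (3 / 2 : ℝ)) ^ (2 / 3 : ℝ) ≤
        K * (∑' p, ‖f p‖ₑ ^ (3 : ℝ)) ^ (1 / 3 : ℝ) * (∑' p, ‖g p‖ₑ ^ (3 : ℝ)) ^ (1 / 3 : ℝ))
    {F G : ℝ × ℝ → ℂ}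
    (cF : Continuous F) (cG : Continuous G) (sF : HasCompactSupport F) (sG : HasCompactSupport G)
    {δ : ℝ} (hδ : 0 < δ) {Ψ : ℝ × ℝ → ℝ≥0∞} (mΨ : Measurable Ψ)
    (hΨ : ∀ ξ p, Ψ (ξ + vv δ p) ≤
      Count (fun q => F (ξ + vv δ q)) (fun q => G (ξ + vv δ q)) p) :
    ∫⁻ z, Ψ z ^ (3 / 2 : ℝ) ≤
      K ^ (3 / 2 : ℝ) *
        ((∫⁻ z, ‖F z‖ₑ ^ (3 : ℝ)) ^ (1 / 2 : ℝ) * (∫⁻ z, ‖G z‖ₑ ^ (3 : ℝ)) ^ (1 / 2 : ℝ)) := by
  set Q : Set (ℝ × ℝ) := Ico (0 : ℝ) δ ×ˢ Ico (0 : ℝ) δ with hQ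
  set A : ℝ × ℝ → ℝ≥0∞ := fun ξ => ∑' p : ℤ × ℤ, ‖F (ξ + vv δ p)‖ₑ ^ (3 : ℝ) with hA
  set B : ℝ × ℝ → ℝ≥0∞ := fun ξ => ∑' p : ℤ × ℤ, ‖G (ξ + vv δ p)‖ₑ ^ (3 : ℝ) with hB
  have mF3 : Measurable fun z => ‖F z‖ₑ ^ (3 : ℝ) := (cF.measurable.enorm).pow_const _
  have mG3 : Measurable fun z => ‖G z‖ₑ ^ (3 : ℝ) := (cG.measurable.enorm).pow_const _
  have mA : Measurable A := Measurable.tsum fun p => mF3.comp (measurable_add_const _)
  have mB : Measurable B := Measurable.tsum fun p => mG3.comp (measurable_add_const _)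
  have hptw : ∀ ξ, ∑' p : ℤ × ℤ, Ψ (ξ + vv δ p) ^ (3 / 2 : ℝ) ≤
      K ^ (3 / 2 : ℝ) * (A ξ ^ (1 / 2 : ℝ) * B ξ ^ (1 / 2 : ℝ)) := by
    intro ξ
    have h := hD (fun q => F (ξ + vv δ q)) (fun q => G (ξ + vv δ q))
      (finite_support_coset sF hδ ξ) (finite_support_coset sG hδ ξ)
    have h2 := rpow_two_thirds_le h
    refine (ENNReal.tsum_le_tsum fun p => ENNReal.rpow_le_rpow (hΨ ξ p) (by norm_num)).trans ?_
    refine h2.trans (le_of_eq ?_)
    rw [ENNReal.mul_rpow_of_nonneg _ _ (by norm_num), ENNReal.mul_rpow_of_nonneg _ _ (by norm_num),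
      ← ENNReal.rpow_mul, ← ENNReal.rpow_mul, show (1 / 3 : ℝ) * (3 / 2) = 1 / 2 by norm_num,
      mul_assoc (K ^ _)]
  have hcells1 := lintegral_eq_cells hδ (mΨ.pow_const (3 / 2 : ℝ))
  have hcellsF := lintegral_eq_cells hδ mF3
  have hcellsG := lintegral_eq_cells hδ mG3
  have hnK : K ^ (3 / 2 : ℝ) ≠ ⊤ := ENNReal.rpow_ne_top_of_nonneg (by norm_num) hKtop
  have hsq : ∀ x : ℝ≥0∞, (x ^ (1 / 2 : ℝ)) ^ (2 : ℝ) = x := by
    intro x
    rw [← ENNReal.rpow_mul]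
    norm_num
  calc ∫⁻ z, Ψ z ^ (3 / 2 : ℝ) = ∫⁻ ξ in Q, ∑' p : ℤ × ℤ, Ψ (ξ + vv δ p) ^ (3 / 2 : ℝ) := hcells1
    _ ≤ ∫⁻ ξ in Q, K ^ (3 / 2 : ℝ) * (A ξ ^ (1 / 2 : ℝ) * B ξ ^ (1 / 2 : ℝ)) :=
        lintegral_mono hptw
    _ = K ^ (3 / 2 : ℝ) * ∫⁻ ξ in Q, A ξ ^ (1 / 2 : ℝ) * B ξ ^ (1 / 2 : ℝ) :=
        lintegral_const_mul' _ _ hnK
    _ ≤ K ^ (3 / 2 : ℝ) * ((∫⁻ ξ in Q, (A ξ ^ (1 / 2 : ℝ)) ^ (2 : ℝ)) ^ (1 / 2 : ℝ) *
          (∫⁻ ξ in Q, (B ξ ^ (1 / 2 : ℝ)) ^ (2 : ℝ)) ^ (1 / 2 : ℝ)) := by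
        gcongr
        exact ENNReal.lintegral_mul_le_Lp_mul_Lq _ Real.HolderConjugate.two_two
          (mA.pow_const _).aemeasurable (mB.pow_const _).aemeasurable
    _ = _ := by
        simp only [hsq]
        rw [hcellsF, hcellsG]

/-! ### Rational families and common denominators -/

/-- A family of at most `n` rational annuli. -/
structure Fam (n : ℕ) where
  m : ℕ
  hm : m ≤ n
  ε : Fin m → ℚ
  R : Fin m → ℚ
  h1 : ∀ j, 0 < ε j ∧ ε j < R j
  h2 : ∀ i j, i ≠ j → R i ≤ ε j ∨ R j ≤ ε i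

instance (n : ℕ) : Countable (Fam n) := by
  refine Function.Injective.countable
    (f := fun A : Fam n => (⟨A.m, A.ε, A.R⟩ : Σ m : ℕ, (Fin m → ℚ) × (Fin m → ℚ))) ?_
  rintro ⟨m, hm, ε, R, h1, h2⟩ ⟨m', hm', ε', R', h1', h2'⟩ h
  simp only [Sigma.mk.injEq] at h
  obtain ⟨rfl, h⟩ := h
  have h' : (ε, R) = (ε', R') := eq_of_heq h
  simp only [Prod.mk.injEq] at h'
  obtain ⟨rfl, rfl⟩ := h'
  rfl

/-- The sum for one family. -/
noncomputable def Phi {n : ℕ} (A : Fam n) (F G : ℝ × ℝ → ℂ) (z : ℝ × ℝ) : ℝ≥0∞ :=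
  ∑ j, ‖annularTriangularHT F G (A.ε j : ℝ) (A.R j : ℝ) z‖ₑ

lemma annulusCount_le (n : ℕ) (F G : ℝ × ℝ → ℂ) (z : ℝ × ℝ) :
    annulusCount n F G z ≤ ⨆ A : Fam n, Phi A F G z := by
  unfold annulusCount
  refine iSup_le fun m => iSup_le fun hm => iSup_le fun ε => iSup_le fun R =>
    iSup_le fun h1 => iSup_le fun h2 => ?_
  exact le_iSup (fun A : Fam n => Phi A F G z) ⟨m, hm, ε, R, h1, h2⟩

/-- The numerator of `q` over the denominator `D`. -/
noncomputable def natOf (D : ℕ) (q : ℚ) : ℕ := ⌊q * D⌋₊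

lemma natOf_spec {D : ℕ} {q : ℚ} (hq : 0 ≤ q) (hd : q.den ∣ D) :
    ((natOf D q : ℕ) : ℚ) = q * D := by
  obtain ⟨c, rfl⟩ := hd
  have h1 : q * ((q.den * c : ℕ) : ℚ) = (q.num : ℚ) * c := by
    push_cast
    rw [← mul_assoc, Rat.mul_den_eq_num]
  have h2 : 0 ≤ q.num := Rat.num_nonneg.2 hq
  obtain ⟨w, hw⟩ := Int.eq_ofNat_of_zero_le h2
  have h3 : q * ((q.den * c : ℕ) : ℚ) = ((w * c : ℕ) : ℚ) := by
    rw [h1, hw]; push_cast; ring
  unfold natOf
  rw [h3, Nat.floor_natCast]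

lemma natOf_real {D : ℕ} (hD : 0 < D) {q : ℚ} (hq : 0 ≤ q) (hd : q.den ∣ D) :
    ((natOf D q : ℕ) : ℝ) / D = (q : ℝ) := by
  have h := natOf_spec hq hd
  have hDR : (D : ℝ) ≠ 0 := by positivity
  have h2 : ((natOf D q : ℕ) : ℝ) = (q : ℝ) * D := by exact_mod_cast h
  rw [h2]; field_simp

lemma natOf_pos {D : ℕ} (hD : 0 < D) {q : ℚ} (hq : 0 < q) (hd : q.den ∣ D) : 0 < natOf D q := by
  have h := natOf_spec hq.le hd
  have h2 : (0 : ℚ) < ((natOf D q : ℕ) : ℚ) := by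
    rw [h]; have : (0 : ℚ) < D := by exact_mod_cast hD
    positivity
  exact_mod_cast h2

lemma natOf_lt {D : ℕ} (hD : 0 < D) {q r : ℚ} (hq : 0 ≤ q) (hr : 0 ≤ r) (hd : q.den ∣ D)
    (hd' : r.den ∣ D) (hqr : q < r) : natOf D q < natOf D r := by
  have h := natOf_spec hq hd
  have h' := natOf_spec hr hd'
  have hDQ : (0 : ℚ) < D := by exact_mod_cast hD
  have : ((natOf D q : ℕ) : ℚ) < ((natOf D r : ℕ) : ℚ) := by
    rw [h, h']; exact mul_lt_mul_of_pos_right hqr hDQ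
  exact_mod_cast this

lemma natOf_le {D : ℕ} (hD : 0 < D) {q r : ℚ} (hq : 0 ≤ q) (hr : 0 ≤ r) (hd : q.den ∣ D)
    (hd' : r.den ∣ D) (hqr : q ≤ r) : natOf D q ≤ natOf D r := by
  have h := natOf_spec hq hd
  have h' := natOf_spec hr hd'
  have hDQ : (0 : ℚ) < D := by exact_mod_cast hD
  have : ((natOf D q : ℕ) : ℚ) ≤ ((natOf D r : ℕ) : ℚ) := by
    rw [h, h']; exact mul_le_mul_of_nonneg_right hqr hDQ.le
  exact_mod_cast this

lemma measurable_fsup {ι α : Type*} [MeasurableSpace α] (s : Finset ι) (f : ι → α → ℝ≥0∞)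
    (hf : ∀ i ∈ s, Measurable (f i)) : Measurable fun a => s.sup fun i => f i a := by
  classical
  induction s using Finset.induction_on with
  | empty => simp
  | insert i s hi ih =>
    simp only [Finset.sup_insert]
    exact (hf i (Finset.mem_insert_self _ _)).sup
      (ih fun j hj => hf j (Finset.mem_insert_of_mem hj))

/-! ### Continuous compactly supported functions -/

lemma riem_coset (N : ℝ) (hN : 0 < N) (a b : ℕ) (F G : ℝ × ℝ → ℂ) (ξ : ℝ × ℝ) (p : ℤ × ℤ) :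
    riem N a b F G (ξ + vv (1 / N) p) =
      discT a b (fun q => F (ξ + vv (1 / N) q)) (fun q => G (ξ + vv (1 / N) q)) p := by
  unfold riem discT
  refine Finset.sum_congr rfl fun τ _ => ?_
  have e1 : ((ξ + vv (1 / N) p).1 + (τ : ℝ) / N, (ξ + vv (1 / N) p).2) =
      ξ + vv (1 / N) (p.1 + τ, p.2) := by
    ext <;> simp [vv] <;> field_simp <;> ring
  have e2 : ((ξ + vv (1 / N) p).1, (ξ + vv (1 / N) p).2 + (τ : ℝ) / N) =
      ξ + vv (1 / N) (p.1, p.2 + τ) := by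
    ext <;> simp [vv] <;> field_simp <;> ring
  rw [e1, e2]

lemma riem_continuous {F G : ℝ × ℝ → ℂ} (cF : Continuous F) (cG : Continuous G) (N : ℝ) (a b : ℕ) :
    Continuous (riem N a b F G) := by
  unfold riem
  refine continuous_finsetSum _ fun τ _ => ?_
  fun_prop

/-- Fatou step: the bound for a finite set of families and continuous functions. -/
lemma fatou_cont {C : ℝ} (hD : DiscreteCountBoundLarge C) {n : ℕ} (hn : 1 ≤ n) {F G : ℝ × ℝ → ℂ}
    (cF : Continuous F) (cG : Continuous G) (sF : HasCompactSupport F) (sG : HasCompactSupport G)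
    (T : Finset (Fam n)) :
    ∫⁻ z, (T.sup fun A => Phi A F G z) ^ (3 / 2 : ℝ) ≤
      (ENNReal.ofReal (C * Real.sqrt n * Real.log (2 + n))) ^ (3 / 2 : ℝ) *
        ((∫⁻ z, ‖F z‖ₑ ^ (3 : ℝ)) ^ (1 / 2 : ℝ) * (∫⁻ z, ‖G z‖ₑ ^ (3 : ℝ)) ^ (1 / 2 : ℝ)) := by
  classical
  set D : ℕ := ∏ A ∈ T, ∏ j, ((A.ε j).den * (A.R j).den) with hDdef
  have hDpos : 0 < D := by
    refine Finset.prod_pos fun A _ => Finset.prod_pos fun j _ => ?_
    exact Nat.mul_pos (A.ε j).den_pos (A.R j).den_pos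
  have hdiv : ∀ A ∈ T, ∀ j, (A.ε j).den ∣ D ∧ (A.R j).den ∣ D := by
    intro A hA j
    have h1 : ((A.ε j).den * (A.R j).den) ∣ ∏ j, ((A.ε j).den * (A.R j).den) :=
      Finset.dvd_prod_of_mem _ (Finset.mem_univ j)
    have h2 : (∏ j, ((A.ε j).den * (A.R j).den)) ∣ D :=
      Finset.dvd_prod_of_mem (fun A : Fam n => ∏ j, ((A.ε j).den * (A.R j).den)) hA
    exact ⟨(Dvd.intro _ rfl).trans (h1.trans h2), (Dvd.intro_left _ rfl).trans (h1.trans h2)⟩
  -- the approximating sequence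
  set S : ℕ → ℝ × ℝ → ℝ≥0∞ := fun k z => T.sup fun A => ∑ j : Fin A.m,
    ‖riem (((D * (k + 1) : ℕ) : ℝ)) (natOf D (A.ε j) * (k + 1)) (natOf D (A.R j) * (k + 1)) F G z‖ₑ
    with hS
  have hSm : ∀ k, Measurable (S k) := by
    intro k
    refine measurable_fsup _ _ fun A _ => ?_
    refine Finset.measurable_sum _ fun j _ => ?_
    exact (riem_continuous cF cG _ _ _).measurable.enorm
  -- the ratio of the radii
  set Λ : ℕ := T.sup fun A => Finset.univ.sup fun j => natOf D (A.R j) with hΛ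
  have hΛle : ∀ A ∈ T, ∀ j, natOf D (A.R j) ≤ Λ := by
    intro A hA j
    have h1 : natOf D (A.R j) ≤ Finset.univ.sup fun j => natOf D (A.R j) :=
      Finset.le_sup (f := fun j => natOf D (A.R j)) (Finset.mem_univ j)
    exact h1.trans (Finset.le_sup (f := fun A : Fam n => Finset.univ.sup fun j => natOf D (A.R j)) hA)
  obtain ⟨R₀, hR₀⟩ := hD n hn Λ
  have hSb : ∀ k, R₀ ≤ k + 1 → ∫⁻ z, S k z ^ (3 / 2 : ℝ) ≤
      (ENNReal.ofReal (C * Real.sqrt n * Real.log (2 + n))) ^ (3 / 2 : ℝ) *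
        ((∫⁻ z, ‖F z‖ₑ ^ (3 : ℝ)) ^ (1 / 2 : ℝ) * (∫⁻ z, ‖G z‖ₑ ^ (3 : ℝ)) ^ (1 / 2 : ℝ)) := by
    intro k hk
    have hN : (0 : ℝ) < ((D * (k + 1) : ℕ) : ℝ) := by
      have : 0 < D * (k + 1) := by positivity
      exact_mod_cast this
    refine coset_bound ENNReal.ofReal_ne_top (hR₀ (k + 1) hk) cF cG sF sG
      (δ := 1 / ((D * (k + 1) : ℕ) : ℝ)) (by positivity) (hSm k) ?_
    intro ξ p
    refine Finset.sup_le fun A hA => ?_
    simp only [riem_coset _ hN]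
    unfold discCountIn
    refine le_iSup_of_le A.m (le_iSup_of_le A.hm (le_iSup_of_le
      (fun j => natOf D (A.ε j) * (k + 1)) (le_iSup_of_le (fun j => natOf D (A.R j) * (k + 1))
      (le_iSup_of_le ?_ (le_iSup_of_le ?_ le_rfl)))))
    · intro j
      have h1 := A.h1 j
      have hd := hdiv A hA j
      have hpos := natOf_pos hDpos h1.1 hd.1
      refine ⟨Nat.mul_pos hpos (Nat.succ_pos k), Nat.mul_lt_mul_of_pos_right
          (natOf_lt hDpos h1.1.le (h1.1.trans h1.2).le hd.1 hd.2 h1.2) (Nat.succ_pos k), ?_, ?_⟩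
      · exact Nat.le_mul_of_pos_left _ hpos
      · exact Nat.mul_le_mul_right _ (hΛle A hA j)
    · intro i j hij
      have hi := A.h1 i
      have hj := A.h1 j
      have hdi := hdiv A hA i
      have hdj := hdiv A hA j
      rcases A.h2 i j hij with h | h
      · exact Or.inl (Nat.mul_le_mul_right _
          (natOf_le hDpos (hi.1.trans hi.2).le hj.1.le hdi.2 hdj.1 h))
      · exact Or.inr (Nat.mul_le_mul_right _
          (natOf_le hDpos (hj.1.trans hj.2).le hi.1.le hdj.2 hdi.1 h))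
  -- the pointwise liminf
  have hlim : ∀ z, (T.sup fun A => Phi A F G z) ^ (3 / 2 : ℝ) ≤
      liminf (fun k => S k z ^ (3 / 2 : ℝ)) atTop := by
    intro z
    rcases T.eq_empty_or_nonempty with hT | hT
    · simp [hT, ENNReal.zero_rpow_of_pos]
    obtain ⟨A, hA, hsup⟩ := Finset.exists_mem_eq_sup T hT (fun A => Phi A F G z)
    rw [hsup]
    have hten : Tendsto (fun k => ∑ j : Fin A.m,
        ‖riem (((D * (k + 1) : ℕ) : ℝ)) (natOf D (A.ε j) * (k + 1)) (natOf D (A.R j) * (k + 1)) F G z‖ₑ)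
        atTop (𝓝 (Phi A F G z)) := by
      unfold Phi
      refine tendsto_finsetSum _ fun j _ => ?_
      have h1 := A.h1 j
      have hd := hdiv A hA j
      have ht := riem_tendsto cF cG z (D := D) (a := natOf D (A.ε j)) (b := natOf D (A.R j)) hDpos
        (natOf_pos hDpos h1.1 hd.1) (natOf_lt hDpos h1.1.le (h1.1.trans h1.2).le hd.1 hd.2 h1.2)
      rw [natOf_real hDpos h1.1.le hd.1, natOf_real hDpos (h1.1.trans h1.2).le hd.2] at ht
      exact ht.enorm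
    have hten2 := (ENNReal.continuous_rpow_const (y := (3 / 2 : ℝ))).tendsto _ |>.comp hten
    rw [← hten2.liminf_eq]
    refine liminf_le_liminf (Eventually.of_forall fun k => ?_)
    refine ENNReal.rpow_le_rpow ?_ (by norm_num)
    exact Finset.le_sup (f := fun A => ∑ j : Fin A.m,
      ‖riem (((D * (k + 1) : ℕ) : ℝ)) (natOf D (A.ε j) * (k + 1)) (natOf D (A.R j) * (k + 1)) F G z‖ₑ) hA
  calc ∫⁻ z, (T.sup fun A => Phi A F G z) ^ (3 / 2 : ℝ)
      ≤ ∫⁻ z, liminf (fun k => S k z ^ (3 / 2 : ℝ)) atTop := lintegral_mono hlim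
    _ ≤ liminf (fun k => ∫⁻ z, S k z ^ (3 / 2 : ℝ)) atTop :=
        lintegral_liminf_le fun k => (hSm k).pow_const _
    _ ≤ liminf (fun _ : ℕ => (ENNReal.ofReal (C * Real.sqrt n * Real.log (2 + n))) ^ (3 / 2 : ℝ) *
        ((∫⁻ z, ‖F z‖ₑ ^ (3 : ℝ)) ^ (1 / 2 : ℝ) * (∫⁻ z, ‖G z‖ₑ ^ (3 : ℝ)) ^ (1 / 2 : ℝ))) atTop :=
        liminf_le_liminf (by
          filter_upwards [eventually_ge_atTop R₀] with k hk
          exact hSb k (by omega))
    _ = _ := by simp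

/-! ### The bilinear estimate -/

/-- The positive bilinear integral over the set `A`. -/
noncomputable def Iann (A : Set ℝ) (U V : ℝ × ℝ → ℝ≥0∞) (z : ℝ × ℝ) : ℝ≥0∞ :=
  ∫⁻ t in A, U (z.1 + t, z.2) * V (z.1, z.2 + t)

section Bilinear

variable {A : Set ℝ} {U V : ℝ × ℝ → ℝ≥0∞}

lemma measurable_Iann (mU : Measurable U) (mV : Measurable V) : Measurable (Iann A U V) := by
  unfold Iann
  have h : Measurable fun p : (ℝ × ℝ) × ℝ => U (p.1.1 + p.2, p.1.2) * V (p.1.1, p.1.2 + p.2) := by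
    refine (mU.comp ?_).mul (mV.comp ?_) <;> fun_prop
  exact h.lintegral_prod_right'

lemma lintegral_shift1 (mU : Measurable U) :
    ∫⁻ z : ℝ × ℝ, ∫⁻ t in A, U (z.1 + t, z.2) = volume A * ∫⁻ z, U z := by
  have h : Measurable (fun p : (ℝ × ℝ) × ℝ => U (p.1.1 + p.2, p.1.2)) :=
    mU.comp (by fun_prop)
  rw [lintegral_lintegral_swap (μ := volume) (ν := volume.restrict A) (by exact h.aemeasurable)]
  have : ∀ t : ℝ, ∫⁻ z : ℝ × ℝ, U (z.1 + t, z.2) = ∫⁻ z, U z := by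
    intro t
    have e : ∀ z : ℝ × ℝ, (z.1 + t, z.2) = z + ((t, 0) : ℝ × ℝ) := fun z => by ext <;> simp
    simp only [e]
    exact lintegral_add_right_eq_self (μ := (volume : Measure (ℝ × ℝ))) U ((t, 0) : ℝ × ℝ)
  simp only [this, lintegral_const, Measure.restrict_apply, MeasurableSet.univ, univ_inter]
  ring

lemma lintegral_shift2 (mV : Measurable V) :
    ∫⁻ z : ℝ × ℝ, ∫⁻ t in A, V (z.1, z.2 + t) = volume A * ∫⁻ z, V z := by
  have h : Measurable (fun p : (ℝ × ℝ) × ℝ => V (p.1.1, p.1.2 + p.2)) :=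
    mV.comp (by fun_prop)
  rw [lintegral_lintegral_swap (μ := volume) (ν := volume.restrict A) (by exact h.aemeasurable)]
  have : ∀ t : ℝ, ∫⁻ z : ℝ × ℝ, V (z.1, z.2 + t) = ∫⁻ z, V z := by
    intro t
    have e : ∀ z : ℝ × ℝ, (z.1, z.2 + t) = z + ((0, t) : ℝ × ℝ) := fun z => by ext <;> simp
    simp only [e]
    exact lintegral_add_right_eq_self (μ := (volume : Measure (ℝ × ℝ))) V ((0, t) : ℝ × ℝ)
  simp only [this, lintegral_const, Measure.restrict_apply, MeasurableSet.univ, univ_inter]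
  ring

/-- Three-exponent Hölder. -/
lemma holder3 {α : Type*} [MeasurableSpace α] {μ : Measure α} {u v : α → ℝ≥0∞}
    (hu : Measurable u) (hv : Measurable v) :
    ∫⁻ a, u a * v a ∂μ ≤ (∫⁻ a, u a ^ (3 : ℝ) ∂μ) ^ (1 / 3 : ℝ) *
      (∫⁻ a, v a ^ (3 : ℝ) ∂μ) ^ (1 / 3 : ℝ) * (μ Set.univ) ^ (1 / 3 : ℝ) := by
  have h := ENNReal.lintegral_prod_norm_pow_le (μ := μ) (Finset.univ : Finset (Fin 3))
    (f := ![fun a => u a ^ (3 : ℝ), fun a => v a ^ (3 : ℝ), fun _ => 1])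
    (p := fun _ => (1 / 3 : ℝ))
    (by
      intro i _
      fin_cases i
      · exact (hu.pow_const _).aemeasurable
      · exact (hv.pow_const _).aemeasurable
      · exact aemeasurable_const)
    (by simp) (by intro i _; norm_num)
  simp only [Fin.prod_univ_three, Matrix.cons_val_zero, Matrix.cons_val_one, Matrix.cons_val,
    ENNReal.one_rpow, mul_one] at h
  have e : ∀ x : ℝ≥0∞, (x ^ (3 : ℝ)) ^ (1 / 3 : ℝ) = x := by
    intro x
    rw [← ENNReal.rpow_mul]; norm_num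
  simp only [e] at h
  simpa using h

lemma I_bound (hfin : volume A ≠ ⊤) (mU : Measurable U) (mV : Measurable V) :
    ∫⁻ z, Iann A U V z ^ (3 / 2 : ℝ) ≤ (volume A) ^ (3 / 2 : ℝ) *
      ((∫⁻ z, U z ^ (3 : ℝ)) ^ (1 / 2 : ℝ) * (∫⁻ z, V z ^ (3 : ℝ)) ^ (1 / 2 : ℝ)) := by
  set A1 : ℝ × ℝ → ℝ≥0∞ := fun z => ∫⁻ t in A, U (z.1 + t, z.2) ^ (3 : ℝ) with hA1
  set B1 : ℝ × ℝ → ℝ≥0∞ := fun z => ∫⁻ t in A, V (z.1, z.2 + t) ^ (3 : ℝ) with hB1
  have mU3 : Measurable fun z => U z ^ (3 : ℝ) := mU.pow_const _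
  have mV3 : Measurable fun z => V z ^ (3 : ℝ) := mV.pow_const _
  have mA1 : Measurable A1 := by
    have h : Measurable fun p : (ℝ × ℝ) × ℝ => U (p.1.1 + p.2, p.1.2) ^ (3 : ℝ) := by
      refine mU3.comp ?_
      fun_prop
    exact h.lintegral_prod_right'
  have mB1 : Measurable B1 := by
    have h : Measurable fun p : (ℝ × ℝ) × ℝ => V (p.1.1, p.1.2 + p.2) ^ (3 : ℝ) := by
      refine mV3.comp ?_
      fun_prop
    exact h.lintegral_prod_right'
  have hpt : ∀ z, Iann A U V z ^ (3 / 2 : ℝ) ≤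
      (volume A) ^ (1 / 2 : ℝ) * (A1 z ^ (1 / 2 : ℝ) * B1 z ^ (1 / 2 : ℝ)) := by
    intro z
    have h := holder3 (μ := volume.restrict A) (u := fun t => U (z.1 + t, z.2))
      (v := fun t => V (z.1, z.2 + t)) (mU.comp (by fun_prop)) (mV.comp (by fun_prop))
    have h2 := ENNReal.rpow_le_rpow h (by norm_num : (0 : ℝ) ≤ 3 / 2)
    refine h2.trans (le_of_eq ?_)
    simp only [Measure.restrict_apply, MeasurableSet.univ, univ_inter]
    rw [ENNReal.mul_rpow_of_nonneg _ _ (by norm_num), ENNReal.mul_rpow_of_nonneg _ _ (by norm_num),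
      ← ENNReal.rpow_mul, ← ENNReal.rpow_mul, ← ENNReal.rpow_mul,
      show (1 / 3 : ℝ) * (3 / 2) = 1 / 2 by norm_num, mul_comm]
  have hsq : ∀ x : ℝ≥0∞, (x ^ (1 / 2 : ℝ)) ^ (2 : ℝ) = x := by
    intro x
    rw [← ENNReal.rpow_mul]
    norm_num
  have hCS : ∫⁻ z, A1 z ^ (1 / 2 : ℝ) * B1 z ^ (1 / 2 : ℝ) ≤
      (∫⁻ z, A1 z) ^ (1 / 2 : ℝ) * (∫⁻ z, B1 z) ^ (1 / 2 : ℝ) := by
    have := ENNReal.lintegral_mul_le_Lp_mul_Lq (volume : Measure (ℝ × ℝ))
      Real.HolderConjugate.two_two (f := fun z => A1 z ^ (1 / 2 : ℝ))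
      (g := fun z => B1 z ^ (1 / 2 : ℝ)) (mA1.pow_const _).aemeasurable
      (mB1.pow_const _).aemeasurable
    simpa only [hsq, Pi.mul_apply] using this
  have e1 : ∫⁻ z, A1 z = volume A * ∫⁻ z, U z ^ (3 : ℝ) := lintegral_shift1 mU3
  have e2 : ∫⁻ z, B1 z = volume A * ∫⁻ z, V z ^ (3 : ℝ) := lintegral_shift2 mV3
  calc ∫⁻ z, Iann A U V z ^ (3 / 2 : ℝ)
      ≤ ∫⁻ z, (volume A) ^ (1 / 2 : ℝ) * (A1 z ^ (1 / 2 : ℝ) * B1 z ^ (1 / 2 : ℝ)) :=
        lintegral_mono hpt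
    _ = (volume A) ^ (1 / 2 : ℝ) * ∫⁻ z, A1 z ^ (1 / 2 : ℝ) * B1 z ^ (1 / 2 : ℝ) :=
        lintegral_const_mul' _ _ (ENNReal.rpow_ne_top_of_nonneg (by norm_num) hfin)
    _ ≤ (volume A) ^ (1 / 2 : ℝ) * ((∫⁻ z, A1 z) ^ (1 / 2 : ℝ) * (∫⁻ z, B1 z) ^ (1 / 2 : ℝ)) := by
        gcongr
    _ = _ := by
        rw [e1, e2, ENNReal.mul_rpow_of_nonneg _ _ (by norm_num),
          ENNReal.mul_rpow_of_nonneg _ _ (by norm_num)]
        have : (volume A) ^ (3 / 2 : ℝ) =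
            (volume A) ^ (1 / 2 : ℝ) * ((volume A) ^ (1 / 2 : ℝ) * (volume A) ^ (1 / 2 : ℝ)) := by
          rw [← ENNReal.rpow_add_of_nonneg _ _ (by norm_num) (by norm_num),
            ← ENNReal.rpow_add_of_nonneg _ _ (by norm_num) (by norm_num)]
          norm_num
        rw [this]; ring

end Bilinear

/-! ### Minkowski and norms -/

lemma minkowski_finset {ι α : Type*} [MeasurableSpace α] {μ : Measure α} {p : ℝ} (hp : 1 ≤ p)
    (s : Finset ι) (g : ι → α → ℝ≥0∞) (hg : ∀ i ∈ s, AEMeasurable (g i) μ) :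
    (∫⁻ a, (∑ i ∈ s, g i a) ^ p ∂μ) ^ (1 / p) ≤ ∑ i ∈ s, (∫⁻ a, g i a ^ p ∂μ) ^ (1 / p) := by
  classical
  have hp0 : 0 < p := by linarith
  induction s using Finset.induction_on with
  | empty => simp [ENNReal.zero_rpow_of_pos, hp0]
  | insert i s hi ih =>
    simp only [Finset.sum_insert hi]
    have hm : AEMeasurable (fun a => ∑ m ∈ s, g m a) μ :=
      Finset.aemeasurable_fun_sum _ fun m hm => hg m (Finset.mem_insert_of_mem hm)
    refine (ENNReal.lintegral_Lp_add_le (hg i (Finset.mem_insert_self _ _)) hm hp).trans ?_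
    gcongr
    exact ih fun j hj => hg j (Finset.mem_insert_of_mem hj)

/-- The `L^{3/2}` quasinorm of a nonnegative function. -/
noncomputable def N32 (S : ℝ × ℝ → ℝ≥0∞) : ℝ≥0∞ := (∫⁻ z, S z ^ (3 / 2 : ℝ)) ^ (2 / 3 : ℝ)

lemma N32_add {S S' : ℝ × ℝ → ℝ≥0∞} (hS : AEMeasurable S) (hS' : AEMeasurable S') :
    N32 (fun z => S z + S' z) ≤ N32 S + N32 S' := by
  have := ENNReal.lintegral_Lp_add_le hS hS' (μ := volume) (p := 3 / 2) (by norm_num)
  simp only [Pi.add_apply] at this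
  have e : (1 / (3 / 2 : ℝ)) = 2 / 3 := by norm_num
  rw [e] at this
  exact this

lemma N32_finset {ι : Type*} (s : Finset ι) (g : ι → ℝ × ℝ → ℝ≥0∞)
    (hg : ∀ i ∈ s, AEMeasurable (g i)) :
    N32 (fun z => ∑ i ∈ s, g i z) ≤ ∑ i ∈ s, N32 (g i) := by
  have := minkowski_finset (μ := volume) (p := 3 / 2) (by norm_num) s g hg
  have e : (1 / (3 / 2 : ℝ)) = 2 / 3 := by norm_num
  rw [e] at this
  exact this

lemma N32_const_mul (κ : ℝ≥0∞) (hκ : κ ≠ ⊤) (S : ℝ × ℝ → ℝ≥0∞) :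
    N32 (fun z => κ * S z) = κ * N32 S := by
  unfold N32
  simp only [ENNReal.mul_rpow_of_nonneg _ _ (by norm_num : (0 : ℝ) ≤ 3 / 2)]
  rw [lintegral_const_mul' _ _ (ENNReal.rpow_ne_top_of_nonneg (by norm_num) hκ),
    ENNReal.mul_rpow_of_nonneg _ _ (by norm_num), ← ENNReal.rpow_mul]
  norm_num

lemma N32_mono {S S' : ℝ × ℝ → ℝ≥0∞} (h : ∀ᵐ z, S z ≤ S' z) : N32 S ≤ N32 S' := by
  unfold N32
  refine ENNReal.rpow_le_rpow ?_ (by norm_num)
  refine lintegral_mono_ae ?_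
  filter_upwards [h] with z hz
  exact ENNReal.rpow_le_rpow hz (by norm_num)

/-- The `L³` norm, in terms of the lower integral. -/
lemma eLp3 {E : Type*} [NormedAddCommGroup E] (f : ℝ × ℝ → E) :
    eLpNorm f 3 volume = (∫⁻ z, ‖f z‖ₑ ^ (3 : ℝ)) ^ (1 / 3 : ℝ) := by
  rw [eLpNorm_eq_lintegral_rpow_enorm_toReal (by norm_num) (by norm_num)]
  simp

lemma rpow_half_two_thirds (x : ℝ≥0∞) : (x ^ (1 / 2 : ℝ)) ^ (2 / 3 : ℝ) = x ^ (1 / 3 : ℝ) := by
  rw [← ENNReal.rpow_mul]; norm_num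

lemma I_bound' {A : Set ℝ} (hfin : volume A ≠ ⊤) {U V : ℝ × ℝ → ℝ≥0∞}
    (mU : Measurable U) (mV : Measurable V) :
    N32 (Iann A U V) ≤ volume A * ((∫⁻ z, U z ^ (3 : ℝ)) ^ (1 / 3 : ℝ) *
      (∫⁻ z, V z ^ (3 : ℝ)) ^ (1 / 3 : ℝ)) := by
  have h := ENNReal.rpow_le_rpow (I_bound hfin mU mV) (by norm_num : (0 : ℝ) ≤ 2 / 3)
  refine h.trans (le_of_eq ?_)
  rw [ENNReal.mul_rpow_of_nonneg _ _ (by norm_num), ENNReal.mul_rpow_of_nonneg _ _ (by norm_num),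
    rpow_half_two_thirds, rpow_half_two_thirds, ← ENNReal.rpow_mul]
  norm_num

/-! ### Differences of two transforms -/

/-- The annulus as a set. -/
def ann (ε R : ℝ) : Set ℝ := {t : ℝ | ε < |t| ∧ |t| < R}

lemma ann_finite (ε R : ℝ) : volume (ann ε R) ≠ ⊤ := by
  have hsub : ann ε R ⊆ Ioo (-R) R := fun t ht => abs_lt.1 ht.2
  exact ((measure_mono hsub).trans_lt (by simp)).ne

lemma enorm_mul_div_le {ε : ℝ} (hε : 0 < ε) {a b : ℂ} {t : ℝ} (ht : ε < |t|) :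
    ‖a * b / (t : ℂ)‖ₑ ≤ ENNReal.ofReal ε⁻¹ * (‖a‖ₑ * ‖b‖ₑ) := by
  have h1 : ‖a * b / (t : ℂ)‖ = ‖a‖ * ‖b‖ / |t| := by
    rw [norm_div, norm_mul, Complex.norm_real, Real.norm_eq_abs]
  rw [← ofReal_norm, ← ofReal_norm, ← ofReal_norm, h1,
    ← ENNReal.ofReal_mul (norm_nonneg _), ← ENNReal.ofReal_mul (by positivity)]
  refine ENNReal.ofReal_le_ofReal ?_
  have h2 : 0 ≤ ‖a‖ * ‖b‖ := by positivity
  rw [div_eq_inv_mul]
  gcongr

lemma rpow_three_halves_lt_top {x : ℝ≥0∞} (h : x ^ (3 / 2 : ℝ) < ⊤) : x < ⊤ := by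
  by_contra hx
  rw [not_lt, top_le_iff] at hx
  rw [hx, ENNReal.top_rpow_of_pos (by norm_num)] at h
  exact lt_irrefl _ h

/-- A.e. finiteness of the positive bilinear integral. -/
lemma Iann_ae_lt_top {A : Set ℝ} (hfin : volume A ≠ ⊤) {U V : ℝ × ℝ → ℝ≥0∞}
    (mU : Measurable U) (mV : Measurable V) (hU : ∫⁻ z, U z ^ (3 : ℝ) ≠ ⊤)
    (hV : ∫⁻ z, V z ^ (3 : ℝ) ≠ ⊤) : ∀ᵐ z, Iann A U V z < ⊤ := by
  have hm : Measurable fun z => Iann A U V z ^ (3 / 2 : ℝ) :=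
    (measurable_Iann mU mV).pow_const _
  have hb := I_bound hfin mU mV
  have hlt : ∫⁻ z, Iann A U V z ^ (3 / 2 : ℝ) ≠ ⊤ := by
    refine ne_top_of_le_ne_top ?_ hb
    refine ENNReal.mul_ne_top (ENNReal.rpow_ne_top_of_nonneg (by norm_num) hfin)
      (ENNReal.mul_ne_top (ENNReal.rpow_ne_top_of_nonneg (by norm_num) hU)
        (ENNReal.rpow_ne_top_of_nonneg (by norm_num) hV))
  filter_upwards [ae_lt_top hm hlt] with z hz
  exact rpow_three_halves_lt_top hz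

lemma HT_diff_ae {F G F' G' : ℝ × ℝ → ℂ} (mF : Measurable F) (mG : Measurable G)
    (mF' : Measurable F') (mG' : Measurable G')
    (hF : ∫⁻ z, ‖F z‖ₑ ^ (3 : ℝ) ≠ ⊤) (hG : ∫⁻ z, ‖G z‖ₑ ^ (3 : ℝ) ≠ ⊤)
    (hF' : ∫⁻ z, ‖F' z‖ₑ ^ (3 : ℝ) ≠ ⊤) (hG' : ∫⁻ z, ‖G' z‖ₑ ^ (3 : ℝ) ≠ ⊤)
    {ε R : ℝ} (hε : 0 < ε) :
    ∀ᵐ z, ‖annularTriangularHT F G ε R z‖ₑ ≤ ‖annularTriangularHT F' G' ε R z‖ₑ +
      ENNReal.ofReal ε⁻¹ * (Iann (ann ε R) (fun w => ‖F w - F' w‖ₑ) (fun w => ‖G w‖ₑ) z +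
        Iann (ann ε R) (fun w => ‖F' w‖ₑ) (fun w => ‖G w - G' w‖ₑ) z) := by
  set A := ann ε R with hA
  have hfin : volume A ≠ ⊤ := ann_finite ε R
  have mA : MeasurableSet A := by
    have h : A = (fun t : ℝ => |t|) ⁻¹' (Ioo ε R) := by
      ext t; rfl
    rw [h]
    exact measurable_id.abs measurableSet_Ioo
  have h1 := Iann_ae_lt_top hfin (U := fun w => ‖F w‖ₑ) (V := fun w => ‖G w‖ₑ) mF.enorm mG.enorm
    hF hG
  have h2 := Iann_ae_lt_top hfin (U := fun w => ‖F' w‖ₑ) (V := fun w => ‖G' w‖ₑ) mF'.enorm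
    mG'.enorm hF' hG'
  filter_upwards [h1, h2] with z hz1 hz2
  -- integrability in `t`
  have key : ∀ {P Q : ℝ × ℝ → ℂ}, Measurable P → Measurable Q →
      Iann A (fun w => ‖P w‖ₑ) (fun w => ‖Q w‖ₑ) z < ⊤ →
      IntegrableOn (fun t : ℝ => P (z.1 + t, z.2) * Q (z.1, z.2 + t) / (t : ℂ)) A := by
    intro P Q mP mQ hPQ
    refine ⟨?_, ?_⟩
    · apply Measurable.aestronglyMeasurable
      refine ((mP.comp (by fun_prop)).mul (mQ.comp (by fun_prop))).div ?_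
      exact Complex.measurable_ofReal
    · have : ∫⁻ t in A, ‖P (z.1 + t, z.2) * Q (z.1, z.2 + t) / (t : ℂ)‖ₑ ≤
          ENNReal.ofReal ε⁻¹ * Iann A (fun w => ‖P w‖ₑ) (fun w => ‖Q w‖ₑ) z := by
        unfold Iann
        rw [← lintegral_const_mul' _ _ ENNReal.ofReal_ne_top]
        refine setLIntegral_mono' mA fun t ht => ?_
        exact enorm_mul_div_le hε ht.1
      exact this.trans_lt (ENNReal.mul_lt_top ENNReal.ofReal_lt_top hPQ)
  have iφ := key mF mG hz1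
  have iφ' := key mF' mG' hz2
  have hsub : annularTriangularHT F G ε R z - annularTriangularHT F' G' ε R z =
      ∫ t in A, (F (z.1 + t, z.2) * G (z.1, z.2 + t) / (t : ℂ) -
        F' (z.1 + t, z.2) * G' (z.1, z.2 + t) / (t : ℂ)) := by
    unfold annularTriangularHT
    exact (integral_sub iφ iφ').symm
  have hmain : ‖annularTriangularHT F G ε R z - annularTriangularHT F' G' ε R z‖ₑ ≤
      ENNReal.ofReal ε⁻¹ * (Iann A (fun w => ‖F w - F' w‖ₑ) (fun w => ‖G w‖ₑ) z +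
        Iann A (fun w => ‖F' w‖ₑ) (fun w => ‖G w - G' w‖ₑ) z) := by
    rw [hsub]
    refine (enorm_integral_le_lintegral_enorm _).trans ?_
    unfold Iann
    have hm1 : Measurable fun t : ℝ => ‖F (z.1 + t, z.2) - F' (z.1 + t, z.2)‖ₑ *
        ‖G (z.1, z.2 + t)‖ₑ := by
      refine (((mF.comp (by fun_prop)).sub (mF'.comp (by fun_prop))).enorm).mul
        ((mG.comp (by fun_prop)).enorm)
    rw [← lintegral_add_left hm1, ← lintegral_const_mul' _ _ ENNReal.ofReal_ne_top]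
    refine setLIntegral_mono' mA fun t ht => ?_
    have e : F (z.1 + t, z.2) * G (z.1, z.2 + t) / (t : ℂ) -
        F' (z.1 + t, z.2) * G' (z.1, z.2 + t) / (t : ℂ) =
        (F (z.1 + t, z.2) - F' (z.1 + t, z.2)) * G (z.1, z.2 + t) / (t : ℂ) +
          F' (z.1 + t, z.2) * (G (z.1, z.2 + t) - G' (z.1, z.2 + t)) / (t : ℂ) := by ring
    rw [e, mul_add]
    exact (enorm_add_le _ _).trans (add_le_add (enorm_mul_div_le hε ht.1)
      (enorm_mul_div_le hε ht.1))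
  have htri : ‖annularTriangularHT F G ε R z‖ₑ ≤ ‖annularTriangularHT F' G' ε R z‖ₑ +
      ‖annularTriangularHT F G ε R z - annularTriangularHT F' G' ε R z‖ₑ := by
    have := enorm_add_le (annularTriangularHT F' G' ε R z)
      (annularTriangularHT F G ε R z - annularTriangularHT F' G' ε R z)
    simpa using this
  exact htri.trans (add_le_add le_rfl hmain)

/-! ### The finite family bound for measurable functions in `L³` -/

lemma measurable_Iann_enorm {P Q : ℝ × ℝ → ℂ} (mP : Measurable P) (mQ : Measurable Q) (A : Set ℝ) :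
    Measurable (Iann A (fun w => ‖P w‖ₑ) (fun w => ‖Q w‖ₑ)) :=
  measurable_Iann mP.enorm mQ.enorm

lemma aemeasurable_fsup {ι α : Type*} [MeasurableSpace α] {μ : Measure α} (s : Finset ι)
    (f : ι → α → ℝ≥0∞) (hf : ∀ i ∈ s, AEMeasurable (f i) μ) :
    AEMeasurable (fun a => s.sup fun i => f i a) μ := by
  classical
  induction s using Finset.induction_on with
  | empty => simp
  | insert i s hi ih =>
    simp only [Finset.sup_insert]
    exact (hf i (Finset.mem_insert_self _ _)).sup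
      (ih fun j hj => hf j (Finset.mem_insert_of_mem hj))

lemma aemeasurable_Phi {n : ℕ} (A : Fam n) {F G : ℝ × ℝ → ℂ} (hF : AEStronglyMeasurable F volume)
    (hG : AEStronglyMeasurable G volume) : AEMeasurable (Phi A F G) := by
  unfold Phi
  exact Finset.aemeasurable_fun_sum _ fun j _ =>
    VarFromCount.aemeasurable_enorm_ht hF hG _ _

/-- The error constant of a finite set of families. -/
noncomputable def cT {n : ℕ} (T : Finset (Fam n)) : ℝ≥0∞ :=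
  ∑ A ∈ T, ∑ j, ENNReal.ofReal ((A.ε j : ℝ))⁻¹ * volume (ann (A.ε j : ℝ) (A.R j : ℝ))

lemma cT_ne_top {n : ℕ} (T : Finset (Fam n)) : cT T ≠ ⊤ := by
  unfold cT
  refine ENNReal.sum_ne_top.2 fun A _ => ENNReal.sum_ne_top.2 fun j _ => ?_
  exact ENNReal.mul_ne_top ENNReal.ofReal_ne_top (ann_finite _ _)

/-- One approximation step. -/
lemma approx_step {C : ℝ} (hD : DiscreteCountBoundLarge C) {n : ℕ} (hn : 1 ≤ n) {F G F' G' : ℝ × ℝ → ℂ}
    (mF : Measurable F) (mG : Measurable G)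
    (hF : ∫⁻ z, ‖F z‖ₑ ^ (3 : ℝ) ≠ ⊤) (hG : ∫⁻ z, ‖G z‖ₑ ^ (3 : ℝ) ≠ ⊤)
    (cF' : Continuous F') (cG' : Continuous G') (sF' : HasCompactSupport F')
    (sG' : HasCompactSupport G')
    (hF' : ∫⁻ z, ‖F' z‖ₑ ^ (3 : ℝ) ≠ ⊤) (hG' : ∫⁻ z, ‖G' z‖ₑ ^ (3 : ℝ) ≠ ⊤)
    (T : Finset (Fam n)) :
    N32 (fun z => T.sup fun A => Phi A F G z) ≤
      ENNReal.ofReal (C * Real.sqrt n * Real.log (2 + n)) * eLpNorm F' 3 volume * eLpNorm G' 3 volume +
        cT T * (eLpNorm (fun w => F w - F' w) 3 volume * eLpNorm G 3 volume +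
          eLpNorm F' 3 volume * eLpNorm (fun w => G w - G' w) 3 volume) := by
  classical
  have mF' := cF'.measurable
  have mG' := cG'.measurable
  set E1 : Fam n → ℝ × ℝ → ℝ≥0∞ := fun A z => ∑ j,
    ENNReal.ofReal ((A.ε j : ℝ))⁻¹ * (Iann (ann (A.ε j : ℝ) (A.R j : ℝ))
      (fun w => ‖F w - F' w‖ₑ) (fun w => ‖G w‖ₑ) z +
        Iann (ann (A.ε j : ℝ) (A.R j : ℝ)) (fun w => ‖F' w‖ₑ) (fun w => ‖G w - G' w‖ₑ) z) with hE1
  -- the pointwise a.e. comparison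
  have hptw : ∀ᵐ z, (T.sup fun A => Phi A F G z) ≤
      (T.sup fun A => Phi A F' G' z) + ∑ A ∈ T, E1 A z := by
    have hall : ∀ᵐ z, ∀ A ∈ T, ∀ j : Fin A.m,
        ‖annularTriangularHT F G (A.ε j : ℝ) (A.R j : ℝ) z‖ₑ ≤
          ‖annularTriangularHT F' G' (A.ε j : ℝ) (A.R j : ℝ) z‖ₑ +
          ENNReal.ofReal ((A.ε j : ℝ))⁻¹ * (Iann (ann (A.ε j : ℝ) (A.R j : ℝ))
            (fun w => ‖F w - F' w‖ₑ) (fun w => ‖G w‖ₑ) z +
          Iann (ann (A.ε j : ℝ) (A.R j : ℝ)) (fun w => ‖F' w‖ₑ) (fun w => ‖G w - G' w‖ₑ) z) := by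
      refine (Filter.eventually_all_finset T).2 fun A _ => ?_
      rw [ae_all_iff]
      intro j
      exact HT_diff_ae mF mG mF' mG' hF hG hF' hG' (by exact_mod_cast (A.h1 j).1)
    filter_upwards [hall] with z hz
    refine Finset.sup_le fun A hA => ?_
    calc Phi A F G z ≤ ∑ j : Fin A.m, (‖annularTriangularHT F' G' (A.ε j : ℝ) (A.R j : ℝ) z‖ₑ +
          ENNReal.ofReal ((A.ε j : ℝ))⁻¹ * (Iann (ann (A.ε j : ℝ) (A.R j : ℝ))
            (fun w => ‖F w - F' w‖ₑ) (fun w => ‖G w‖ₑ) z +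
          Iann (ann (A.ε j : ℝ) (A.R j : ℝ)) (fun w => ‖F' w‖ₑ) (fun w => ‖G w - G' w‖ₑ) z)) :=
          Finset.sum_le_sum fun j _ => hz A hA j
      _ = Phi A F' G' z + E1 A z := by
          rw [Finset.sum_add_distrib]; rfl
      _ ≤ _ := add_le_add (Finset.le_sup (f := fun A => Phi A F' G' z) hA)
          (Finset.single_le_sum (f := fun A => E1 A z) (fun _ _ => zero_le) hA)
  -- the main term
  have hmain : N32 (fun z => T.sup fun A => Phi A F' G' z) ≤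
      ENNReal.ofReal (C * Real.sqrt n * Real.log (2 + n)) * eLpNorm F' 3 volume *
        eLpNorm G' 3 volume := by
    have h := ENNReal.rpow_le_rpow (fatou_cont hD hn cF' cG' sF' sG' T)
      (by norm_num : (0 : ℝ) ≤ 2 / 3)
    unfold N32
    refine h.trans (le_of_eq ?_)
    rw [eLp3 F', eLp3 G', ENNReal.mul_rpow_of_nonneg _ _ (by norm_num),
      ENNReal.mul_rpow_of_nonneg _ _ (by norm_num), rpow_half_two_thirds, rpow_half_two_thirds,
      ← ENNReal.rpow_mul]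
    norm_num
    ring
  -- measurability
  have mE1 : ∀ A, Measurable (E1 A) := by
    intro A
    refine Finset.measurable_sum _ fun j _ => ?_
    refine Measurable.const_mul ?_ _
    exact (measurable_Iann_enorm (mF.sub mF') mG _).add (measurable_Iann_enorm mF' (mG.sub mG') _)
  have mS' : AEMeasurable (fun z => T.sup fun A => Phi A F' G' z) :=
    aemeasurable_fsup _ _ fun A _ => aemeasurable_Phi A cF'.aestronglyMeasurable
      cG'.aestronglyMeasurable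
  have mE : AEMeasurable (fun z => ∑ A ∈ T, E1 A z) :=
    (Finset.measurable_sum _ fun A _ => mE1 A).aemeasurable
  -- the error term
  have hI1 : ∀ (ε R : ℝ), N32 (Iann (ann ε R) (fun w => ‖F w - F' w‖ₑ) (fun w => ‖G w‖ₑ)) ≤
      volume (ann ε R) * (eLpNorm (fun w => F w - F' w) 3 volume * eLpNorm G 3 volume) := by
    intro ε R
    rw [eLp3 (fun w => F w - F' w), eLp3 G]
    exact I_bound' (ann_finite ε R) (mF.sub mF').enorm mG.enorm
  have hI2 : ∀ (ε R : ℝ), N32 (Iann (ann ε R) (fun w => ‖F' w‖ₑ) (fun w => ‖G w - G' w‖ₑ)) ≤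
      volume (ann ε R) * (eLpNorm F' 3 volume * eLpNorm (fun w => G w - G' w) 3 volume) := by
    intro ε R
    rw [eLp3 F', eLp3 (fun w => G w - G' w)]
    exact I_bound' (ann_finite ε R) mF'.enorm (mG.sub mG').enorm
  set Xs : ℝ≥0∞ := eLpNorm (fun w => F w - F' w) 3 volume * eLpNorm G 3 volume +
    eLpNorm F' 3 volume * eLpNorm (fun w => G w - G' w) 3 volume with hXs
  have hE1b : ∀ A, N32 (E1 A) ≤ ∑ j, ENNReal.ofReal ((A.ε j : ℝ))⁻¹ *
      volume (ann (A.ε j : ℝ) (A.R j : ℝ)) * Xs := by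
    intro A
    refine (N32_finset _ _ fun j _ => ?_).trans (Finset.sum_le_sum fun j _ => ?_)
    · exact ((measurable_Iann_enorm (mF.sub mF') mG _).add
        (measurable_Iann_enorm mF' (mG.sub mG') _)).const_mul _ |>.aemeasurable
    · rw [N32_const_mul _ ENNReal.ofReal_ne_top, mul_assoc]
      refine mul_le_mul_right ?_ _
      refine (N32_add (measurable_Iann_enorm (mF.sub mF') mG _).aemeasurable
        (measurable_Iann_enorm mF' (mG.sub mG') _).aemeasurable).trans ?_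
      rw [hXs, mul_add]
      exact add_le_add (hI1 _ _) (hI2 _ _)
  have hE : N32 (fun z => ∑ A ∈ T, E1 A z) ≤ cT T * Xs := by
    refine (N32_finset _ _ fun A _ => (mE1 A).aemeasurable).trans ?_
    unfold cT
    rw [Finset.sum_mul]
    refine Finset.sum_le_sum fun A _ => (hE1b A).trans (le_of_eq ?_)
    rw [Finset.sum_mul]
  calc N32 (fun z => T.sup fun A => Phi A F G z)
      ≤ N32 (fun z => (T.sup fun A => Phi A F' G' z) + ∑ A ∈ T, E1 A z) := N32_mono hptw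
    _ ≤ N32 (fun z => T.sup fun A => Phi A F' G' z) + N32 (fun z => ∑ A ∈ T, E1 A z) :=
        N32_add mS' mE
    _ ≤ _ := add_le_add hmain hE

/-! ### Passing to the limit in the approximation -/

lemma memLp_three_iff_lintegral {f : ℝ × ℝ → ℂ} (hf : MemLp f 3 volume) :
    ∫⁻ z, ‖f z‖ₑ ^ (3 : ℝ) ≠ ⊤ := by
  intro h
  have := hf.2
  rw [eLp3, h, ENNReal.top_rpow_of_pos (by norm_num)] at this
  exact lt_irrefl _ this

lemma finite_bound_measurable {C : ℝ} (hD : DiscreteCountBoundLarge C) {n : ℕ} (hn : 1 ≤ n)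
    {F G : ℝ × ℝ → ℂ} (mF : Measurable F) (mG : Measurable G) (hF : MemLp F 3 volume)
    (hG : MemLp G 3 volume) (T : Finset (Fam n)) :
    N32 (fun z => T.sup fun A => Phi A F G z) ≤
      ENNReal.ofReal (C * Real.sqrt n * Real.log (2 + n)) * eLpNorm F 3 volume *
        eLpNorm G 3 volume := by
  set K : ℝ≥0∞ := ENNReal.ofReal (C * Real.sqrt n * Real.log (2 + n)) with hK
  have hKtop : K ≠ ⊤ := ENNReal.ofReal_ne_top
  set a : ℝ := (eLpNorm F 3 volume).toReal with ha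
  set b : ℝ := (eLpNorm G 3 volume).toReal with hb
  have hafin : eLpNorm F 3 volume ≠ ⊤ := hF.2.ne
  have hbfin : eLpNorm G 3 volume ≠ ⊤ := hG.2.ne
  have ha0 : 0 ≤ a := ENNReal.toReal_nonneg
  have hb0 : 0 ≤ b := ENNReal.toReal_nonneg
  have eF : eLpNorm F 3 volume = ENNReal.ofReal a := (ENNReal.ofReal_toReal hafin).symm
  have eG : eLpNorm G 3 volume = ENNReal.ofReal b := (ENNReal.ofReal_toReal hbfin).symm
  set K' : ℝ := K.toReal with hK'
  have eK : K = ENNReal.ofReal K' := (ENNReal.ofReal_toReal hKtop).symm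
  have hK'0 : 0 ≤ K' := ENNReal.toReal_nonneg
  set c' : ℝ := (cT T).toReal with hc'
  have ec : cT T = ENNReal.ofReal c' := (ENNReal.ofReal_toReal (cT_ne_top T)).symm
  have hc'0 : 0 ≤ c' := ENNReal.toReal_nonneg
  set g : ℝ → ℝ := fun η => K' * (a + η) * (b + η) + c' * (η * b + (a + η) * η) with hg
  have hstep : ∀ η : ℝ, 0 < η → N32 (fun z => T.sup fun A => Phi A F G z) ≤ ENNReal.ofReal (g η) := by
    intro η hη
    have hηe : ENNReal.ofReal η ≠ 0 := by simpa using hη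
    obtain ⟨F', sF', hF'1, cF', mF'⟩ := hF.exists_hasCompactSupport_eLpNorm_sub_le
      (by norm_num) hηe
    obtain ⟨G', sG', hG'1, cG', mG'⟩ := hG.exists_hasCompactSupport_eLpNorm_sub_le
      (by norm_num) hηe
    have hF'1' : eLpNorm (fun w => F w - F' w) 3 volume ≤ ENNReal.ofReal η := hF'1
    have hG'1' : eLpNorm (fun w => G w - G' w) 3 volume ≤ ENNReal.ofReal η := hG'1
    have hF'n : eLpNorm F' 3 volume ≤ ENNReal.ofReal (a + η) := by
      have h2 : eLpNorm F' 3 volume ≤ eLpNorm F 3 volume + eLpNorm (fun w => F w - F' w) 3 volume := by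
        calc eLpNorm F' 3 volume = eLpNorm (F - (fun w => F w - F' w)) 3 volume := by
              congr 1; ext w; simp
          _ ≤ _ := eLpNorm_sub_le hF.1 (hF.sub mF').1 (by norm_num)
      refine h2.trans ?_
      rw [ENNReal.ofReal_add ha0 hη.le, ← eF]
      gcongr
    have hG'n : eLpNorm G' 3 volume ≤ ENNReal.ofReal (b + η) := by
      have h2 : eLpNorm G' 3 volume ≤ eLpNorm G 3 volume + eLpNorm (fun w => G w - G' w) 3 volume := by
        calc eLpNorm G' 3 volume = eLpNorm (G - (fun w => G w - G' w)) 3 volume := by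
              congr 1; ext w; simp
          _ ≤ _ := eLpNorm_sub_le hG.1 (hG.sub mG').1 (by norm_num)
      refine h2.trans ?_
      rw [ENNReal.ofReal_add hb0 hη.le, ← eG]
      gcongr
    have hstep := approx_step hD hn mF mG (memLp_three_iff_lintegral hF)
      (memLp_three_iff_lintegral hG) cF' cG' sF' sG' (memLp_three_iff_lintegral mF')
      (memLp_three_iff_lintegral mG') T
    refine hstep.trans ?_
    have hgexp : ENNReal.ofReal (g η) = ENNReal.ofReal K' * ENNReal.ofReal (a + η) * ENNReal.ofReal (b + η) +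
        ENNReal.ofReal c' * (ENNReal.ofReal η * ENNReal.ofReal b +
          ENNReal.ofReal (a + η) * ENNReal.ofReal η) := by
      have haη : 0 ≤ a + η := by linarith
      have hbη : 0 ≤ b + η := by linarith
      have A1 : ENNReal.ofReal (K' * (a + η) * (b + η)) =
          ENNReal.ofReal K' * ENNReal.ofReal (a + η) * ENNReal.ofReal (b + η) := by
        rw [ENNReal.ofReal_mul (by positivity), ENNReal.ofReal_mul hK'0]
      have A2 : ENNReal.ofReal (c' * (η * b + (a + η) * η)) =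
          ENNReal.ofReal c' * (ENNReal.ofReal η * ENNReal.ofReal b +
            ENNReal.ofReal (a + η) * ENNReal.ofReal η) := by
        rw [ENNReal.ofReal_mul hc'0, ENNReal.ofReal_add (by positivity) (by positivity),
          ENNReal.ofReal_mul hη.le, ENNReal.ofReal_mul haη]
      simp only [hg]
      rw [ENNReal.ofReal_add (by positivity) (by positivity), A1, A2]
    rw [hgexp, ← eK, ← ec, ← eG]
    gcongr
  -- the limit
  have hcont : Continuous g := by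
    simp only [hg]
    fun_prop
  have htend : Tendsto (fun η => ENNReal.ofReal (g η)) (𝓝[>] (0 : ℝ)) (𝓝 (ENNReal.ofReal (g 0))) :=
    (ENNReal.continuous_ofReal.comp hcont).continuousAt.tendsto.mono_left nhdsWithin_le_nhds
  have hlim := ge_of_tendsto htend (by
    filter_upwards [self_mem_nhdsWithin] with η hη
    exact hstep η hη)
  have hg0 : ENNReal.ofReal (g 0) = K * eLpNorm F 3 volume * eLpNorm G 3 volume := by
    simp only [hg]
    have : K' * (a + 0) * (b + 0) + c' * (0 * b + (a + 0) * 0) = K' * a * b := by ring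
    rw [this, ENNReal.ofReal_mul (by positivity), ENNReal.ofReal_mul hK'0, ← eK, ← eF, ← eG]
  rw [hg0] at hlim
  exact hlim

/-! ### From finite families to the whole count -/

lemma count_bound_measurable {C : ℝ} (hD : DiscreteCountBoundLarge C) {n : ℕ} (hn : 1 ≤ n)
    {F G : ℝ × ℝ → ℂ} (mF : Measurable F) (mG : Measurable G) (hF : MemLp F 3 volume)
    (hG : MemLp G 3 volume) :
    (∫⁻ z, annulusCount n F G z ^ (3 / 2 : ℝ)) ^ (2 / 3 : ℝ) ≤
      ENNReal.ofReal (C * Real.sqrt n * Real.log (2 + n)) * eLpNorm F 3 volume *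
        eLpNorm G 3 volume := by
  classical
  set X : ℝ≥0∞ := ENNReal.ofReal (C * Real.sqrt n * Real.log (2 + n)) * eLpNorm F 3 volume *
        eLpNorm G 3 volume with hX
  set f : Finset (Fam n) → ℝ × ℝ → ℝ≥0∞ :=
    fun T z => (T.sup fun A => Phi A F G z) ^ (3 / 2 : ℝ) with hf
  have hfm : ∀ T, AEMeasurable (f T) := fun T =>
    (aemeasurable_fsup _ _ fun A _ => aemeasurable_Phi A hF.1 hG.1).pow_const _
  have hdir : Directed (· ≤ ·) f := by
    refine Monotone.directed_le ?_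
    intro T T' hTT' z
    exact ENNReal.rpow_le_rpow (Finset.sup_mono hTT') (by norm_num)
  have hpt : ∀ z, annulusCount n F G z ^ (3 / 2 : ℝ) ≤ ⨆ T, f T z := by
    intro z
    refine (ENNReal.rpow_le_rpow (annulusCount_le n F G z) (by norm_num)).trans ?_
    have h1 : (⨆ A : Fam n, Phi A F G z) ≤ (⨆ T, f T z) ^ (2 / 3 : ℝ) := by
      refine iSup_le fun A => ?_
      have h2 : (Phi A F G z) ^ (3 / 2 : ℝ) ≤ ⨆ T, f T z := by
        refine le_iSup_of_le {A} ?_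
        simp [hf]
      have h3 := ENNReal.rpow_le_rpow h2 (by norm_num : (0 : ℝ) ≤ 2 / 3)
      rw [← ENNReal.rpow_mul] at h3
      norm_num at h3
      exact h3
    have h4 := ENNReal.rpow_le_rpow h1 (by norm_num : (0 : ℝ) ≤ 3 / 2)
    rw [← ENNReal.rpow_mul] at h4
    norm_num at h4
    exact h4
  have hT : ∀ T, ∫⁻ z, f T z ≤ X ^ (3 / 2 : ℝ) := by
    intro T
    have := finite_bound_measurable hD hn mF mG hF hG T
    exact rpow_two_thirds_le this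
  have hint : ∫⁻ z, annulusCount n F G z ^ (3 / 2 : ℝ) ≤ X ^ (3 / 2 : ℝ) := by
    calc ∫⁻ z, annulusCount n F G z ^ (3 / 2 : ℝ) ≤ ∫⁻ z, ⨆ T, f T z := lintegral_mono hpt
      _ = ⨆ T, ∫⁻ z, f T z := lintegral_iSup_directed hfm hdir
      _ ≤ _ := iSup_le hT
  have := ENNReal.rpow_le_rpow hint (by norm_num : (0 : ℝ) ≤ 2 / 3)
  rw [← ENNReal.rpow_mul (X)] at this
  norm_num at this
  exact this

/-! ### Arbitrary representatives -/

lemma HT_congr_ae {F G F₁ G₁ : ℝ × ℝ → ℂ} (hF : F =ᵐ[volume] F₁) (hG : G =ᵐ[volume] G₁) (ε R : ℝ) :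
    annularTriangularHT F G ε R =ᵐ[volume] annularTriangularHT F₁ G₁ ε R := by
  have h1 : ∀ᵐ p ∂((volume : Measure (ℝ × ℝ)).prod (volume : Measure ℝ)),
      F (p.1 + ((p.2, 0) : ℝ × ℝ)) = F₁ (p.1 + ((p.2, 0) : ℝ × ℝ)) :=
    (VarFromCount.qmp_shift (fun t => (t, 0)) (by fun_prop)).ae_eq_comp hF
  have h2 : ∀ᵐ p ∂((volume : Measure (ℝ × ℝ)).prod (volume : Measure ℝ)),
      G (p.1 + ((0, p.2) : ℝ × ℝ)) = G₁ (p.1 + ((0, p.2) : ℝ × ℝ)) :=
    (VarFromCount.qmp_shift (fun t => (0, t)) (by fun_prop)).ae_eq_comp hG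
  have h3 := Measure.ae_ae_of_ae_prod (h1.and h2)
  filter_upwards [h3] with z hz
  unfold annularTriangularHT
  refine integral_congr_ae (ae_restrict_of_ae ?_)
  filter_upwards [hz] with t ht
  have e1 : z + ((t, 0) : ℝ × ℝ) = (z.1 + t, z.2) := by ext <;> simp
  have e2 : z + ((0, t) : ℝ × ℝ) = (z.1, z.2 + t) := by ext <;> simp
  simp only [e1, e2] at ht
  rw [ht.1, ht.2]

lemma annulusCount_congr_ae {F G F₁ G₁ : ℝ × ℝ → ℂ} (hF : F =ᵐ[volume] F₁) (hG : G =ᵐ[volume] G₁)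
    (n : ℕ) : annulusCount n F G =ᵐ[volume] annulusCount n F₁ G₁ := by
  have hall : ∀ᵐ z, ∀ q : ℚ × ℚ, annularTriangularHT F G (q.1 : ℝ) (q.2 : ℝ) z =
      annularTriangularHT F₁ G₁ (q.1 : ℝ) (q.2 : ℝ) z :=
    ae_all_iff.2 fun q => HT_congr_ae hF hG _ _
  filter_upwards [hall] with z hz
  unfold annulusCount
  simp only [fun q₁ q₂ : ℚ => hz (q₁, q₂)]

/-- **S0096 from the discrete theorem, for large radii of bounded ratio.** -/
theorem result_of_discreteLarge {C : ℝ} (hD : DiscreteCountBoundLarge C) :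
    ∃ C : ℝ, ∀ n : ℕ, 1 ≤ n → ∀ F G : ℝ × ℝ → ℂ,
      MeasureTheory.MemLp F 3 MeasureTheory.volume → MeasureTheory.MemLp G 3 MeasureTheory.volume →
        (∫⁻ z, Crest.AnalysisR.annulusCount n F G z ^ (3 / 2 : ℝ)) ^ (2 / 3 : ℝ) ≤
          ENNReal.ofReal (C * Real.sqrt n * Real.log (2 + n)) *
            MeasureTheory.eLpNorm F 3 MeasureTheory.volume *
            MeasureTheory.eLpNorm G 3 MeasureTheory.volume := by
  refine ⟨C, fun n hn F G hF hG => ?_⟩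
  have mF := hF.1.stronglyMeasurable_mk.measurable
  have mG := hG.1.stronglyMeasurable_mk.measurable
  have eF := hF.1.ae_eq_mk
  have eG := hG.1.ae_eq_mk
  have hF' : MemLp (hF.1.mk F) 3 volume := (memLp_congr_ae eF).1 hF
  have hG' : MemLp (hG.1.mk G) 3 volume := (memLp_congr_ae eG).1 hG
  have key := count_bound_measurable hD hn mF mG hF' hG'
  rw [eLpNorm_congr_ae eF, eLpNorm_congr_ae eG]
  refine le_trans (le_of_eq ?_) key
  congr 1
  refine lintegral_congr_ae ?_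
  filter_upwards [annulusCount_congr_ae eF eG n] with z hz
  rw [hz]

/-- **S0096 from the discrete theorem.** -/
theorem result_of_discrete {C : ℝ} (hD : DiscreteCountBound C) :
    ∃ C : ℝ, ∀ n : ℕ, 1 ≤ n → ∀ F G : ℝ × ℝ → ℂ,
      MeasureTheory.MemLp F 3 MeasureTheory.volume → MeasureTheory.MemLp G 3 MeasureTheory.volume →
        (∫⁻ z, Crest.AnalysisR.annulusCount n F G z ^ (3 / 2 : ℝ)) ^ (2 / 3 : ℝ) ≤
          ENNReal.ofReal (C * Real.sqrt n * Real.log (2 + n)) *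
            MeasureTheory.eLpNorm F 3 MeasureTheory.volume *
            MeasureTheory.eLpNorm G 3 MeasureTheory.volume :=
  result_of_discreteLarge hD.large

end Crest.Agent.TriH.CountFromDiscrete
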