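import Crest.Agent.TriH.SVD

/-!
# The energy gap of a pair of block operators: off-diagonal test in `gap_main`

`F = [Aᴴ, B] : H_m ⊕ H_l → H_n`, `T = FᴴF`, `W = FᴴDF`.
`avg_± E32(T ± W) ≥ E32 T + (3/4) pairS A B D`.
-/

set_option linter.unusedSectionVars false
set_option linter.unreachableTactic false
set_option linter.unusedTactic false

namespace Crest.Agent.TriH

open Matrix
open scoped ComplexOrder

variable {𝕜 : Type*} [RCLike 𝕜] {m n l : Type*} [Fintype m] [Fintype n] [Fintype l]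
  [DecidableEq m] [DecidableEq n] [DecidableEq l]

/-- The column operator. -/
noncomputable abbrev colOp (A : Matrix m n 𝕜) (B : Matrix n l 𝕜) : Matrix n (m ⊕ l) 𝕜 :=
  fromCols Aᴴ B

omit [Fintype m] [Fintype n] [Fintype l] [DecidableEq m] [DecidableEq n] [DecidableEq l] in
lemma colOp_conj (A : Matrix m n 𝕜) (B : Matrix n l 𝕜) : (colOp A B)ᴴ = fromRows A Bᴴ := by
  rw [colOp, conjTranspose_fromCols_eq_fromRows_conjTranspose, conjTranspose_conjTranspose]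

omit [DecidableEq m] [DecidableEq n] [DecidableEq l] in
lemma colOp_sandwich (A : Matrix m n 𝕜) (B : Matrix n l 𝕜) (X : Matrix n n 𝕜) :
    (colOp A B)ᴴ * (X * colOp A B) =
      fromBlocks (A * X * Aᴴ) (A * X * B) (Bᴴ * X * Aᴴ) (Bᴴ * X * B) := by
  rw [colOp_conj, colOp, mul_fromCols, fromRows_mul_fromCols]
  simp only [Matrix.mul_assoc]

omit [DecidableEq m] [DecidableEq n] [DecidableEq l] in
lemma colOp_conj_mul (A : Matrix m n 𝕜) (B : Matrix n l 𝕜) :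
    (colOp A B)ᴴ * colOp A B = fromBlocks (A * Aᴴ) (A * B) (Bᴴ * Aᴴ) (Bᴴ * B) := by
  rw [colOp_conj, colOp, fromRows_mul_fromCols]

omit [DecidableEq m] [DecidableEq n] [DecidableEq l] in
lemma colOp_mul_conj (A : Matrix m n 𝕜) (B : Matrix n l 𝕜) :
    colOp A B * (colOp A B)ᴴ = Aᴴ * A + B * Bᴴ := by
  rw [colOp_conj, colOp, fromCols_mul_fromRows]

omit [DecidableEq m] [DecidableEq l] [DecidableEq n] in
lemma posSemidef_fromBlocks_diag {L : Matrix m m 𝕜} {R : Matrix l l 𝕜}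
    (hL : L.PosSemidef) (hR : R.PosSemidef) :
    (fromBlocks L 0 0 R : Matrix (m ⊕ l) (m ⊕ l) 𝕜).PosSemidef := by
  apply PosSemidef.of_dotProduct_mulVec_nonneg
  · exact IsHermitian.fromBlocks hL.1 (by simp) hR.1
  · intro x
    have h1 := hL.dotProduct_mulVec_nonneg (x ∘ Sum.inl)
    have h2 := hR.dotProduct_mulVec_nonneg (x ∘ Sum.inr)
    have : star x ⬝ᵥ (fromBlocks L 0 0 R *ᵥ x) =
        star (x ∘ Sum.inl) ⬝ᵥ (L *ᵥ (x ∘ Sum.inl)) + star (x ∘ Sum.inr) ⬝ᵥ (R *ᵥ (x ∘ Sum.inr)) := by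
      simp only [dotProduct, Fintype.sum_sum_type]
      congr 1
      · apply Finset.sum_congr rfl
        intro i _
        simp [mulVec, dotProduct, Fintype.sum_sum_type]
      · apply Finset.sum_congr rfl
        intro i _
        simp [mulVec, dotProduct, Fintype.sum_sum_type]
    rw [this]
    exact add_nonneg h1 h2

lemma rtr_diag_mul_self (d : n → ℝ) (Y : Matrix n l 𝕜) :
    rtr (diagonal (fun k => ((d k : ℝ) : 𝕜)) * Y * Yᴴ) = ∑ k, ∑ i, d k * ‖Y k i‖ ^ 2 := by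
  simp only [rtr, trace, diag_apply, map_sum]
  apply Finset.sum_congr rfl
  intro k _
  rw [mul_apply, map_sum]
  apply Finset.sum_congr rfl
  intro i _
  rw [diagonal_mul, conjTranspose_apply, RCLike.star_def, mul_assoc, RCLike.mul_conj, ← RCLike.ofReal_pow,
    ← RCLike.ofReal_mul, RCLike.ofReal_re]

lemma rtr_diag_conj (d : l → ℝ) (Y : Matrix n l 𝕜) :
    rtr (diagonal (fun i => ((d i : ℝ) : 𝕜)) * Yᴴ * Y) = ∑ i, ∑ k, d i * ‖Y k i‖ ^ 2 := by
  have := rtr_diag_mul_self d Yᴴ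
  rw [conjTranspose_conjTranspose] at this
  rw [this]
  apply Finset.sum_congr rfl
  intro i _
  apply Finset.sum_congr rfl
  intro k _
  rw [conjTranspose_apply, norm_star]

omit [DecidableEq m] [DecidableEq n] [DecidableEq l] in
lemma trace_fromBlocks' (a : Matrix m m 𝕜) (b : Matrix m l 𝕜) (c : Matrix l m 𝕜) (d : Matrix l l 𝕜) :
    trace (fromBlocks a b c d) = trace a + trace d := by
  simp [trace, Fintype.sum_sum_type]

section test

variable (A : Matrix m n 𝕜) (B : Matrix n l 𝕜) (D : Matrix n n 𝕜)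

/-- the real multiplier of the test matrix -/
noncomputable def tauT (k : n) (i : l) : ℝ :=
  (svd A).s k * (svd B).s i / ((svd A).s k + (svd B).s i) / 2

/-- the overlap matrix -/
noncomputable def Zt : Matrix n l 𝕜 := (svd A).Vᴴ * D * (svd B).U

/-- test matrix in singular coordinates -/
noncomputable def Yt : Matrix n l 𝕜 :=
  Matrix.of fun k i => ((tauT A B k i : ℝ) : 𝕜) * Zt A B D k i

/-- test matrix -/
noncomputable def Y1 : Matrix m l 𝕜 := (svd A).U * Yt A B D * (svd B).Vᴴ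

lemma pairS_eq : pairS A B D = ∑ k, ∑ i, phi ((svd A).s k) ((svd B).s i) * ‖Zt A B D k i‖ ^ 2 := rfl

lemma tau_mul (k : n) (i : l) :
    (svd A).s k * (svd B).s i * tauT A B k i = phi ((svd A).s k) ((svd B).s i) / 2 := by
  simp only [tauT, phi]
  ring

lemma tau_sq (k : n) (i : l) :
    ((svd A).s k + (svd B).s i) * (tauT A B k i) ^ 2 = phi ((svd A).s k) ((svd B).s i) / 4 := by
  simp only [tauT, phi]
  by_cases h : (svd A).s k + (svd B).s i = 0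
  · have h1 := (svd A).s_nonneg k
    have h2 := (svd B).s_nonneg i
    have h3 : (svd A).s k = 0 := by linarith
    have h4 : (svd B).s i = 0 := by linarith
    simp [h3, h4]
  · field_simp
    ring

lemma Y1_conj : (Y1 A B D)ᴴ = (svd B).V * (Yt A B D)ᴴ * (svd A).Uᴴ := by
  rw [Y1, conjTranspose_mul, conjTranspose_mul, conjTranspose_conjTranspose]
  simp only [Matrix.mul_assoc]

/-- `K Y1ᴴ` in singular coordinates. -/
lemma rtr_K_Y1 : rtr (A * D * B * (Y1 A B D)ᴴ) = pairS A B D / 2 := by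
  set Wa := svd A with hWa
  set Wb := svd B with hWb
  have hA := Wa.A_eq
  have hB := Wb.A_eq
  have e1 : A * D * B * (Y1 A B D)ᴴ =
      Wa.U * (Wa.sig * Zt A B D * Wb.sig * (Yt A B D)ᴴ) * Wa.Uᴴ := by
    rw [Y1_conj]
    calc A * D * B * (Wb.V * (Yt A B D)ᴴ * Wa.Uᴴ)
        = (Wa.U * Wa.sig * Wa.Vᴴ) * D * (Wb.U * Wb.sig * Wb.Vᴴ) *
            (Wb.V * (Yt A B D)ᴴ * Wa.Uᴴ) := by rw [← hA, ← hB]
      _ = Wa.U * (Wa.sig * Zt A B D * Wb.sig * (Wb.Vᴴ * Wb.V) * (Yt A B D)ᴴ) * Wa.Uᴴ := by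
          simp only [Zt, ← hWa, ← hWb, Matrix.mul_assoc]
      _ = _ := by rw [Wb.VV, Matrix.mul_one]
  rw [e1, rtr_rect, rtr_comm]
  have e2 : Wa.Uᴴ * Wa.U * (Wa.sig * Zt A B D * Wb.sig * (Yt A B D)ᴴ) =
      Wa.sig * Zt A B D * Wb.sig * (Yt A B D)ᴴ := by
    rw [← Matrix.mul_assoc, ← Matrix.mul_assoc, ← Matrix.mul_assoc, Wa.UU_sig]
  rw [e2, pairS_eq, Finset.sum_div]
  simp only [rtr, trace, diag_apply, map_sum]
  apply Finset.sum_congr rfl
  intro k _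
  rw [mul_apply, map_sum, Finset.sum_div]
  apply Finset.sum_congr rfl
  intro i _
  simp only [WSVD.sig, mul_diagonal, diagonal_mul, conjTranspose_apply, Yt, of_apply, star_mul',
    RCLike.star_def, RCLike.conj_ofReal]
  have ht : Wa.s k * Wb.s i * tauT A B k i = phi (Wa.s k) (Wb.s i) / 2 := tau_mul A B k i
  change RCLike.re _ = phi (Wa.s k) (Wb.s i) * ‖Zt A B D k i‖ ^ 2 / 2
  have e3 : ((Wa.s k : ℝ) : 𝕜) * Zt A B D k i * ((Wb.s i : ℝ) : 𝕜) *
      (((tauT A B k i : ℝ) : 𝕜) * (starRingEnd 𝕜) (Zt A B D k i)) =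
      (((Wa.s k * Wb.s i * tauT A B k i) * ‖Zt A B D k i‖ ^ 2 : ℝ) : 𝕜) := by
    push_cast
    rw [← RCLike.mul_conj]
    ring
  rw [e3, RCLike.ofReal_re, ht]
  ring

/-- the real part of `Kᴴ Y1` -/
lemma rtr_Kh_Y1 (hD : D.IsHermitian) : rtr (Bᴴ * D * Aᴴ * Y1 A B D) = pairS A B D / 2 := by
  rw [← rtr_K_Y1 A B D]
  have e : Bᴴ * D * Aᴴ = (A * D * B)ᴴ := by
    rw [conjTranspose_mul, conjTranspose_mul, hD.eq]
    simp only [Matrix.mul_assoc]
  rw [e]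
  have e2 : trace ((A * D * B)ᴴ * Y1 A B D) = star (trace (A * D * B * (Y1 A B D)ᴴ)) := by
    rw [← trace_conjTranspose, conjTranspose_mul (A * D * B) (Y1 A B D)ᴴ,
      conjTranspose_conjTranspose, trace_mul_comm]
  simp only [rtr]
  rw [e2, RCLike.star_def, RCLike.conj_re]

/-- `Tr(L Y Yᴴ) + Tr(R Yᴴ Y) = (1/4) S`. -/
lemma rtr_LR : rtr ((svd A).rootL * Y1 A B D * (Y1 A B D)ᴴ) +
    rtr ((svd B).rootR * (Y1 A B D)ᴴ * Y1 A B D) = pairS A B D / 4 := by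
  set Wa := svd A with hWa
  set Wb := svd B with hWb
  set Y := Yt A B D with hY
  -- `E Y = Y`
  have hEY : (Wa.Uᴴ * Wa.U) * Y = Y := by
    rw [Wa.UU]
    ext k i
    rw [diagonal_mul]
    by_cases h : Wa.s k = 0
    · have : Y k i = 0 := by
        simp [hY, Yt, tauT, ← hWa, h]
      simp [h, this]
    · simp [h]
  have e1 : Wa.rootL * Y1 A B D * (Y1 A B D)ᴴ = Wa.U * (Wa.sig * Y * Yᴴ) * Wa.Uᴴ := by
    rw [Y1_conj, WSVD.rootL, Y1]
    calc Wa.U * Wa.sig * Wa.Uᴴ * (Wa.U * Y * Wb.Vᴴ) * (Wb.V * Yᴴ * Wa.Uᴴ)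
        = Wa.U * (Wa.sig * ((Wa.Uᴴ * Wa.U) * Y) * (Wb.Vᴴ * Wb.V) * Yᴴ) * Wa.Uᴴ := by
          simp only [Matrix.mul_assoc]
      _ = _ := by rw [hEY, Wb.VV, Matrix.mul_one]
  have e2 : Wb.rootR * (Y1 A B D)ᴴ * Y1 A B D = Wb.V * (Wb.sig * Yᴴ * Y) * Wb.Vᴴ := by
    rw [Y1_conj, WSVD.rootR, Y1]
    calc Wb.V * Wb.sig * Wb.Vᴴ * (Wb.V * Yᴴ * Wa.Uᴴ) * (Wa.U * Y * Wb.Vᴴ)
        = Wb.V * (Wb.sig * (Wb.Vᴴ * Wb.V) * Yᴴ * ((Wa.Uᴴ * Wa.U) * Y)) * Wb.Vᴴ := by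
          simp only [Matrix.mul_assoc]
      _ = _ := by rw [hEY, Wb.VV, Matrix.mul_one]
  rw [e1, e2, rtr_rect, rtr_rect, Wb.VV, Matrix.mul_one, rtr_comm]
  have e3 : Wa.Uᴴ * Wa.U * (Wa.sig * Y * Yᴴ) = Wa.sig * Y * Yᴴ := by
    rw [← Matrix.mul_assoc, ← Matrix.mul_assoc, Wa.UU_sig]
  rw [e3, pairS_eq, WSVD.sig, WSVD.sig, rtr_diag_mul_self, rtr_diag_conj, Finset.sum_comm
    (f := fun i k => Wb.s i * ‖Y k i‖ ^ 2), ← Finset.sum_add_distrib, Finset.sum_div]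
  apply Finset.sum_congr rfl
  intro k _
  rw [← Finset.sum_add_distrib, Finset.sum_div]
  apply Finset.sum_congr rfl
  intro i _
  have ht : (Wa.s k + Wb.s i) * (tauT A B k i) ^ 2 = phi (Wa.s k) (Wb.s i) / 4 := tau_sq A B k i
  change _ = phi (Wa.s k) (Wb.s i) * ‖Zt A B D k i‖ ^ 2 / 4
  have e4 : ‖Y k i‖ ^ 2 = (tauT A B k i) ^ 2 * ‖Zt A B D k i‖ ^ 2 := by
    simp only [hY, Yt, of_apply, norm_mul, RCLike.norm_ofReal, mul_pow, sq_abs]
  rw [e4]
  calc Wa.s k * (tauT A B k i ^ 2 * ‖Zt A B D k i‖ ^ 2) + Wb.s i * (tauT A B k i ^ 2 * ‖Zt A B D k i‖ ^ 2)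
      = ((Wa.s k + Wb.s i) * (tauT A B k i) ^ 2) * ‖Zt A B D k i‖ ^ 2 := by ring
    _ = _ := by rw [ht]; ring

/-- the block diagonal root -/
noncomputable def Dhat : Matrix (m ⊕ l) (m ⊕ l) 𝕜 :=
  fromBlocks (svd A).rootL 0 0 (svd B).rootR

/-- the Hermitian test matrix -/
noncomputable def Ytest : Matrix (m ⊕ l) (m ⊕ l) 𝕜 :=
  fromBlocks 0 (Y1 A B D) (Y1 A B D)ᴴ 0

lemma Dhat_psd : (Dhat A B).PosSemidef :=
  posSemidef_fromBlocks_diag (svd A).rootL_psd (svd B).rootR_psd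

lemma Ytest_herm : (Ytest A B D).IsHermitian := by
  apply IsHermitian.fromBlocks
  · simp [IsHermitian]
  · rfl
  · simp [IsHermitian]

lemma rtr_Dhat_Y : rtr (Dhat A B * Ytest A B D * Ytest A B D) = pairS A B D / 4 := by
  rw [← rtr_LR A B D, Dhat, Ytest, fromBlocks_multiply, fromBlocks_multiply]
  simp only [Matrix.mul_zero, Matrix.zero_mul, add_zero, zero_add, rtr, trace_fromBlocks', map_add]

lemma rtr_W_Y (hD : D.IsHermitian) :
    rtr ((colOp A B)ᴴ * (D * colOp A B) * Ytest A B D) = pairS A B D := by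
  rw [colOp_sandwich, Ytest, fromBlocks_multiply]
  simp only [Matrix.mul_zero, Matrix.zero_mul, add_zero, zero_add, rtr, trace_fromBlocks', map_add]
  have h1 := rtr_K_Y1 A B D
  have h2 := rtr_Kh_Y1 A B D hD
  simp only [rtr] at h1 h2
  rw [h1, h2]
  ring

/-- `4 D̂² - FᴴF ≥ 0`. -/
lemma four_Dhat_sq : ((2 : ℝ) • (2 : ℝ) • (Dhat A B * Dhat A B) -
    (colOp A B)ᴴ * colOp A B).PosSemidef := by
  have h1 : Dhat A B * Dhat A B = fromBlocks (A * Aᴴ) 0 0 (Bᴴ * B) := by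
    rw [Dhat, fromBlocks_multiply]
    simp [(svd A).rootL_sq, (svd B).rootR_sq]
  have h2 : ((colOp A (-B))ᴴ * colOp A (-B)).PosSemidef := posSemidef_conjTranspose_mul_self _
  have h3 : (Dhat A B * Dhat A B).PosSemidef := by
    have := posSemidef_conjTranspose_mul_self (Dhat A B)
    rwa [(Dhat_psd A B).1.eq] at this
  have h4 := (h3.smul (α := ℝ) (a := (2 : ℝ)) (by norm_num)).add h2
  have e : (2 : ℝ) • (2 : ℝ) • (Dhat A B * Dhat A B) - (colOp A B)ᴴ * colOp A B =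
      (2 : ℝ) • (Dhat A B * Dhat A B) + (colOp A (-B))ᴴ * colOp A (-B) := by
    rw [h1, colOp_conj_mul, colOp_conj_mul]
    ext (i | i) (j | j) <;>
      simp [fromBlocks_apply₁₁, fromBlocks_apply₁₂, fromBlocks_apply₂₁, fromBlocks_apply₂₂,
        Matrix.mul_neg, Matrix.neg_mul, RCLike.real_smul_eq_coe_mul] <;>
      (try push_cast) <;> ring
  rwa [e]

/-- **Gap of the pair energy.** With `F = [Aᴴ, B]`:
`E32(FᴴF) + (3/4) S(A,B,D) ≤ (1/2)(E32(Fᴴ(1+D)F) + E32(Fᴴ(1-D)F))`. -/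
theorem gap_pair (hp : (1 + D).PosSemidef) (hm : (1 - D).PosSemidef) :
    E32 ((colOp A B)ᴴ * colOp A B) + (3 / 4) * pairS A B D ≤
      (1 / 2) * (E32 ((colOp A B)ᴴ * ((1 + D) * colOp A B)) +
        E32 ((colOp A B)ᴴ * ((1 - D) * colOp A B))) := by
  set F := colOp A B with hF
  have hD : D.IsHermitian := herm_of_pm (T := 1) hp hm
  have eT : Fᴴ * ((1 + D) * F) = Fᴴ * F + Fᴴ * (D * F) := by
    rw [Matrix.add_mul, Matrix.one_mul, Matrix.mul_add]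
  have eM : Fᴴ * ((1 - D) * F) = Fᴴ * F - Fᴴ * (D * F) := by
    rw [Matrix.sub_mul, Matrix.one_mul, Matrix.mul_sub]
  have hp' : (Fᴴ * F + Fᴴ * (D * F)).PosSemidef := by
    rw [← eT, ← Matrix.mul_assoc]
    exact hp.conjTranspose_mul_mul_same F
  have hm' : (Fᴴ * F - Fᴴ * (D * F)).PosSemidef := by
    rw [← eM, ← Matrix.mul_assoc]
    exact hm.conjTranspose_mul_mul_same F
  rw [eT, eM]
  have hT : (Fᴴ * F).PosSemidef := posSemidef_conjTranspose_mul_self F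
  have key := gap_main (Y := Ytest A B D) hp' hm' (Ytest_herm A B D)
  have h1 : rtr (Fᴴ * (D * F) * Ytest A B D) = pairS A B D := rtr_W_Y A B D hD
  have h2 : rtr (rt (Fᴴ * F) * Ytest A B D * Ytest A B D) ≤
      2 * rtr (Dhat A B * Ytest A B D * Ytest A B D) := by
    apply rtr_root_le (rt_psd hT) (Dhat_psd A B) (Ytest_herm A B D)
    rw [rt_mul_self hT]
    exact four_Dhat_sq A B
  rw [rtr_Dhat_Y] at h2
  rw [h1] at key
  linarith

/-- transfer: if `Fᴴ(1+D)F = (PF)ᴴ(PF)`, the energy can be computed on the middle space. -/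
lemma E32_middle (P : Matrix n n 𝕜) (X : Matrix n n 𝕜)
    (h : (colOp A B)ᴴ * (X * colOp A B) = (P * colOp A B)ᴴ * (P * colOp A B)) :
    E32 ((colOp A B)ᴴ * (X * colOp A B)) = E32 (P * (Aᴴ * A + B * Bᴴ) * Pᴴ) := by
  rw [h, E32_conj_comm, conjTranspose_mul, ← colOp_mul_conj]
  simp only [Matrix.mul_assoc]

/-- the base energy on the middle space -/
lemma E32_base : E32 ((colOp A B)ᴴ * colOp A B) = E32 (Aᴴ * A + B * Bᴴ) := by
  rw [E32_conj_comm, colOp_mul_conj]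

end test

end Crest.Agent.TriH
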