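import Mathlib
import Crest.Prelude.Def_DyadicTriangular

/-!
# Reduction of the dyadic triangular bound (S0097) to a discrete statement

This file is the analysis layer: from measurable bounded compactly supported functions to dyadic
step functions.  The rest of the proof only has to show `TriH.DiscreteBound C` for a constant
`0 ≤ C ≤ 40 / 3`.
-/

set_option autoImplicit false

namespace Crest.Agent.TriH

open MeasureTheory Set Crest.AnalysisR.TriangularDyadic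

/-- The block of fine cells `x` with `x / 2^d = n`. -/
def blk (d n : ℕ) : Finset ℕ := Finset.Ico (n * 2 ^ d) ((n + 1) * 2 ^ d)

lemma mem_blk {d n x : ℕ} : x ∈ blk d n ↔ x / 2 ^ d = n := by
  have h2 : 0 < 2 ^ d := by positivity
  simp only [blk, Finset.mem_Ico]
  constructor
  · rintro ⟨h1, h3⟩
    apply Nat.le_antisymm
    · have : x / 2 ^ d < n + 1 := Nat.div_lt_of_lt_mul (by rwa [Nat.mul_comm])
      omega
    · exact (Nat.le_div_iff_mul_le h2).2 h1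
  · rintro rfl
    constructor
    · exact Nat.div_mul_le_self x (2 ^ d)
    · have := Nat.lt_div_mul_add (a := x) h2
      nlinarith [this]

/-- The Haar sign on fine cells: `(-1)` to the bit `d - 1` of `x`. -/
def sgn (d x : ℕ) : ℝ := if (x / 2 ^ (d - 1)) % 2 = 0 then 1 else -1

/-- The normalised local form of three functions on fine cells, on the blocks of width `2^d`
(`d ≥ 1`) with indices `n₀, n₁, n₂`. -/
noncomputable def H (d n0 n1 n2 : ℕ) (f0 f1 f2 : ℕ → ℕ → ℝ) : ℝ :=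
  ((8 : ℝ) ^ d)⁻¹ * ∑ x0 ∈ blk d n0, ∑ x1 ∈ blk d n1, ∑ x2 ∈ blk d n2,
    f0 x0 x1 * f1 x1 x2 * f2 x2 x0 * (sgn d x0 * sgn d x1 * sgn d x2)

/-- The normalised `L³` mass (cubed norm) of a function on fine cells at depth `r`. -/
noncomputable def M (r : ℕ) (f : ℕ → ℕ → ℝ) : ℝ :=
  ((4 : ℝ) ^ r)⁻¹ * ∑ x ∈ Finset.range (2 ^ r), ∑ y ∈ Finset.range (2 ^ r), |f x y| ^ 3

/-- The discrete form of S0097 (depth `r`, levels `l < r`, blocks of width `2^(r-l)`). -/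
def DiscreteBound (C : ℝ) : Prop :=
  ∀ (r : ℕ) (f0 f1 f2 : ℕ → ℕ → ℝ),
    ∑ l ∈ Finset.range r, ∑ n0 ∈ Finset.range (2 ^ l), ∑ n1 ∈ Finset.range (2 ^ l),
      ((4 : ℝ) ^ l)⁻¹ * |H (r - l) n0 n1 (n0 ^^^ n1) f0 f1 f2| ≤
      C * (M r f0 + M r f1 + M r f2)

/-! ### Scaling in the discrete statement -/

lemma M_nonneg (r : ℕ) (f : ℕ → ℕ → ℝ) : 0 ≤ M r f := by
  unfold M
  positivity

lemma M_smul (r : ℕ) (c : ℝ) (hc : 0 ≤ c) (f : ℕ → ℕ → ℝ) :
    M r (fun x y => c * f x y) = c ^ 3 * M r f := by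
  unfold M
  simp only [abs_mul, abs_of_nonneg hc, mul_pow, ← Finset.mul_sum]
  ring

lemma H_smul (d n0 n1 n2 : ℕ) (a b c : ℝ) (f0 f1 f2 : ℕ → ℕ → ℝ) :
    H d n0 n1 n2 (fun x y => a * f0 x y) (fun x y => b * f1 x y) (fun x y => c * f2 x y) =
      a * b * c * H d n0 n1 n2 f0 f1 f2 := by
  unfold H
  simp only [Finset.mul_sum]
  refine Finset.sum_congr rfl fun x0 _ => Finset.sum_congr rfl fun x1 _ =>
    Finset.sum_congr rfl fun x2 _ => ?_
  ring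

/-- The scaled discrete bound: the product form. -/
lemma discrete_prod {C : ℝ} (hC0 : 0 ≤ C) (hC : DiscreteBound C) (r : ℕ) (f0 f1 f2 : ℕ → ℕ → ℝ)
    {N0 N1 N2 : ℝ} (h0 : 0 < N0) (h1 : 0 < N1) (h2 : 0 < N2)
    (m0 : M r f0 ≤ N0 ^ 3) (m1 : M r f1 ≤ N1 ^ 3) (m2 : M r f2 ≤ N2 ^ 3) :
    ∑ l ∈ Finset.range r, ∑ n0 ∈ Finset.range (2 ^ l), ∑ n1 ∈ Finset.range (2 ^ l),
      ((4 : ℝ) ^ l)⁻¹ * |H (r - l) n0 n1 (n0 ^^^ n1) f0 f1 f2| ≤ 3 * C * (N0 * N1 * N2) := by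
  set P : ℝ := N0 * N1 * N2 with hP
  have hPpos : 0 < P := by positivity
  set ρ : ℝ := P ^ ((1 : ℝ) / 3) with hρ
  have hρpos : 0 < ρ := by positivity
  have hρ3 : ρ ^ 3 = P := by
    rw [hρ, ← Real.rpow_natCast, ← Real.rpow_mul hPpos.le]
    norm_num
  have hprod : (ρ / N0) * (ρ / N1) * (ρ / N2) = 1 := by
    have : (ρ / N0) * (ρ / N1) * (ρ / N2) = ρ ^ 3 / P := by
      rw [hP]; field_simp
    rw [this, hρ3]; field_simp
  have key := hC r (fun x y => (ρ / N0) * f0 x y) (fun x y => (ρ / N1) * f1 x y)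
    (fun x y => (ρ / N2) * f2 x y)
  simp only [H_smul, hprod, one_mul] at key
  rw [M_smul _ _ (by positivity), M_smul _ _ (by positivity), M_smul _ _ (by positivity)] at key
  refine key.trans ?_
  have b0 : (ρ / N0) ^ 3 * M r f0 ≤ P := by
    have : (ρ / N0) ^ 3 * N0 ^ 3 = P := by
      rw [div_pow, hρ3]; field_simp
    calc (ρ / N0) ^ 3 * M r f0 ≤ (ρ / N0) ^ 3 * N0 ^ 3 := by gcongr
      _ = P := this
  have b1 : (ρ / N1) ^ 3 * M r f1 ≤ P := by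
    have : (ρ / N1) ^ 3 * N1 ^ 3 = P := by
      rw [div_pow, hρ3]; field_simp
    calc (ρ / N1) ^ 3 * M r f1 ≤ (ρ / N1) ^ 3 * N1 ^ 3 := by gcongr
      _ = P := this
  have b2 : (ρ / N2) ^ 3 * M r f2 ≤ P := by
    have : (ρ / N2) ^ 3 * N2 ^ 3 = P := by
      rw [div_pow, hρ3]; field_simp
    calc (ρ / N2) ^ 3 * M r f2 ≤ (ρ / N2) ^ 3 * N2 ^ 3 := by gcongr
      _ = P := this
  nlinarith [mul_le_mul_of_nonneg_left (add_le_add (add_le_add b0 b1) b2) hC0]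


/-! ### Step functions -/

/-- The fine cell index of a real at scale `2^m`. -/
noncomputable def cell (m : ℤ) (x : ℝ) : ℕ := ⌊x / (2 : ℝ) ^ m⌋₊

lemma measurable_cell (m : ℤ) : Measurable (cell m) := by
  unfold cell
  exact Nat.measurable_floor.comp (measurable_id.div_const _)

lemma two_zpow_pos (m : ℤ) : (0 : ℝ) < (2 : ℝ) ^ m := by positivity

lemma cell_eq {m : ℤ} {x : ℝ} {c : ℕ} (h : x ∈ Ico ((2 : ℝ) ^ m * c) ((2 : ℝ) ^ m * (c + 1))) :
    cell m x = c := by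
  have hm := two_zpow_pos m
  unfold cell
  rw [Nat.floor_eq_iff]
  · constructor
    · rw [le_div_iff₀ hm]; linarith [h.1]
    · rw [div_lt_iff₀ hm]; linarith [h.2]
  · have : 0 ≤ x := le_trans (by positivity) h.1
    positivity

lemma le_cell_iff {m : ℤ} {x : ℝ} (hx : 0 ≤ x) (a : ℕ) :
    a ≤ cell m x ↔ (2 : ℝ) ^ m * a ≤ x := by
  have hm := two_zpow_pos m
  unfold cell
  rw [Nat.le_floor_iff (by positivity), le_div_iff₀ hm, mul_comm]

lemma cell_lt_iff {m : ℤ} {x : ℝ} (hx : 0 ≤ x) (a : ℕ) :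
    cell m x < a ↔ x < (2 : ℝ) ^ m * a := by
  rw [← not_le, le_cell_iff hx, not_le]

lemma integral_step (m : ℤ) (φ : ℕ → ℝ) (a : ℕ) {b : ℕ} (hab : a ≤ b) :
    IntegrableOn (fun x => φ (cell m x)) (Ico ((2 : ℝ) ^ m * a) ((2 : ℝ) ^ m * b)) ∧
      ∫ x in Ico ((2 : ℝ) ^ m * a) ((2 : ℝ) ^ m * b), φ (cell m x) =
        (2 : ℝ) ^ m * ∑ c ∈ Finset.Ico a b, φ c := by
  have hm := two_zpow_pos m
  induction b, hab using Nat.le_induction with
  | base => simp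
  | succ b hab ih =>
    have hle : (2 : ℝ) ^ m * a ≤ (2 : ℝ) ^ m * b := by
      have : (a : ℝ) ≤ b := by exact_mod_cast hab
      gcongr
    have hle' : (2 : ℝ) ^ m * b ≤ (2 : ℝ) ^ m * ((b + 1 : ℕ) : ℝ) := by
      have : (b : ℝ) ≤ ((b + 1 : ℕ) : ℝ) := by push_cast; linarith
      gcongr
    have hU : Ico ((2 : ℝ) ^ m * a) ((2 : ℝ) ^ m * ((b + 1 : ℕ) : ℝ)) =
        Ico ((2 : ℝ) ^ m * a) ((2 : ℝ) ^ m * b) ∪
          Ico ((2 : ℝ) ^ m * b) ((2 : ℝ) ^ m * ((b + 1 : ℕ) : ℝ)) :=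
      (Ico_union_Ico_eq_Ico hle hle').symm
    have hcell : ∀ x ∈ Ico ((2 : ℝ) ^ m * b) ((2 : ℝ) ^ m * ((b + 1 : ℕ) : ℝ)),
        φ (cell m x) = φ b := by
      intro x hx
      rw [cell_eq (c := b)]
      refine ⟨hx.1, ?_⟩
      have := hx.2
      push_cast at this
      exact this
    have hvol : volume (Ico ((2 : ℝ) ^ m * b) ((2 : ℝ) ^ m * ((b + 1 : ℕ) : ℝ))) ≠ ⊤ := by
      simp
    have hint2 : IntegrableOn (fun x => φ (cell m x))
        (Ico ((2 : ℝ) ^ m * b) ((2 : ℝ) ^ m * ((b + 1 : ℕ) : ℝ))) := by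
      have : IntegrableOn (fun _ : ℝ => φ b)
          (Ico ((2 : ℝ) ^ m * b) ((2 : ℝ) ^ m * ((b + 1 : ℕ) : ℝ))) :=
        integrableOn_const hvol
      exact this.congr_fun (fun x hx => (hcell x hx).symm) measurableSet_Ico
    refine ⟨?_, ?_⟩
    · rw [hU]; exact ih.1.union hint2
    · rw [hU, setIntegral_union (Ico_disjoint_Ico_same) measurableSet_Ico ih.1 hint2, ih.2,
        setIntegral_congr_fun measurableSet_Ico hcell, setIntegral_const,
        Finset.sum_Ico_succ_top hab]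
      simp only [Real.volume_Ico, smul_eq_mul, MeasureTheory.measureReal_def]
      have : (2 : ℝ) ^ m * ((b + 1 : ℕ) : ℝ) - (2 : ℝ) ^ m * b = (2 : ℝ) ^ m := by
        push_cast; ring
      rw [this, ENNReal.toReal_ofReal hm.le]
      ring

lemma triple_step (m : ℤ) {a0 b0 a1 b1 a2 b2 : ℕ} (h0 : a0 ≤ b0) (h1 : a1 ≤ b1) (h2 : a2 ≤ b2)
    (Φ : ℕ → ℕ → ℕ → ℝ) :
    ∫ x0 in Ico ((2 : ℝ) ^ m * a0) ((2 : ℝ) ^ m * b0),
      ∫ x1 in Ico ((2 : ℝ) ^ m * a1) ((2 : ℝ) ^ m * b1),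
        ∫ x2 in Ico ((2 : ℝ) ^ m * a2) ((2 : ℝ) ^ m * b2),
          Φ (cell m x0) (cell m x1) (cell m x2) =
      ((2 : ℝ) ^ m) ^ 3 * ∑ c0 ∈ Finset.Ico a0 b0, ∑ c1 ∈ Finset.Ico a1 b1,
        ∑ c2 ∈ Finset.Ico a2 b2, Φ c0 c1 c2 := by
  have e2 : ∀ c0 c1 : ℕ, ∫ x2 in Ico ((2 : ℝ) ^ m * a2) ((2 : ℝ) ^ m * b2),
      Φ c0 c1 (cell m x2) = (2 : ℝ) ^ m * ∑ c2 ∈ Finset.Ico a2 b2, Φ c0 c1 c2 :=
    fun c0 c1 => (integral_step m (Φ c0 c1) a2 h2).2
  simp only [e2]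
  have e1 : ∀ c0 : ℕ, ∫ x1 in Ico ((2 : ℝ) ^ m * a1) ((2 : ℝ) ^ m * b1),
      ((2 : ℝ) ^ m * ∑ c2 ∈ Finset.Ico a2 b2, Φ c0 (cell m x1) c2) =
        (2 : ℝ) ^ m * ∑ c1 ∈ Finset.Ico a1 b1,
          ((2 : ℝ) ^ m * ∑ c2 ∈ Finset.Ico a2 b2, Φ c0 c1 c2) :=
    fun c0 => (integral_step m (fun c1 => (2 : ℝ) ^ m * ∑ c2 ∈ Finset.Ico a2 b2, Φ c0 c1 c2)
      a1 h1).2
  simp only [e1]
  rw [(integral_step m (fun c0 => (2 : ℝ) ^ m * ∑ c1 ∈ Finset.Ico a1 b1,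
          ((2 : ℝ) ^ m * ∑ c2 ∈ Finset.Ico a2 b2, Φ c0 c1 c2)) a0 h0).2]
  simp only [← Finset.mul_sum]
  ring

lemma interval_eq (m : ℤ) (d n : ℕ) :
    interval (m + d) n = Ico ((2 : ℝ) ^ m * ((n * 2 ^ d : ℕ) : ℝ))
      ((2 : ℝ) ^ m * (((n + 1) * 2 ^ d : ℕ) : ℝ)) := by
  unfold interval
  have h : (2 : ℝ) ^ (m + (d : ℤ)) = (2 : ℝ) ^ m * (2 : ℝ) ^ d := by
    rw [zpow_add₀ (by norm_num), zpow_natCast]
  rw [h]
  push_cast
  congr 1 <;> ring

lemma cell_mem_of_mem_interval {m : ℤ} {d n : ℕ} {x : ℝ} (hx : x ∈ interval (m + d) n) :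
    0 ≤ x ∧ n * 2 ^ d ≤ cell m x ∧ cell m x < (n + 1) * 2 ^ d := by
  rw [interval_eq] at hx
  have hx0 : 0 ≤ x := le_trans (by positivity) hx.1
  exact ⟨hx0, (le_cell_iff hx0 _).2 hx.1, (cell_lt_iff hx0 _).2 hx.2⟩

lemma haarSign_eq (m : ℤ) {d : ℕ} (hd : 1 ≤ d) (n : ℕ) {x : ℝ} (hx : x ∈ interval (m + d) n) :
    haarSign (m + d) n x = sgn d (cell m x) := by
  obtain ⟨hx0, hc1, hc2⟩ := cell_mem_of_mem_interval hx
  set c := cell m x with hc
  obtain ⟨e, rfl⟩ : ∃ e, d = e + 1 := ⟨d - 1, by omega⟩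
  have hm := two_zpow_pos m
  have h2e : 0 < 2 ^ e := by positivity
  have hk : (2 : ℝ) ^ (m + ((e + 1 : ℕ) : ℤ)) = (2 : ℝ) ^ m * (2 * (2 : ℝ) ^ e) := by
    rw [zpow_add₀ (by norm_num), zpow_natCast, pow_succ]; ring
  have hk1 : (2 : ℝ) ^ (m + ((e + 1 : ℕ) : ℤ) - 1) = (2 : ℝ) ^ m * (2 : ℝ) ^ e := by
    have : m + ((e + 1 : ℕ) : ℤ) - 1 = m + (e : ℤ) := by push_cast; ring
    rw [this, zpow_add₀ (by norm_num), zpow_natCast]
  have hxI := hx
  unfold interval at hxI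
  unfold haarSign sgn
  simp only [Nat.add_sub_cancel]
  rw [hk] at hxI ⊢
  rw [hk1]
  have hc1' : n * (2 * 2 ^ e) ≤ c := by rw [pow_succ] at hc1; linarith
  have hc2' : c < (n + 1) * (2 * 2 ^ e) := by rw [pow_succ] at hc2; linarith
  by_cases hlt : c < n * (2 * 2 ^ e) + 2 ^ e
  · -- left half
    have hq : c / 2 ^ e = 2 * n := by
      apply Nat.div_eq_of_lt_le
      · nlinarith
      · nlinarith
    have hxlt : x < (2 : ℝ) ^ m * (2 * (2 : ℝ) ^ e) * n + (2 : ℝ) ^ m * (2 : ℝ) ^ e := by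
      have := (cell_lt_iff hx0 (n * (2 * 2 ^ e) + 2 ^ e)).1 hlt
      push_cast at this
      nlinarith
    rw [if_pos ⟨hxI.1, hxlt⟩, hq, if_pos (by omega)]
  · -- right half
    have hge : n * (2 * 2 ^ e) + 2 ^ e ≤ c := by omega
    have hq : c / 2 ^ e = 2 * n + 1 := by
      apply Nat.div_eq_of_lt_le
      · nlinarith
      · nlinarith
    have hxge : (2 : ℝ) ^ m * (2 * (2 : ℝ) ^ e) * n + (2 : ℝ) ^ m * (2 : ℝ) ^ e ≤ x := by
      have := (le_cell_iff hx0 (n * (2 * 2 ^ e) + 2 ^ e)).1 hge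
      push_cast at this
      nlinarith
    rw [if_neg (fun h => absurd h.2 (not_lt.2 hxge)), if_pos ⟨hxge, hxI.2⟩, hq, if_neg (by omega)]

/-- The step function on the plane built from a function on fine cells. -/
noncomputable def stepF (m : ℤ) (f : ℕ → ℕ → ℝ) : ℝ × ℝ → ℝ :=
  fun z => f (cell m z.1) (cell m z.2)

lemma localForm_stepF (m : ℤ) {d : ℕ} (hd : 1 ≤ d) (n0 n1 n2 : ℕ) (f0 f1 f2 : ℕ → ℕ → ℝ) :
    localForm (m + d) n0 n1 n2 (stepF m f0) (stepF m f1) (stepF m f2) =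
      (4 : ℝ) ^ (m + (d : ℤ)) * H d n0 n1 n2 f0 f1 f2 := by
  unfold localForm
  have hm := two_zpow_pos m
  have step : ∀ x0 ∈ interval (m + d) n0, ∀ x1 ∈ interval (m + d) n1, ∀ x2 ∈ interval (m + d) n2,
      stepF m f0 (x0, x1) * stepF m f1 (x1, x2) * stepF m f2 (x2, x0) *
        (haarSign (m + d) n0 x0 * haarSign (m + d) n1 x1 * haarSign (m + d) n2 x2) =
      (fun c0 c1 c2 => f0 c0 c1 * f1 c1 c2 * f2 c2 c0 * (sgn d c0 * sgn d c1 * sgn d c2))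
        (cell m x0) (cell m x1) (cell m x2) := by
    intro x0 h0 x1 h1 x2 h2
    simp only [stepF]
    rw [haarSign_eq m hd n0 h0, haarSign_eq m hd n1 h1, haarSign_eq m hd n2 h2]
  have hrew : ∫ x0 in interval (m + d) n0, ∫ x1 in interval (m + d) n1,
      ∫ x2 in interval (m + d) n2,
        stepF m f0 (x0, x1) * stepF m f1 (x1, x2) * stepF m f2 (x2, x0) *
          (haarSign (m + d) n0 x0 * haarSign (m + d) n1 x1 * haarSign (m + d) n2 x2) =
      ∫ x0 in interval (m + d) n0, ∫ x1 in interval (m + d) n1,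
      ∫ x2 in interval (m + d) n2,
        (fun c0 c1 c2 => f0 c0 c1 * f1 c1 c2 * f2 c2 c0 * (sgn d c0 * sgn d c1 * sgn d c2))
          (cell m x0) (cell m x1) (cell m x2) := by
    have hmeas : ∀ n, MeasurableSet (interval (m + d) n) := fun n => measurableSet_Ico
    refine setIntegral_congr_fun (hmeas n0) fun x0 h0 => ?_
    refine setIntegral_congr_fun (hmeas n1) fun x1 h1 => ?_
    refine setIntegral_congr_fun (hmeas n2) fun x2 h2 => ?_
    exact step x0 h0 x1 h1 x2 h2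
  have hle : ∀ n : ℕ, n * 2 ^ d ≤ (n + 1) * 2 ^ d := fun n => by gcongr; omega
  rw [hrew, interval_eq, interval_eq, interval_eq,
    triple_step m (hle n0) (hle n1) (hle n2)
      (fun c0 c1 c2 => f0 c0 c1 * f1 c1 c2 * f2 c2 c0 * (sgn d c0 * sgn d c1 * sgn d c2))]
  unfold H blk
  have h1 : (2 : ℝ) ^ (-(m + (d : ℤ))) * ((2 : ℝ) ^ m) ^ 3 =
      (4 : ℝ) ^ (m + (d : ℤ)) * ((8 : ℝ) ^ d)⁻¹ := by
    have h8 : (8 : ℝ) ^ d = (2 : ℝ) ^ (3 * (d : ℤ)) := by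
      rw [show (8 : ℝ) = 2 ^ 3 by norm_num, ← pow_mul, ← zpow_natCast]
      push_cast; rfl
    have h4 : (4 : ℝ) ^ (m + (d : ℤ)) = (2 : ℝ) ^ (2 * (m + (d : ℤ))) := by
      rw [show (4 : ℝ) = 2 ^ 2 by norm_num, ← zpow_natCast, ← zpow_mul]
      push_cast; rfl
    rw [h8, h4, ← zpow_natCast ((2 : ℝ) ^ m) 3, ← zpow_mul, ← zpow_add₀ (by norm_num),
      ← zpow_neg, ← zpow_add₀ (by norm_num)]
    congr 1
    push_cast
    ring
  rw [← mul_assoc, h1, mul_assoc]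

lemma measurable_stepF (m : ℤ) (f : ℕ → ℕ → ℝ) : Measurable (stepF m f) := by
  unfold stepF
  have h : Measurable (fun p : ℕ × ℕ => f p.1 p.2) := Measurable.of_discrete
  exact h.comp ((measurable_cell m).comp measurable_fst |>.prodMk
    ((measurable_cell m).comp measurable_snd))


/-! ### Cubed norm of a step function -/

lemma integrableOn_of_bdd {α : Type*} [MeasurableSpace α] {μ : Measure α} {s : Set α}
    {g : α → ℝ} (hg : Measurable g) (hs : MeasurableSet s) (hfin : μ s ≠ ⊤) {B : ℝ}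
    (hB : ∀ z ∈ s, |g z| ≤ B) : IntegrableOn g s μ :=
  Measure.integrableOn_of_bounded hfin hg.aestronglyMeasurable (M := B)
    ((ae_restrict_iff' hs).2 (Filter.Eventually.of_forall fun z hz => by
      simpa [Real.norm_eq_abs] using hB z hz))

lemma cell_lt_of_mem {m : ℤ} {r : ℕ} {x : ℝ} (hx : x ∈ Ico (0 : ℝ) ((2 : ℝ) ^ (m + (r : ℤ)))) :
    cell m x < 2 ^ r := by
  rw [cell_lt_iff hx.1]
  have h : (2 : ℝ) ^ (m + (r : ℤ)) = (2 : ℝ) ^ m * (2 : ℝ) ^ r := by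
    rw [zpow_add₀ (by norm_num), zpow_natCast]
  have := hx.2
  rw [h] at this
  push_cast
  exact this

lemma integral_box_stepF (m : ℤ) (r : ℕ) (f : ℕ → ℕ → ℝ) :
    ∫ z in Ico (0 : ℝ) ((2 : ℝ) ^ (m + (r : ℤ))) ×ˢ Ico (0 : ℝ) ((2 : ℝ) ^ (m + (r : ℤ))),
      |stepF m f z| ^ 3 = (4 : ℝ) ^ (m + (r : ℤ)) * M r f := by
  have hI : Ico (0 : ℝ) ((2 : ℝ) ^ (m + (r : ℤ))) =
      Ico ((2 : ℝ) ^ m * ((0 : ℕ) : ℝ)) ((2 : ℝ) ^ m * ((2 ^ r : ℕ) : ℝ)) := by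
    have h : (2 : ℝ) ^ (m + (r : ℤ)) = (2 : ℝ) ^ m * (2 : ℝ) ^ r := by
      rw [zpow_add₀ (by norm_num), zpow_natCast]
    rw [h]; push_cast; simp
  have hmeas : Measurable fun z : ℝ × ℝ => |stepF m f z| ^ 3 :=
    ((measurable_stepF m f).abs).pow_const 3
  set B : ℝ := ∑ x ∈ Finset.range (2 ^ r), ∑ y ∈ Finset.range (2 ^ r), |f x y| ^ 3 with hB
  have hbd : ∀ z ∈ Ico (0 : ℝ) ((2 : ℝ) ^ (m + (r : ℤ))) ×ˢ Ico (0 : ℝ) ((2 : ℝ) ^ (m + (r : ℤ))),
      |(|stepF m f z| ^ 3)| ≤ B := by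
    intro z hz
    have h1 := cell_lt_of_mem hz.1
    have h2 := cell_lt_of_mem hz.2
    rw [abs_of_nonneg (by positivity)]
    simp only [stepF]
    calc |f (cell m z.1) (cell m z.2)| ^ 3
        ≤ ∑ y ∈ Finset.range (2 ^ r), |f (cell m z.1) y| ^ 3 :=
          Finset.single_le_sum (f := fun y => |f (cell m z.1) y| ^ 3)
            (fun _ _ => by positivity) (Finset.mem_range.2 h2)
      _ ≤ B := Finset.single_le_sum
            (f := fun x => ∑ y ∈ Finset.range (2 ^ r), |f x y| ^ 3)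
            (fun _ _ => Finset.sum_nonneg fun _ _ => by positivity) (Finset.mem_range.2 h1)
  have hfin : (volume : Measure (ℝ × ℝ))
      (Ico (0 : ℝ) ((2 : ℝ) ^ (m + (r : ℤ))) ×ˢ Ico (0 : ℝ) ((2 : ℝ) ^ (m + (r : ℤ)))) ≠ ⊤ := by
    rw [Measure.volume_eq_prod, Measure.prod_prod]
    simp [ENNReal.mul_eq_top]
  have hint := integrableOn_of_bdd hmeas (measurableSet_Ico.prod measurableSet_Ico) hfin hbd
  rw [Measure.volume_eq_prod] at hint ⊢
  rw [setIntegral_prod _ hint]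
  simp only [stepF]
  rw [hI]
  have hle : 0 ≤ 2 ^ r := by positivity
  have e2 : ∀ c : ℕ, ∫ y in Ico ((2 : ℝ) ^ m * ((0 : ℕ) : ℝ)) ((2 : ℝ) ^ m * ((2 ^ r : ℕ) : ℝ)),
      |f c (cell m y)| ^ 3 = (2 : ℝ) ^ m * ∑ y ∈ Finset.Ico 0 (2 ^ r), |f c y| ^ 3 :=
    fun c => (integral_step m (fun y => |f c y| ^ 3) 0 hle).2
  simp only [e2]
  rw [(integral_step m (fun c => (2 : ℝ) ^ m * ∑ y ∈ Finset.Ico 0 (2 ^ r), |f c y| ^ 3) 0 hle).2]
  unfold M
  simp only [← Finset.range_eq_Ico, ← Finset.mul_sum]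
  have h4 : (4 : ℝ) ^ (m + (r : ℤ)) * ((4 : ℝ) ^ r)⁻¹ = (2 : ℝ) ^ m * (2 : ℝ) ^ m := by
    rw [zpow_add₀ (by norm_num), zpow_natCast, mul_assoc,
      mul_inv_cancel₀ (by positivity), mul_one, ← mul_zpow]
    norm_num
  rw [← mul_assoc ((4 : ℝ) ^ (m + (r : ℤ))), h4]
  ring

/-! ### Continuity of the trilinear form -/

section Tri

variable {I0 I1 I2 : Set ℝ}

private lemma volprod_ne_top {s t : Set ℝ} (hs : volume s ≠ ⊤) (ht : volume t ≠ ⊤) :
    ((volume : Measure ℝ).prod (volume : Measure ℝ)) (s ×ˢ t) ≠ ⊤ := by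
  rw [Measure.prod_prod]
  exact ENNReal.mul_ne_top hs ht

/-- The iterated integral equals the integral over the product. -/
lemma iter_eq_prod (h0m : MeasurableSet I0) (h1m : MeasurableSet I1) (h2m : MeasurableSet I2)
    (f0 : volume I0 ≠ ⊤) (f1 : volume I1 ≠ ⊤) (f2 : volume I2 ≠ ⊤)
    {Ψ : ℝ × ℝ × ℝ → ℝ} (hΨ : Measurable Ψ) {B : ℝ} (hB : ∀ p, |Ψ p| ≤ B) :
    ∫ p in I0 ×ˢ (I1 ×ˢ I2), Ψ p ∂((volume : Measure ℝ).prod ((volume : Measure ℝ).prod volume)) =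
      ∫ x0 in I0, ∫ x1 in I1, ∫ x2 in I2, Ψ (x0, x1, x2) := by
  have hfin : ((volume : Measure ℝ).prod ((volume : Measure ℝ).prod volume))
      (I0 ×ˢ (I1 ×ˢ I2)) ≠ ⊤ := by
    rw [Measure.prod_prod, Measure.prod_prod]
    exact ENNReal.mul_ne_top f0 (ENNReal.mul_ne_top f1 f2)
  have hint : IntegrableOn Ψ (I0 ×ˢ (I1 ×ˢ I2))
      ((volume : Measure ℝ).prod ((volume : Measure ℝ).prod volume)) :=
    integrableOn_of_bdd hΨ (h0m.prod (h1m.prod h2m)) hfin (fun z _ => hB z)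
  rw [setIntegral_prod _ hint]
  refine setIntegral_congr_fun h0m fun x0 _ => ?_
  have hm : Measurable fun q : ℝ × ℝ => Ψ (x0, q) := hΨ.comp (measurable_const.prodMk measurable_id)
  have hint' : IntegrableOn (fun q : ℝ × ℝ => Ψ (x0, q)) (I1 ×ˢ I2)
      ((volume : Measure ℝ).prod (volume : Measure ℝ)) :=
    integrableOn_of_bdd hm (h1m.prod h2m) (volprod_ne_top f1 f2) (fun z _ => hB _)
  exact setIntegral_prod _ hint'

/-- Integrating a function of `(x₀, x₁)` over the triple product. -/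
lemma prod3_fst (h0m : MeasurableSet I0) (h1m : MeasurableSet I1) (h2m : MeasurableSet I2)
    (f0 : volume I0 ≠ ⊤) (f1 : volume I1 ≠ ⊤) (f2 : volume I2 ≠ ⊤)
    {g : ℝ × ℝ → ℝ} (hg : Measurable g) {B : ℝ} (hB : ∀ p, |g p| ≤ B) :
    ∫ p in I0 ×ˢ (I1 ×ˢ I2), g (p.1, p.2.1)
        ∂((volume : Measure ℝ).prod ((volume : Measure ℝ).prod volume)) =
      (volume I2).toReal * ∫ z in I0 ×ˢ I1, g z ∂((volume : Measure ℝ).prod volume) := by
  have hm : Measurable fun p : ℝ × ℝ × ℝ => g (p.1, p.2.1) :=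
    hg.comp (measurable_fst.prodMk (measurable_fst.comp measurable_snd))
  rw [iter_eq_prod h0m h1m h2m f0 f1 f2 hm (fun _ => hB _)]
  have hint := integrableOn_of_bdd hg (h0m.prod h1m) (volprod_ne_top (s := I0) (t := I1) f0 f1)
    (fun z _ => hB z)
  rw [setIntegral_prod _ hint, ← integral_const_mul]
  refine setIntegral_congr_fun h0m fun x0 _ => ?_
  rw [← integral_const_mul]
  refine setIntegral_congr_fun h1m fun x1 _ => ?_
  simp [MeasureTheory.measureReal_def]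

/-- Integrating a function of `(x₁, x₂)` over the triple product. -/
lemma prod3_snd (h0m : MeasurableSet I0) (h1m : MeasurableSet I1) (h2m : MeasurableSet I2)
    (f0 : volume I0 ≠ ⊤) (f1 : volume I1 ≠ ⊤) (f2 : volume I2 ≠ ⊤)
    {g : ℝ × ℝ → ℝ} (hg : Measurable g) {B : ℝ} (hB : ∀ p, |g p| ≤ B) :
    ∫ p in I0 ×ˢ (I1 ×ˢ I2), g (p.2.1, p.2.2)
        ∂((volume : Measure ℝ).prod ((volume : Measure ℝ).prod volume)) =
      (volume I0).toReal * ∫ z in I1 ×ˢ I2, g z ∂((volume : Measure ℝ).prod volume) := by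
  have hm : Measurable fun p : ℝ × ℝ × ℝ => g (p.2.1, p.2.2) :=
    hg.comp ((measurable_fst.comp measurable_snd).prodMk (measurable_snd.comp measurable_snd))
  rw [iter_eq_prod h0m h1m h2m f0 f1 f2 hm (fun _ => hB _)]
  have hint := integrableOn_of_bdd hg (h1m.prod h2m) (volprod_ne_top (s := I1) (t := I2) f1 f2)
    (fun z _ => hB z)
  rw [setIntegral_prod _ hint]
  simp [MeasureTheory.measureReal_def]

/-- Integrating a function of `(x₂, x₀)` over the triple product. -/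
lemma prod3_thd (h0m : MeasurableSet I0) (h1m : MeasurableSet I1) (h2m : MeasurableSet I2)
    (f0 : volume I0 ≠ ⊤) (f1 : volume I1 ≠ ⊤) (f2 : volume I2 ≠ ⊤)
    {g : ℝ × ℝ → ℝ} (hg : Measurable g) {B : ℝ} (hB : ∀ p, |g p| ≤ B) :
    ∫ p in I0 ×ˢ (I1 ×ˢ I2), g (p.2.2, p.1)
        ∂((volume : Measure ℝ).prod ((volume : Measure ℝ).prod volume)) =
      (volume I1).toReal * ∫ z in I2 ×ˢ I0, g z ∂((volume : Measure ℝ).prod volume) := by
  have hm : Measurable fun p : ℝ × ℝ × ℝ => g (p.2.2, p.1) :=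
    hg.comp ((measurable_snd.comp measurable_snd).prodMk measurable_fst)
  rw [iter_eq_prod h0m h1m h2m f0 f1 f2 hm (fun _ => hB _)]
  have hswap : ∫ z in I2 ×ˢ I0, g z ∂((volume : Measure ℝ).prod volume) =
      ∫ z in I0 ×ˢ I2, g z.swap ∂((volume : Measure ℝ).prod volume) :=
    (setIntegral_prod_swap I2 I0 g).symm
  have hm' : Measurable fun z : ℝ × ℝ => g z.swap := hg.comp measurable_swap
  have hint := integrableOn_of_bdd hm' (h0m.prod h2m) (volprod_ne_top (s := I0) (t := I2) f0 f2)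
    (fun z _ => hB _)
  rw [hswap, setIntegral_prod _ hint, ← integral_const_mul]
  refine setIntegral_congr_fun h0m fun x0 _ => ?_
  simp [MeasureTheory.measureReal_def, Prod.swap]


lemma abc_diff {M a b c a' b' c' : ℝ} (hM : 0 ≤ M) (hb : |b| ≤ M) (hc : |c| ≤ M)
    (ha' : |a'| ≤ M) (hb' : |b'| ≤ M) :
    |a * b * c - a' * b' * c'| ≤ M ^ 2 * (|a - a'| + |b - b'| + |c - c'|) := by
  have e : a * b * c - a' * b' * c' =
      (a - a') * (b * c) + (b - b') * (a' * c) + (c - c') * (a' * b') := by ring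
  rw [e]
  have h1 : |(a - a') * (b * c)| ≤ |a - a'| * M ^ 2 := by
    rw [abs_mul, abs_mul]
    have : |b| * |c| ≤ M * M := mul_le_mul hb hc (abs_nonneg _) hM
    calc |a - a'| * (|b| * |c|) ≤ |a - a'| * (M * M) := by gcongr
      _ = |a - a'| * M ^ 2 := by ring
  have h2 : |(b - b') * (a' * c)| ≤ |b - b'| * M ^ 2 := by
    rw [abs_mul, abs_mul]
    have : |a'| * |c| ≤ M * M := mul_le_mul ha' hc (abs_nonneg _) hM
    calc |b - b'| * (|a'| * |c|) ≤ |b - b'| * (M * M) := by gcongr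
      _ = |b - b'| * M ^ 2 := by ring
  have h3 : |(c - c') * (a' * b')| ≤ |c - c'| * M ^ 2 := by
    rw [abs_mul, abs_mul]
    have : |a'| * |b'| ≤ M * M := mul_le_mul ha' hb' (abs_nonneg _) hM
    calc |c - c'| * (|a'| * |b'|) ≤ |c - c'| * (M * M) := by gcongr
      _ = |c - c'| * M ^ 2 := by ring
  calc _ ≤ |(a - a') * (b * c)| + |(b - b') * (a' * c)| + |(c - c') * (a' * b')| := abs_add_three _ _ _
    _ ≤ |a - a'| * M ^ 2 + |b - b'| * M ^ 2 + |c - c'| * M ^ 2 := by gcongr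
    _ = _ := by ring

/-- Continuity of the trilinear form in `L¹`, for functions bounded by `M`. -/
lemma tri_diff (h0m : MeasurableSet I0) (h1m : MeasurableSet I1) (h2m : MeasurableSet I2)
    (f0 : volume I0 ≠ ⊤) (f1 : volume I1 ≠ ⊤) (f2 : volume I2 ≠ ⊤) {M : ℝ} (hM : 0 ≤ M)
    {a b c a' b' c' : ℝ × ℝ → ℝ}
    (ma : Measurable a) (mb : Measurable b) (mc : Measurable c)
    (ma' : Measurable a') (mb' : Measurable b') (mc' : Measurable c')
    (ba : ∀ z, |a z| ≤ M) (bb : ∀ z, |b z| ≤ M) (bc : ∀ z, |c z| ≤ M)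
    (ba' : ∀ z, |a' z| ≤ M) (bb' : ∀ z, |b' z| ≤ M) (bc' : ∀ z, |c' z| ≤ M)
    {h0 h1 h2 : ℝ → ℝ} (mh0 : Measurable h0) (mh1 : Measurable h1) (mh2 : Measurable h2)
    (bh0 : ∀ x, |h0 x| ≤ 1) (bh1 : ∀ x, |h1 x| ≤ 1) (bh2 : ∀ x, |h2 x| ≤ 1) :
    |(∫ x0 in I0, ∫ x1 in I1, ∫ x2 in I2,
        a (x0, x1) * b (x1, x2) * c (x2, x0) * (h0 x0 * h1 x1 * h2 x2)) -
      ∫ x0 in I0, ∫ x1 in I1, ∫ x2 in I2,
        a' (x0, x1) * b' (x1, x2) * c' (x2, x0) * (h0 x0 * h1 x1 * h2 x2)| ≤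
      M ^ 2 * ((volume I2).toReal * (∫ z in I0 ×ˢ I1, |a z - a' z| ∂((volume : Measure ℝ).prod volume)) +
        (volume I0).toReal * (∫ z in I1 ×ˢ I2, |b z - b' z| ∂((volume : Measure ℝ).prod volume)) +
        (volume I1).toReal * (∫ z in I2 ×ˢ I0, |c z - c' z| ∂((volume : Measure ℝ).prod volume))) := by
  have mf1 : Measurable fun p : ℝ × ℝ × ℝ => (p.1, p.2.1) :=
    measurable_fst.prodMk (measurable_fst.comp measurable_snd)
  have mf2 : Measurable fun p : ℝ × ℝ × ℝ => (p.2.1, p.2.2) :=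
    (measurable_fst.comp measurable_snd).prodMk (measurable_snd.comp measurable_snd)
  have mf3 : Measurable fun p : ℝ × ℝ × ℝ => (p.2.2, p.1) :=
    (measurable_snd.comp measurable_snd).prodMk measurable_fst
  have mh : Measurable fun p : ℝ × ℝ × ℝ => h0 p.1 * h1 p.2.1 * h2 p.2.2 :=
    ((mh0.comp measurable_fst).mul (mh1.comp (measurable_fst.comp measurable_snd))).mul
      (mh2.comp (measurable_snd.comp measurable_snd))
  have bh : ∀ p : ℝ × ℝ × ℝ, |h0 p.1 * h1 p.2.1 * h2 p.2.2| ≤ 1 := by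
    intro p
    rw [abs_mul, abs_mul]
    have h1' := bh0 p.1
    have h2' := bh1 p.2.1
    have h3' := bh2 p.2.2
    calc |h0 p.1| * |h1 p.2.1| * |h2 p.2.2| ≤ 1 * 1 * 1 := by gcongr
      _ = 1 := by norm_num
  set Ψ : ℝ × ℝ × ℝ → ℝ := fun p =>
    a (p.1, p.2.1) * b (p.2.1, p.2.2) * c (p.2.2, p.1) * (h0 p.1 * h1 p.2.1 * h2 p.2.2) with hΨ
  set Ψ' : ℝ × ℝ × ℝ → ℝ := fun p =>
    a' (p.1, p.2.1) * b' (p.2.1, p.2.2) * c' (p.2.2, p.1) * (h0 p.1 * h1 p.2.1 * h2 p.2.2) with hΨ'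
  have mΨ : Measurable Ψ := ((ma.comp mf1).mul (mb.comp mf2)).mul (mc.comp mf3) |>.mul mh
  have mΨ' : Measurable Ψ' := ((ma'.comp mf1).mul (mb'.comp mf2)).mul (mc'.comp mf3) |>.mul mh
  have triple_abs : ∀ {u v w : ℝ × ℝ → ℝ}, (∀ z, |u z| ≤ M) → (∀ z, |v z| ≤ M) → (∀ z, |w z| ≤ M) →
      ∀ p : ℝ × ℝ × ℝ, |u (p.1, p.2.1) * v (p.2.1, p.2.2) * w (p.2.2, p.1) *
        (h0 p.1 * h1 p.2.1 * h2 p.2.2)| ≤ M * M * M * 1 := by
    intro u v w hu hv hw p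
    rw [abs_mul, abs_mul, abs_mul]
    have := bh p
    have h1' := hu (p.1, p.2.1)
    have h2' := hv (p.2.1, p.2.2)
    have h3' := hw (p.2.2, p.1)
    gcongr
  have bΨ : ∀ p, |Ψ p| ≤ M * M * M * 1 := triple_abs ba bb bc
  have bΨ' : ∀ p, |Ψ' p| ≤ M * M * M * 1 := triple_abs ba' bb' bc'
  have eΨ := iter_eq_prod h0m h1m h2m f0 f1 f2 mΨ bΨ
  have eΨ' := iter_eq_prod h0m h1m h2m f0 f1 f2 mΨ' bΨ'
  simp only [hΨ, hΨ'] at eΨ eΨ'
  rw [← eΨ, ← eΨ']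
  have hs : MeasurableSet (I0 ×ˢ (I1 ×ˢ I2)) := h0m.prod (h1m.prod h2m)
  have hfin : ((volume : Measure ℝ).prod ((volume : Measure ℝ).prod volume))
      (I0 ×ˢ (I1 ×ˢ I2)) ≠ ⊤ := by
    rw [Measure.prod_prod, Measure.prod_prod]
    exact ENNReal.mul_ne_top f0 (ENNReal.mul_ne_top f1 f2)
  have iΨ := integrableOn_of_bdd (μ := (volume : Measure ℝ).prod ((volume : Measure ℝ).prod volume))
    mΨ hs hfin (fun z _ => bΨ z)
  have iΨ' := integrableOn_of_bdd (μ := (volume : Measure ℝ).prod ((volume : Measure ℝ).prod volume))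
    mΨ' hs hfin (fun z _ => bΨ' z)
  rw [← integral_sub iΨ iΨ']
  -- the three error terms
  have mda : Measurable fun z => |a z - a' z| := (ma.sub ma').abs
  have mdb : Measurable fun z => |b z - b' z| := (mb.sub mb').abs
  have mdc : Measurable fun z => |c z - c' z| := (mc.sub mc').abs
  have bd : ∀ {u v : ℝ × ℝ → ℝ}, (∀ z, |u z| ≤ M) → (∀ z, |v z| ≤ M) →
      ∀ z, |(|u z - v z|)| ≤ M + M := by
    intro u v hu hv z
    rw [abs_abs]
    exact (abs_sub _ _).trans (add_le_add (hu z) (hv z))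
  have e1 := prod3_fst h0m h1m h2m f0 f1 f2 mda (bd ba ba')
  have e2 := prod3_snd h0m h1m h2m f0 f1 f2 mdb (bd bb bb')
  have e3 := prod3_thd h0m h1m h2m f0 f1 f2 mdc (bd bc bc')
  have i1 : IntegrableOn (fun p : ℝ × ℝ × ℝ => |a (p.1, p.2.1) - a' (p.1, p.2.1)|) (I0 ×ˢ (I1 ×ˢ I2))
      ((volume : Measure ℝ).prod ((volume : Measure ℝ).prod volume)) :=
    integrableOn_of_bdd (mda.comp mf1) hs hfin (fun z _ => bd ba ba' _)
  have i2 : IntegrableOn (fun p : ℝ × ℝ × ℝ => |b (p.2.1, p.2.2) - b' (p.2.1, p.2.2)|)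
      (I0 ×ˢ (I1 ×ˢ I2)) ((volume : Measure ℝ).prod ((volume : Measure ℝ).prod volume)) :=
    integrableOn_of_bdd (mdb.comp mf2) hs hfin (fun z _ => bd bb bb' _)
  have i3 : IntegrableOn (fun p : ℝ × ℝ × ℝ => |c (p.2.2, p.1) - c' (p.2.2, p.1)|)
      (I0 ×ˢ (I1 ×ˢ I2)) ((volume : Measure ℝ).prod ((volume : Measure ℝ).prod volume)) :=
    integrableOn_of_bdd (mdc.comp mf3) hs hfin (fun z _ => bd bc bc' _)
  have i12 : IntegrableOn (fun p : ℝ × ℝ × ℝ => |a (p.1, p.2.1) - a' (p.1, p.2.1)| +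
      |b (p.2.1, p.2.2) - b' (p.2.1, p.2.2)|) (I0 ×ˢ (I1 ×ˢ I2))
      ((volume : Measure ℝ).prod ((volume : Measure ℝ).prod volume)) := i1.add i2
  calc _ ≤ ∫ p in I0 ×ˢ (I1 ×ˢ I2), |Ψ p - Ψ' p|
        ∂((volume : Measure ℝ).prod ((volume : Measure ℝ).prod volume)) :=
        abs_integral_le_integral_abs
    _ ≤ ∫ p in I0 ×ˢ (I1 ×ˢ I2), M ^ 2 * (|a (p.1, p.2.1) - a' (p.1, p.2.1)| +
          |b (p.2.1, p.2.2) - b' (p.2.1, p.2.2)| + |c (p.2.2, p.1) - c' (p.2.2, p.1)|)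
        ∂((volume : Measure ℝ).prod ((volume : Measure ℝ).prod volume)) := by
        refine setIntegral_mono_on (iΨ.sub iΨ').abs ?_ hs ?_
        · exact (i12.add i3).const_mul _
        · intro p _
          have hfac : Ψ p - Ψ' p = (a (p.1, p.2.1) * b (p.2.1, p.2.2) * c (p.2.2, p.1) -
              a' (p.1, p.2.1) * b' (p.2.1, p.2.2) * c' (p.2.2, p.1)) *
                (h0 p.1 * h1 p.2.1 * h2 p.2.2) := by
            simp only [hΨ, hΨ']; ring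
          rw [hfac, abs_mul]
          have hb1 := bh p
          have hb2 := abc_diff (a := a (p.1, p.2.1)) (c' := c' (p.2.2, p.1)) hM
            (bb (p.2.1, p.2.2)) (bc (p.2.2, p.1)) (ba' (p.1, p.2.1)) (bb' (p.2.1, p.2.2))
          calc _ ≤ |a (p.1, p.2.1) * b (p.2.1, p.2.2) * c (p.2.2, p.1) -
                a' (p.1, p.2.1) * b' (p.2.1, p.2.2) * c' (p.2.2, p.1)| * 1 := by gcongr
            _ ≤ _ := by rw [mul_one]; exact hb2
    _ = _ := by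
        rw [integral_const_mul, integral_add i12 i3, integral_add i1 i2, e1, e2, e3]

end Tri

/-! ### Approximation -/

lemma cell_spec {m : ℤ} {x : ℝ} (hx : 0 ≤ x) :
    (2 : ℝ) ^ m * cell m x ≤ x ∧ x < (2 : ℝ) ^ m * (cell m x + 1) := by
  refine ⟨(le_cell_iff hx _).1 le_rfl, ?_⟩
  have := (cell_lt_iff hx (cell m x + 1)).1 (Nat.lt_succ_self _)
  push_cast at this
  exact this

lemma exists_zpow_lt {τ : ℝ} (hτ : 0 < τ) : ∃ m1 : ℤ, ∀ m ≤ m1, (2 : ℝ) ^ m < τ := by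
  obtain ⟨n, hn⟩ := exists_pow_lt_of_lt_one hτ (by norm_num : (1 / 2 : ℝ) < 1)
  refine ⟨-(n : ℤ), fun m hm => lt_of_le_of_lt ?_ hn⟩
  have : (2 : ℝ) ^ m ≤ (2 : ℝ) ^ (-(n : ℤ)) := zpow_le_zpow_right₀ (by norm_num) hm
  refine this.trans (le_of_eq ?_)
  rw [zpow_neg, zpow_natCast, one_div, inv_pow]

lemma sample_close {H : ℝ × ℝ → ℝ} (hH : Continuous H) (K : ℝ) {τ : ℝ} (hτ : 0 < τ) :
    ∃ m1 : ℤ, ∀ m ≤ m1, ∀ z ∈ Ico (0 : ℝ) K ×ˢ Ico (0 : ℝ) K,
      |H z - H ((2 : ℝ) ^ m * cell m z.1, (2 : ℝ) ^ m * cell m z.2)| ≤ τ := by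
  have hC : IsCompact (Icc (0 : ℝ) K ×ˢ Icc (0 : ℝ) K) := isCompact_Icc.prod isCompact_Icc
  have hU := hC.uniformContinuousOn_of_continuous hH.continuousOn
  rw [Metric.uniformContinuousOn_iff] at hU
  obtain ⟨δ, hδ, hU⟩ := hU τ hτ
  obtain ⟨m1, hm1⟩ := exists_zpow_lt hδ
  refine ⟨m1, fun m hm z hz => ?_⟩
  have h1 := cell_spec (m := m) hz.1.1
  have h2 := cell_spec (m := m) hz.2.1
  have hm' := two_zpow_pos m
  have hs : ((2 : ℝ) ^ m * cell m z.1, (2 : ℝ) ^ m * cell m z.2) ∈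
      Icc (0 : ℝ) K ×ˢ Icc (0 : ℝ) K := by
    refine ⟨⟨by positivity, h1.1.trans hz.1.2.le⟩, ⟨by positivity, h2.1.trans hz.2.2.le⟩⟩
  have hz' : z ∈ Icc (0 : ℝ) K ×ˢ Icc (0 : ℝ) K :=
    ⟨⟨hz.1.1, hz.1.2.le⟩, ⟨hz.2.1, hz.2.2.le⟩⟩
  have hd : dist z ((2 : ℝ) ^ m * cell m z.1, (2 : ℝ) ^ m * cell m z.2) < δ := by
    rw [Prod.dist_eq, max_lt_iff, Real.dist_eq, Real.dist_eq]
    have h3 := hm1 m hm
    constructor
    · rw [abs_lt]; constructor <;> simp only [] <;> nlinarith [h1.1, h1.2]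
    · rw [abs_lt]; constructor <;> simp only [] <;> nlinarith [h2.1, h2.2]
  have := hU z hz' _ hs hd
  rw [Real.dist_eq] at this
  exact this.le

lemma abs_sub_clamp_le {u v M : ℝ} (hu : |u| ≤ M) :
    |u - max (-M) (min v M)| ≤ |u - v| := by
  rw [abs_le] at hu
  rcases le_total v M with h | h
  · rw [min_eq_left h]
    rcases le_total (-M) v with h' | h'
    · rw [max_eq_right h']
    · rw [max_eq_left h']
      rw [abs_le]
      have : -M - v ≥ 0 := by linarith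
      constructor
      · have := neg_abs_le (u - v); have := le_abs_self (u - v); linarith
      · have := le_abs_self (u - v); linarith
  · have hM : 0 ≤ M := by linarith
    rw [min_eq_right h, max_eq_right (by linarith)]
    rw [abs_le]
    have h2 := neg_abs_le (u - v)
    constructor
    · linarith
    · have := abs_nonneg (u - v); linarith

lemma integrable_of_bdd_compact {F : ℝ × ℝ → ℝ} (hF : Measurable F) {M : ℝ}
    (hb : ∀ z, |F z| ≤ M) (hc : HasCompactSupport F) : Integrable F volume := by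
  have h : IntegrableOn F (tsupport F) volume :=
    integrableOn_of_bdd hF (isClosed_tsupport F).measurableSet hc.measure_lt_top.ne
      (fun z _ => hb z)
  exact (integrableOn_iff_integrable_of_support_subset (subset_tsupport F)).1 h

/-- Continuous approximation, clamped to the same bound. -/
lemma exists_continuous_approx {F : ℝ × ℝ → ℝ} (hF : Measurable F) {M : ℝ} (hM : 0 ≤ M)
    (hb : ∀ z, |F z| ≤ M) (hc : HasCompactSupport F) {η : ℝ} (hη : 0 < η)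
    (s : Set (ℝ × ℝ)) :
    ∃ H : ℝ × ℝ → ℝ, Continuous H ∧ (∀ z, |H z| ≤ M) ∧ ∫ z in s, |F z - H z| ≤ η := by
  have hI := integrable_of_bdd_compact hF hb hc
  obtain ⟨g, -, hg, gc, gi⟩ := hI.exists_hasCompactSupport_integral_sub_le hη
  refine ⟨fun z => max (-M) (min (g z) M), ?_, ?_, ?_⟩
  · exact continuous_const.max (gc.min continuous_const)
  · intro z
    rw [abs_le]
    constructor
    · exact le_max_left _ _
    · exact max_le (by linarith) (min_le_right _ _)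
  · have hgm : Measurable fun z => |F z - max (-M) (min (g z) M)| :=
      (hF.sub (measurable_const.max (gc.measurable.min measurable_const))).abs
    have hd : ∀ z, |F z - max (-M) (min (g z) M)| ≤ ‖F z - g z‖ := fun z => by
      rw [Real.norm_eq_abs]; exact abs_sub_clamp_le (hb z)
    have hgi : Integrable (fun z => ‖F z - g z‖) volume := (hI.sub gi).norm
    have hI2 : Integrable (fun z => |F z - max (-M) (min (g z) M)|) volume :=
      hgi.mono' hgm.aestronglyMeasurable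
        (Filter.Eventually.of_forall fun z => by simpa using hd z)
    calc ∫ z in s, |F z - max (-M) (min (g z) M)|
        ≤ ∫ z, |F z - max (-M) (min (g z) M)| :=
          setIntegral_le_integral hI2 (Filter.Eventually.of_forall fun _ => abs_nonneg _)
      _ ≤ ∫ z, ‖F z - g z‖ := integral_mono hI2 hgi hd
      _ ≤ η := hg

/-! ### Closeness of local forms -/

lemma measurable_haarSign (k : ℤ) (n : ℕ) : Measurable (haarSign k n) := by
  unfold haarSign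
  exact Measurable.ite measurableSet_Ico measurable_const
    (Measurable.ite measurableSet_Ico measurable_const measurable_const)

lemma abs_haarSign_le (k : ℤ) (n : ℕ) (x : ℝ) : |haarSign k n x| ≤ 1 := by
  unfold haarSign
  split_ifs <;> simp

lemma volume_interval (k : ℤ) (n : ℕ) : (volume (interval k n)).toReal = (2 : ℝ) ^ k := by
  unfold interval
  rw [Real.volume_Ico, ENNReal.toReal_ofReal]
  · ring
  · have := two_zpow_pos k
    nlinarith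

lemma volume_interval_ne_top (k : ℤ) (n : ℕ) : volume (interval k n) ≠ ⊤ := by
  unfold interval
  simp

/-- The integrability needed on a box. -/
lemma integrableOn_box {g : ℝ × ℝ → ℝ} (hg : Measurable g) (L : ℝ) {B : ℝ} (hB : ∀ z, |g z| ≤ B) :
    IntegrableOn g (Ico (0 : ℝ) L ×ˢ Ico (0 : ℝ) L) ((volume : Measure ℝ).prod volume) := by
  refine integrableOn_of_bdd hg (measurableSet_Ico.prod measurableSet_Ico) ?_ (fun z _ => hB z)
  rw [Measure.prod_prod]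
  simp [ENNReal.mul_eq_top]

lemma localForm_close {k : ℤ} {n0 n1 n2 : ℕ} {L : ℝ}
    (h0 : interval k n0 ⊆ Ico 0 L) (h1 : interval k n1 ⊆ Ico 0 L) (h2 : interval k n2 ⊆ Ico 0 L)
    {M : ℝ} (hM : 0 ≤ M) {F0 F1 F2 G0 G1 G2 : ℝ × ℝ → ℝ}
    (mF0 : Measurable F0) (mF1 : Measurable F1) (mF2 : Measurable F2)
    (mG0 : Measurable G0) (mG1 : Measurable G1) (mG2 : Measurable G2)
    (bF0 : ∀ z, |F0 z| ≤ M) (bF1 : ∀ z, |F1 z| ≤ M) (bF2 : ∀ z, |F2 z| ≤ M)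
    (bG0 : ∀ z, |G0 z| ≤ M) (bG1 : ∀ z, |G1 z| ≤ M) (bG2 : ∀ z, |G2 z| ≤ M) :
    |localForm k n0 n1 n2 F0 F1 F2 - localForm k n0 n1 n2 G0 G1 G2| ≤
      M ^ 2 * ((∫ z in Ico (0 : ℝ) L ×ˢ Ico (0 : ℝ) L, |F0 z - G0 z| ∂((volume : Measure ℝ).prod volume)) +
        (∫ z in Ico (0 : ℝ) L ×ˢ Ico (0 : ℝ) L, |F1 z - G1 z| ∂((volume : Measure ℝ).prod volume)) +
        (∫ z in Ico (0 : ℝ) L ×ˢ Ico (0 : ℝ) L, |F2 z - G2 z| ∂((volume : Measure ℝ).prod volume))) := by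
  have hk := two_zpow_pos k
  have hmI : ∀ n, MeasurableSet (interval k n) := fun n => measurableSet_Ico
  have key := tri_diff (I0 := interval k n0) (I1 := interval k n1) (I2 := interval k n2)
    (hmI _) (hmI _) (hmI _) (volume_interval_ne_top _ _) (volume_interval_ne_top _ _)
    (volume_interval_ne_top _ _) hM mF0 mF1 mF2 mG0 mG1 mG2 bF0 bF1 bF2 bG0 bG1 bG2
    (measurable_haarSign k n0) (measurable_haarSign k n1) (measurable_haarSign k n2)
    (abs_haarSign_le k n0) (abs_haarSign_le k n1) (abs_haarSign_le k n2)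
  simp only [volume_interval] at key
  unfold localForm
  rw [← mul_sub, abs_mul, abs_of_pos (by positivity : (0 : ℝ) < (2 : ℝ) ^ (-k))]
  have bd : ∀ {u v : ℝ × ℝ → ℝ}, (∀ z, |u z| ≤ M) → (∀ z, |v z| ≤ M) →
      ∀ z, |(|u z - v z|)| ≤ M + M := by
    intro u v hu hv z
    rw [abs_abs]
    exact (abs_sub _ _).trans (add_le_add (hu z) (hv z))
  have mono : ∀ {u v : ℝ × ℝ → ℝ} {A B : Set ℝ}, Measurable u → Measurable v →
      (∀ z, |u z| ≤ M) → (∀ z, |v z| ≤ M) → A ⊆ Ico 0 L → B ⊆ Ico 0 L →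
      ∫ z in A ×ˢ B, |u z - v z| ∂((volume : Measure ℝ).prod volume) ≤
      ∫ z in Ico (0 : ℝ) L ×ˢ Ico (0 : ℝ) L, |u z - v z| ∂((volume : Measure ℝ).prod volume) := by
    intro u v A B mu mv hu hv hA hB
    refine setIntegral_mono_set (integrableOn_box (mu.sub mv).abs L (bd hu hv))
      (Filter.Eventually.of_forall fun _ => abs_nonneg _) ?_
    exact (Filter.Eventually.of_forall (prod_mono hA hB) :)
  have m0 := mono mF0 mG0 bF0 bG0 h0 h1
  have m1 := mono mF1 mG1 bF1 bG1 h1 h2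
  have m2 := mono mF2 mG2 bF2 bG2 h2 h0
  calc (2 : ℝ) ^ (-k) * _ ≤ (2 : ℝ) ^ (-k) * (M ^ 2 * ((2 : ℝ) ^ k * (∫ z in interval k n0 ×ˢ interval k n1,
          |F0 z - G0 z| ∂((volume : Measure ℝ).prod volume)) +
        (2 : ℝ) ^ k * (∫ z in interval k n1 ×ˢ interval k n2, |F1 z - G1 z| ∂((volume : Measure ℝ).prod volume)) +
        (2 : ℝ) ^ k * (∫ z in interval k n2 ×ˢ interval k n0, |F2 z - G2 z| ∂((volume : Measure ℝ).prod volume)))) := by
        gcongr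
    _ = M ^ 2 * ((∫ z in interval k n0 ×ˢ interval k n1,
          |F0 z - G0 z| ∂((volume : Measure ℝ).prod volume)) +
        (∫ z in interval k n1 ×ˢ interval k n2, |F1 z - G1 z| ∂((volume : Measure ℝ).prod volume)) +
        (∫ z in interval k n2 ×ˢ interval k n0, |F2 z - G2 z| ∂((volume : Measure ℝ).prod volume))) := by
        have : (2 : ℝ) ^ (-k) * (2 : ℝ) ^ k = 1 := by
          rw [← zpow_add₀ (by norm_num)]; simp
        linear_combination (M ^ 2 * ((∫ z in interval k n0 ×ˢ interval k n1,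
          |F0 z - G0 z| ∂((volume : Measure ℝ).prod volume)) +
        (∫ z in interval k n1 ×ˢ interval k n2, |F1 z - G1 z| ∂((volume : Measure ℝ).prod volume)) +
        (∫ z in interval k n2 ×ˢ interval k n0, |F2 z - G2 z| ∂((volume : Measure ℝ).prod volume)))) * this
    _ ≤ _ := by gcongr

/-! ### Sum over the given finite set of triples -/

lemma term_identity (m : ℤ) {d : ℕ} (hd : 1 ≤ d) (l n0 n1 : ℕ) (f0 f1 f2 : ℕ → ℕ → ℝ) :
    |localForm (m + d) n0 n1 (n0 ^^^ n1) (stepF m f0) (stepF m f1) (stepF m f2)| =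
      (4 : ℝ) ^ (m + ((d + l : ℕ) : ℤ)) * (((4 : ℝ) ^ l)⁻¹ * |H d n0 n1 (n0 ^^^ n1) f0 f1 f2|) := by
  rw [localForm_stepF m hd, abs_mul, abs_of_pos (by positivity : (0 : ℝ) < (4 : ℝ) ^ (m + (d : ℤ)))]
  have h : (4 : ℝ) ^ (m + ((d + l : ℕ) : ℤ)) = (4 : ℝ) ^ (m + (d : ℤ)) * (4 : ℝ) ^ l := by
    push_cast
    rw [← add_assoc, zpow_add₀ (by norm_num), zpow_natCast]
  rw [h]
  field_simp

lemma sum_localForm_step_le (m : ℤ) (r : ℕ) (I : Finset (ℤ × ℕ × ℕ))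
    (hK : ∀ i ∈ I, i.1 + i.2.1 + i.2.2 + 1 ≤ m + r) (hm : ∀ i ∈ I, m < i.1)
    (f0 f1 f2 : ℕ → ℕ → ℝ) :
    ∑ i ∈ I, |localForm i.1 i.2.1 i.2.2 (i.2.1 ^^^ i.2.2) (stepF m f0) (stepF m f1) (stepF m f2)| ≤
      (4 : ℝ) ^ (m + (r : ℤ)) * ∑ l ∈ Finset.range r, ∑ n0 ∈ Finset.range (2 ^ l),
        ∑ n1 ∈ Finset.range (2 ^ l), ((4 : ℝ) ^ l)⁻¹ * |H (r - l) n0 n1 (n0 ^^^ n1) f0 f1 f2| := by
  classical
  set g : (Σ _ : ℕ, ℕ × ℕ) → ℝ := fun t =>
    ((4 : ℝ) ^ t.1)⁻¹ * |H (r - t.1) t.2.1 t.2.2 (t.2.1 ^^^ t.2.2) f0 f1 f2| with hg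
  set T : Finset (Σ _ : ℕ, ℕ × ℕ) :=
    (Finset.range r).sigma (fun l => Finset.range (2 ^ l) ×ˢ Finset.range (2 ^ l)) with hT
  have hsum : ∑ l ∈ Finset.range r, ∑ n0 ∈ Finset.range (2 ^ l),
      ∑ n1 ∈ Finset.range (2 ^ l), ((4 : ℝ) ^ l)⁻¹ * |H (r - l) n0 n1 (n0 ^^^ n1) f0 f1 f2| =
      ∑ t ∈ T, g t := by
    rw [hT, Finset.sum_sigma]
    refine Finset.sum_congr rfl fun l _ => ?_
    rw [Finset.sum_product]
  set φ : ℤ × ℕ × ℕ → (Σ _ : ℕ, ℕ × ℕ) := fun i => ⟨(m + r - i.1).toNat, i.2⟩ with hφ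
  have hterm : ∀ i ∈ I, φ i ∈ T ∧
      |localForm i.1 i.2.1 i.2.2 (i.2.1 ^^^ i.2.2) (stepF m f0) (stepF m f1) (stepF m f2)| =
        (4 : ℝ) ^ (m + (r : ℤ)) * g (φ i) := by
    rintro ⟨k, n0, n1⟩ hi
    have h1 := hK _ hi
    have h2 := hm _ hi
    simp only at h1 h2
    obtain ⟨d, rfl⟩ : ∃ d : ℕ, k = m + d := ⟨(k - m).toNat, by omega⟩
    have hd : 1 ≤ d := by omega
    obtain ⟨l, rfl⟩ : ∃ l : ℕ, r = d + l := ⟨r - d, by omega⟩
    have hl : (m + ((d + l : ℕ) : ℤ) - (m + (d : ℤ))).toNat = l := by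
      push_cast; omega
    have hn0 : n0 ≤ l := by push_cast at h1; omega
    have hn1 : n1 ≤ l := by push_cast at h1; omega
    have hll : 1 ≤ l := by push_cast at h1; omega
    constructor
    · simp only [hφ, hT, Finset.mem_sigma, Finset.mem_product, Finset.mem_range, hl]
      refine ⟨by omega, ?_, ?_⟩
      · have : n0 < 2 ^ n0 := Nat.lt_two_pow_self
        calc n0 < 2 ^ n0 := this
          _ ≤ 2 ^ l := Nat.pow_le_pow_right (by norm_num) hn0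
      · have : n1 < 2 ^ n1 := Nat.lt_two_pow_self
        calc n1 < 2 ^ n1 := this
          _ ≤ 2 ^ l := Nat.pow_le_pow_right (by norm_num) hn1
    · simp only [hφ, hg, hl]
      rw [term_identity m hd l n0 n1 f0 f1 f2, Nat.add_sub_cancel]
  have hinj : Set.InjOn φ (I : Set (ℤ × ℕ × ℕ)) := by
    rintro ⟨k, n⟩ hi ⟨k', n'⟩ hi' he
    simp only [hφ, Sigma.mk.injEq, heq_eq_eq] at he
    have h1 := hK _ hi
    have h1' := hK _ hi'
    simp only at h1 h1'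
    have hk : k = k' := by omega
    rw [hk, he.2]
  calc ∑ i ∈ I, |localForm i.1 i.2.1 i.2.2 (i.2.1 ^^^ i.2.2) (stepF m f0) (stepF m f1) (stepF m f2)|
      = ∑ i ∈ I, (4 : ℝ) ^ (m + (r : ℤ)) * g (φ i) :=
        Finset.sum_congr rfl fun i hi => (hterm i hi).2
    _ = (4 : ℝ) ^ (m + (r : ℤ)) * ∑ t ∈ I.image φ, g t := by
        rw [Finset.sum_image hinj, Finset.mul_sum]
    _ ≤ (4 : ℝ) ^ (m + (r : ℤ)) * ∑ t ∈ T, g t := by
        refine mul_le_mul_of_nonneg_left ?_ (by positivity)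
        refine Finset.sum_le_sum_of_subset_of_nonneg ?_ (fun t _ _ => by simp only [hg]; positivity)
        intro t ht
        obtain ⟨i, hi, rfl⟩ := Finset.mem_image.1 ht
        exact (hterm i hi).1
    _ = _ := by rw [hsum]


/-! ### The main step -/

lemma cube_diff {M a b : ℝ} (ha : |a| ≤ M) (hb : |b| ≤ M) :
    |b| ^ 3 ≤ |a| ^ 3 + 3 * M ^ 2 * |a - b| := by
  have hM : 0 ≤ M := (abs_nonneg _).trans ha
  have h1 : |b| ≤ |a| + |a - b| := by
    have := abs_sub_abs_le_abs_sub b a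
    rw [abs_sub_comm b a] at this
    linarith
  have hu := abs_nonneg a
  have hv := abs_nonneg b
  have hw := abs_nonneg (a - b)
  -- `|b|³ - |a|³ = (|b| - |a|)(|b|² + |b||a| + |a|²) ≤ |a-b| · 3M²`
  by_cases hc : |b| ≤ |a|
  · have : |b| ^ 3 ≤ |a| ^ 3 := by gcongr
    have : 0 ≤ 3 * M ^ 2 * |a - b| := by positivity
    linarith
  · rw [not_le] at hc
    have e : |b| ^ 3 - |a| ^ 3 = (|b| - |a|) * (|b| ^ 2 + |b| * |a| + |a| ^ 2) := by ring
    have h2 : |b| ^ 2 + |b| * |a| + |a| ^ 2 ≤ 3 * M ^ 2 := by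
      have : |b| ^ 2 ≤ M ^ 2 := by gcongr
      have : |a| ^ 2 ≤ M ^ 2 := by gcongr
      have : |b| * |a| ≤ M * M := mul_le_mul hb ha hu hM
      nlinarith
    have h3 : |b| - |a| ≤ |a - b| := by linarith
    have h4 : (|b| - |a|) * (|b| ^ 2 + |b| * |a| + |a| ^ 2) ≤ |a - b| * (3 * M ^ 2) := by
      apply mul_le_mul h3 h2 (by positivity) hw
    nlinarith

/-- The main approximation step. -/
lemma key_step {C : ℝ} (hC0 : 0 ≤ C) (hD : DiscreteBound C)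
    {F0 F1 F2 : ℝ × ℝ → ℝ} (hF0 : Measurable F0) (hF1 : Measurable F1) (hF2 : Measurable F2)
    {M : ℝ} (hM : 0 ≤ M) (b0 : ∀ z, |F0 z| ≤ M) (b1 : ∀ z, |F1 z| ≤ M) (b2 : ∀ z, |F2 z| ≤ M)
    (c0 : HasCompactSupport F0) (c1 : HasCompactSupport F1) (c2 : HasCompactSupport F2)
    (I : Finset (ℤ × ℕ × ℕ)) {δ : ℝ} (hδ : 0 < δ) :
    ∑ i ∈ I, |localForm i.1 i.2.1 i.2.2 (i.2.1 ^^^ i.2.2) F0 F1 F2| ≤
      3 * C * (((∫ z in Ici (0 : ℝ) ×ˢ Ici (0 : ℝ), |F0 z| ^ 3) + δ) ^ ((1 : ℝ) / 3) *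
        ((∫ z in Ici (0 : ℝ) ×ˢ Ici (0 : ℝ), |F1 z| ^ 3) + δ) ^ ((1 : ℝ) / 3) *
        ((∫ z in Ici (0 : ℝ) ×ˢ Ici (0 : ℝ), |F2 z| ^ 3) + δ) ^ ((1 : ℝ) / 3)) + δ := by
  classical
  -- the root scale and the lower scale
  obtain ⟨K, hK⟩ : ∃ K : ℤ, ∀ i ∈ I, i.1 + i.2.1 + i.2.2 + 1 ≤ K := by
    obtain ⟨K, hK⟩ := (I.image fun i => i.1 + (i.2.1 : ℤ) + (i.2.2 : ℤ) + 1).bddAbove
    exact ⟨K, fun i hi => hK (Finset.mem_coe.2 (Finset.mem_image_of_mem _ hi))⟩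
  obtain ⟨m0, hm0⟩ : ∃ m0 : ℤ, ∀ i ∈ I, m0 < i.1 := by
    obtain ⟨b, hb⟩ := (I.image fun i => i.1).bddBelow
    refine ⟨b - 1, fun i hi => ?_⟩
    have : b ≤ i.1 := hb (Finset.mem_coe.2 (Finset.mem_image_of_mem (fun i => i.1) hi))
    omega
  set L : ℝ := (2 : ℝ) ^ K with hL
  have hLpos : 0 < L := by positivity
  set box : Set (ℝ × ℝ) := Ico (0 : ℝ) L ×ˢ Ico (0 : ℝ) L with hbox
  have hboxm : MeasurableSet box := measurableSet_Ico.prod measurableSet_Ico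
  set ν : Measure (ℝ × ℝ) := (volume : Measure ℝ).prod volume with hν
  have hνv : ν = volume := (Measure.volume_eq_prod ℝ ℝ).symm
  have hνbox : (ν box).toReal = L * L := by
    rw [hν, hbox, Measure.prod_prod, Real.volume_Ico, ENNReal.toReal_mul,
      ENNReal.toReal_ofReal (by linarith)]
    simp
  have hνfin : ν box ≠ ⊤ := by
    rw [hν, hbox, Measure.prod_prod]
    simp [ENNReal.mul_eq_top]
  set cardI : ℝ := (I.card : ℝ) with hcard
  have hcard0 : 0 ≤ cardI := by positivity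
  set η : ℝ := δ / ((cardI + 1) * 3 * (M ^ 2 + 1)) with hη
  have hηpos : 0 < η := by positivity
  have hηD : η * ((cardI + 1) * 3 * (M ^ 2 + 1)) = δ := div_mul_cancel₀ δ (by positivity)
  set τ : ℝ := η / (2 * (L * L + 1)) with hτ
  have hτpos : 0 < τ := by positivity
  have hτV : τ * (L * L) ≤ η / 2 := by
    rw [hτ, div_mul_eq_mul_div, div_le_div_iff₀ (by positivity) (by norm_num)]
    nlinarith [mul_pos hLpos hLpos]
  -- continuous approximants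
  obtain ⟨H0, cH0, bH0, iH0⟩ := exists_continuous_approx hF0 hM b0 c0 (half_pos hηpos) box
  obtain ⟨H1, cH1, bH1, iH1⟩ := exists_continuous_approx hF1 hM b1 c1 (half_pos hηpos) box
  obtain ⟨H2, cH2, bH2, iH2⟩ := exists_continuous_approx hF2 hM b2 c2 (half_pos hηpos) box
  obtain ⟨m1, hm1⟩ := sample_close cH0 L hτpos
  obtain ⟨m2, hm2⟩ := sample_close cH1 L hτpos
  obtain ⟨m3, hm3⟩ := sample_close cH2 L hτpos
  -- the fine scale
  set m : ℤ := min (min m0 K) (min m1 (min m2 m3)) with hm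
  have hmm0 : m ≤ m0 := (min_le_left _ _).trans (min_le_left _ _)
  have hmK : m ≤ K := (min_le_left _ _).trans (min_le_right _ _)
  have hmm1 : m ≤ m1 := (min_le_right _ _).trans (min_le_left _ _)
  have hmm2 : m ≤ m2 := (min_le_right _ _).trans ((min_le_right _ _).trans (min_le_left _ _))
  have hmm3 : m ≤ m3 := (min_le_right _ _).trans ((min_le_right _ _).trans (min_le_right _ _))
  obtain ⟨r, hr⟩ : ∃ r : ℕ, K = m + r := ⟨(K - m).toNat, by omega⟩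
  -- the step functions
  set samp : (ℝ × ℝ → ℝ) → ℕ → ℕ → ℝ := fun H c c' => H ((2 : ℝ) ^ m * c, (2 : ℝ) ^ m * c') with hsamp
  have hsampclose : ∀ {H F : ℝ × ℝ → ℝ}, Measurable F → Continuous H → (∀ z, |F z| ≤ M) →
      (∀ z, |H z| ≤ M) →
      (∀ z ∈ box, |H z - H ((2 : ℝ) ^ m * cell m z.1, (2 : ℝ) ^ m * cell m z.2)| ≤ τ) →
      ∫ z in box, |F z - H z| ≤ η / 2 →
      ∫ z in box, |F z - stepF m (samp H) z| ∂ν ≤ η := by
    intro H F mF cH bF bH hclose hint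
    have mG : Measurable (stepF m (samp H)) := measurable_stepF _ _
    have bG : ∀ z, |stepF m (samp H) z| ≤ M := fun z => bH _
    have bd1 : ∀ z, |(|F z - H z|)| ≤ M + M := fun z => by
      rw [abs_abs]; exact (abs_sub _ _).trans (add_le_add (bF z) (bH z))
    have bd2 : ∀ z, |(|H z - stepF m (samp H) z|)| ≤ M + M := fun z => by
      rw [abs_abs]; exact (abs_sub _ _).trans (add_le_add (bH z) (bG z))
    have i1 : IntegrableOn (fun z => |F z - H z|) box ν :=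
      integrableOn_of_bdd (mF.sub cH.measurable).abs hboxm hνfin (fun z _ => bd1 z)
    have i2 : IntegrableOn (fun z => |H z - stepF m (samp H) z|) box ν :=
      integrableOn_of_bdd (cH.measurable.sub mG).abs hboxm hνfin (fun z _ => bd2 z)
    have i3 : IntegrableOn (fun z => |F z - stepF m (samp H) z|) box ν := by
      refine integrableOn_of_bdd (mF.sub mG).abs hboxm hνfin (B := M + M) (fun z _ => ?_)
      rw [abs_abs]; exact (abs_sub _ _).trans (add_le_add (bF z) (bG z))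
    have i4 : IntegrableOn (fun _ : ℝ × ℝ => τ) box ν := integrableOn_const hνfin
    have e1 : ∫ z in box, |H z - stepF m (samp H) z| ∂ν ≤ τ * (L * L) := by
      calc ∫ z in box, |H z - stepF m (samp H) z| ∂ν ≤ ∫ _ in box, τ ∂ν :=
            setIntegral_mono_on i2 i4 hboxm hclose
        _ = τ * (L * L) := by
            rw [setIntegral_const, smul_eq_mul, MeasureTheory.measureReal_def, hνbox]; ring
    calc ∫ z in box, |F z - stepF m (samp H) z| ∂ν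
        ≤ ∫ z in box, (|F z - H z| + |H z - stepF m (samp H) z|) ∂ν := by
          refine setIntegral_mono_on i3 (i1.add i2) hboxm (fun z _ => ?_)
          exact abs_sub_le _ _ _
      _ = (∫ z in box, |F z - H z| ∂ν) + ∫ z in box, |H z - stepF m (samp H) z| ∂ν :=
          integral_add i1 i2
      _ ≤ η / 2 + η / 2 := by
          refine add_le_add ?_ (e1.trans hτV)
          rw [hνv]; exact hint
      _ = η := by ring
  set f0 := samp H0 with hf0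
  set f1 := samp H1 with hf1
  set f2 := samp H2 with hf2
  have L0 := hsampclose hF0 cH0 b0 bH0 (hm1 m hmm1) iH0
  have L1 := hsampclose hF1 cH1 b1 bH1 (hm2 m hmm2) iH1
  have L2 := hsampclose hF2 cH2 b2 bH2 (hm3 m hmm3) iH2
  have mG0 := measurable_stepF m f0
  have mG1 := measurable_stepF m f1
  have mG2 := measurable_stepF m f2
  have bG0 : ∀ z, |stepF m f0 z| ≤ M := fun z => bH0 _
  have bG1 : ∀ z, |stepF m f1 z| ≤ M := fun z => bH1 _
  have bG2 : ∀ z, |stepF m f2 z| ≤ M := fun z => bH2 _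
  -- closeness of the local forms
  have hM2 : M ^ 2 * (η + η + η) * cardI ≤ δ := by
    have hMsq : 0 ≤ M ^ 2 := by positivity
    have h1 : M ^ 2 * 3 * cardI ≤ (cardI + 1) * 3 * (M ^ 2 + 1) := by nlinarith
    calc M ^ 2 * (η + η + η) * cardI = η * (M ^ 2 * 3 * cardI) := by ring
      _ ≤ η * ((cardI + 1) * 3 * (M ^ 2 + 1)) := mul_le_mul_of_nonneg_left h1 hηpos.le
      _ = δ := hηD
  have hclose : ∀ i ∈ I, |localForm i.1 i.2.1 i.2.2 (i.2.1 ^^^ i.2.2) F0 F1 F2| ≤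
      |localForm i.1 i.2.1 i.2.2 (i.2.1 ^^^ i.2.2) (stepF m f0) (stepF m f1) (stepF m f2)| +
        M ^ 2 * (η + η + η) := by
    rintro ⟨k, n0, n1⟩ hi
    simp only
    have h1 := hK _ hi
    have h2 := hm0 _ hi
    simp only at h1 h2
    have hsub : ∀ n : ℕ, n + 1 ≤ 2 ^ (K - k).toNat → interval k n ⊆ Ico 0 L := by
      intro n hn x hx
      unfold interval at hx
      have hk := two_zpow_pos k
      refine ⟨le_trans (by positivity) hx.1, hx.2.trans_le ?_⟩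
      have e : L = (2 : ℝ) ^ k * ((2 : ℝ) ^ (K - k).toNat) := by
        rw [hL, ← zpow_natCast, ← zpow_add₀ (by norm_num)]
        congr 1
        have : 0 ≤ K - k := by omega
        rw [Int.toNat_of_nonneg this]; ring
      rw [e]
      have : ((n + 1 : ℕ) : ℝ) ≤ ((2 ^ (K - k).toNat : ℕ) : ℝ) := by exact_mod_cast hn
      push_cast at this
      gcongr
    set l := (K - k).toNat with hl
    have hlz : (l : ℤ) = K - k := Int.toNat_of_nonneg (by omega)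
    have hn0 : n0 + 1 ≤ l := by omega
    have hn1 : n1 + 1 ≤ l := by omega
    have lt2 : ∀ n, n + 1 ≤ l → n < 2 ^ l := fun n hn =>
      lt_of_lt_of_le Nat.lt_two_pow_self (Nat.pow_le_pow_right (by norm_num) (by omega))
    have s0 : interval k n0 ⊆ Ico 0 L := hsub n0 (lt2 n0 hn0)
    have s1 : interval k n1 ⊆ Ico 0 L := hsub n1 (lt2 n1 hn1)
    have s2 : interval k (n0 ^^^ n1) ⊆ Ico 0 L :=
      hsub _ (Nat.xor_lt_two_pow (lt2 n0 hn0) (lt2 n1 hn1))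
    have key := localForm_close s0 s1 s2 hM hF0 hF1 hF2 mG0 mG1 mG2 b0 b1 b2 bG0 bG1 bG2
    have hsumL : (∫ z in Ico (0 : ℝ) L ×ˢ Ico (0 : ℝ) L, |F0 z - stepF m f0 z| ∂ν) +
        (∫ z in Ico (0 : ℝ) L ×ˢ Ico (0 : ℝ) L, |F1 z - stepF m f1 z| ∂ν) +
        (∫ z in Ico (0 : ℝ) L ×ˢ Ico (0 : ℝ) L, |F2 z - stepF m f2 z| ∂ν) ≤ η + η + η :=
      add_le_add (add_le_add L0 L1) L2
    have hmul := mul_le_mul_of_nonneg_left hsumL (sq_nonneg M)
    have := abs_sub_abs_le_abs_sub (localForm k n0 n1 (n0 ^^^ n1) F0 F1 F2)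
      (localForm k n0 n1 (n0 ^^^ n1) (stepF m f0) (stepF m f1) (stepF m f2))
    linarith
  -- the norms of the step functions
  have hbound : ∀ {F G : ℝ × ℝ → ℝ}, Measurable F → Measurable G → (∀ z, |F z| ≤ M) →
      (∀ z, |G z| ≤ M) → HasCompactSupport F →
      ∫ z in box, |F z - G z| ∂ν ≤ η →
      ∫ z in box, |G z| ^ 3 ∂ν ≤ (∫ z in Ici (0 : ℝ) ×ˢ Ici (0 : ℝ), |F z| ^ 3) + δ := by
    intro F G mF mG bF bG cF hFG
    have hcube : Measurable fun z => |F z| ^ 3 := mF.abs.pow_const 3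
    have hcubeb : ∀ z, |(|F z| ^ 3)| ≤ M ^ 3 := fun z => by
      rw [abs_of_nonneg (by positivity)]
      have := bF z
      gcongr
    have hcubeG : Measurable fun z => |G z| ^ 3 := mG.abs.pow_const 3
    have hcubeGb : ∀ z, |(|G z| ^ 3)| ≤ M ^ 3 := fun z => by
      rw [abs_of_nonneg (by positivity)]
      have := bG z
      gcongr
    have i1 : IntegrableOn (fun z => |F z| ^ 3) box ν :=
      integrableOn_of_bdd hcube hboxm hνfin (fun z _ => hcubeb z)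
    have i2 : IntegrableOn (fun z => |G z| ^ 3) box ν :=
      integrableOn_of_bdd hcubeG hboxm hνfin (fun z _ => hcubeGb z)
    have i3 : IntegrableOn (fun z => |F z - G z|) box ν := by
      refine integrableOn_of_bdd (mF.sub mG).abs hboxm hνfin (B := M + M) (fun z _ => ?_)
      rw [abs_abs]; exact (abs_sub _ _).trans (add_le_add (bF z) (bG z))
    have hsubs : ∫ z in box, |F z| ^ 3 ∂ν ≤ ∫ z in Ici (0 : ℝ) ×ˢ Ici (0 : ℝ), |F z| ^ 3 := by
      have hI : Integrable (fun z => |F z| ^ 3) (volume : Measure (ℝ × ℝ)) := by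
        refine integrable_of_bdd_compact hcube hcubeb ?_
        have : (fun z => |F z| ^ 3) = (fun t : ℝ => |t| ^ 3) ∘ F := rfl
        rw [this]
        exact cF.comp_left (by simp)
      rw [hνv]
      refine setIntegral_mono_set hI.integrableOn
        (Filter.Eventually.of_forall fun _ => by positivity) ?_
      refine Filter.Eventually.of_forall ?_
      rintro z ⟨h1, h2⟩
      exact ⟨h1.1, h2.1⟩
    calc ∫ z in box, |G z| ^ 3 ∂ν
        ≤ ∫ z in box, (|F z| ^ 3 + 3 * M ^ 2 * |F z - G z|) ∂ν :=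
          setIntegral_mono_on i2 (i1.add (i3.const_mul _)) hboxm
            (fun z _ => cube_diff (bF z) (bG z))
      _ = (∫ z in box, |F z| ^ 3 ∂ν) + 3 * M ^ 2 * ∫ z in box, |F z - G z| ∂ν := by
          rw [integral_add i1 (i3.const_mul _), integral_const_mul]
      _ ≤ (∫ z in Ici (0 : ℝ) ×ˢ Ici (0 : ℝ), |F z| ^ 3) + 3 * M ^ 2 * η := by
          gcongr
      _ ≤ _ := by
          have hMsq : 0 ≤ M ^ 2 := by positivity
          have h1 : 3 * M ^ 2 ≤ (cardI + 1) * 3 * (M ^ 2 + 1) := by nlinarith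
          have h3 : 3 * M ^ 2 * η ≤ δ := by
            calc 3 * M ^ 2 * η = η * (3 * M ^ 2) := by ring
              _ ≤ η * ((cardI + 1) * 3 * (M ^ 2 + 1)) := mul_le_mul_of_nonneg_left h1 hηpos.le
              _ = δ := hηD
          linarith
  set a0 := ∫ z in Ici (0 : ℝ) ×ˢ Ici (0 : ℝ), |F0 z| ^ 3 with ha0
  set a1 := ∫ z in Ici (0 : ℝ) ×ˢ Ici (0 : ℝ), |F1 z| ^ 3 with ha1
  set a2 := ∫ z in Ici (0 : ℝ) ×ˢ Ici (0 : ℝ), |F2 z| ^ 3 with ha2
  have a0nn : 0 ≤ a0 := setIntegral_nonneg (measurableSet_Ici.prod measurableSet_Ici)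
    (fun _ _ => by positivity)
  have a1nn : 0 ≤ a1 := setIntegral_nonneg (measurableSet_Ici.prod measurableSet_Ici)
    (fun _ _ => by positivity)
  have a2nn : 0 ≤ a2 := setIntegral_nonneg (measurableSet_Ici.prod measurableSet_Ici)
    (fun _ _ => by positivity)
  have hG0 := hbound hF0 mG0 b0 bG0 c0 L0
  have hG1 := hbound hF1 mG1 b1 bG1 c1 L1
  have hG2 := hbound hF2 mG2 b2 bG2 c2 L2
  -- evaluate the masses
  have hmass : ∀ f : ℕ → ℕ → ℝ, ∫ z in box, |stepF m f z| ^ 3 ∂ν = (4 : ℝ) ^ K * TriH.M r f := by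
    intro f
    have := integral_box_stepF m r f
    rw [← hr] at this
    rw [hνv]
    exact this
  -- the constant
  set c : ℝ := ((4 : ℝ) ^ K) ^ ((1 : ℝ) / 3) with hc
  have hcpos : 0 < c := by positivity
  have hc3 : c ^ 3 = (4 : ℝ) ^ K := by
    rw [hc, ← Real.rpow_natCast, ← Real.rpow_mul (by positivity)]
    norm_num
  have cube_root : ∀ {a : ℝ}, 0 ≤ a → ((a + δ) ^ ((1 : ℝ) / 3)) ^ 3 = a + δ := by
    intro a ha
    rw [← Real.rpow_natCast, ← Real.rpow_mul (by positivity)]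
    norm_num
  have hNj : ∀ {a : ℝ} {f : ℕ → ℕ → ℝ}, 0 ≤ a → ∫ z in box, |stepF m f z| ^ 3 ∂ν ≤ a + δ →
      TriH.M r f ≤ ((a + δ) ^ ((1 : ℝ) / 3) / c) ^ 3 := by
    intro a f ha hle
    rw [div_pow, cube_root ha, hc3, le_div_iff₀ (by positivity), mul_comm]
    rw [hmass] at hle
    exact hle
  have hN0 := hNj a0nn hG0
  have hN1 := hNj a1nn hG1
  have hN2 := hNj a2nn hG2
  have pos : ∀ {a : ℝ}, 0 ≤ a → 0 < (a + δ) ^ ((1 : ℝ) / 3) / c := fun {a} ha => by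
    have : 0 < a + δ := by linarith
    positivity
  have hdisc := discrete_prod hC0 hD r f0 f1 f2 (pos a0nn) (pos a1nn) (pos a2nn) hN0 hN1 hN2
  have hsumG := sum_localForm_step_le m r I
    (fun i hi => by rw [← hr]; exact hK i hi)
    (fun i hi => lt_of_le_of_lt hmm0 (hm0 i hi)) f0 f1 f2
  rw [← hr] at hsumG
  have hfinal : (4 : ℝ) ^ K * (3 * C * ((a0 + δ) ^ ((1 : ℝ) / 3) / c * ((a1 + δ) ^ ((1 : ℝ) / 3) / c) *
      ((a2 + δ) ^ ((1 : ℝ) / 3) / c))) =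
      3 * C * ((a0 + δ) ^ ((1 : ℝ) / 3) * (a1 + δ) ^ ((1 : ℝ) / 3) * (a2 + δ) ^ ((1 : ℝ) / 3)) := by
    rw [← hc3]
    field_simp
  have h4pos : (0 : ℝ) < (4 : ℝ) ^ K := by positivity
  calc ∑ i ∈ I, |localForm i.1 i.2.1 i.2.2 (i.2.1 ^^^ i.2.2) F0 F1 F2|
      ≤ ∑ i ∈ I, (|localForm i.1 i.2.1 i.2.2 (i.2.1 ^^^ i.2.2) (stepF m f0) (stepF m f1) (stepF m f2)| +
          M ^ 2 * (η + η + η)) := Finset.sum_le_sum hclose
    _ = ∑ i ∈ I, |localForm i.1 i.2.1 i.2.2 (i.2.1 ^^^ i.2.2) (stepF m f0) (stepF m f1) (stepF m f2)| +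
          M ^ 2 * (η + η + η) * cardI := by
        rw [Finset.sum_add_distrib, Finset.sum_const, nsmul_eq_mul]
        ring
    _ ≤ (4 : ℝ) ^ K * (3 * C * ((a0 + δ) ^ ((1 : ℝ) / 3) / c * ((a1 + δ) ^ ((1 : ℝ) / 3) / c) *
          ((a2 + δ) ^ ((1 : ℝ) / 3) / c))) + δ := by
        refine add_le_add (hsumG.trans ?_) hM2
        exact mul_le_mul_of_nonneg_left hdisc h4pos.le
    _ = _ := by rw [hfinal]

/-- The final reduction of S0097 to the discrete statement. -/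
theorem result_of_discrete {C : ℝ} (hC0 : 0 ≤ C) (hC : C ≤ 40 / 3) (hD : DiscreteBound C)
    (F₀ F₁ F₂ : ℝ × ℝ → ℝ) (hF₀ : Measurable F₀) (hF₁ : Measurable F₁) (hF₂ : Measurable F₂)
    (hb : ∃ M : ℝ, ∀ z, abs (F₀ z) ≤ M ∧ abs (F₁ z) ≤ M ∧ abs (F₂ z) ≤ M)
    (hc₀ : HasCompactSupport F₀) (hc₁ : HasCompactSupport F₁) (hc₂ : HasCompactSupport F₂)
    (𝓘 : Finset (ℤ × ℕ × ℕ)) :
    ∑ i ∈ 𝓘, abs (Crest.AnalysisR.TriangularDyadic.localForm i.1 i.2.1 i.2.2 (i.2.1 ^^^ i.2.2) F₀ F₁ F₂) ≤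
      40 * (∫ z in Set.Ici 0 ×ˢ Set.Ici 0, abs (F₀ z) ^ 3) ^ (1 / 3 : ℝ) *
        (∫ z in Set.Ici 0 ×ˢ Set.Ici 0, abs (F₁ z) ^ 3) ^ (1 / 3 : ℝ) *
        (∫ z in Set.Ici 0 ×ˢ Set.Ici 0, abs (F₂ z) ^ 3) ^ (1 / 3 : ℝ) := by
  obtain ⟨M, hM⟩ := hb
  have hM0 : 0 ≤ M := (abs_nonneg _).trans (hM (0, 0)).1
  set a0 := ∫ z in Set.Ici (0 : ℝ) ×ˢ Set.Ici (0 : ℝ), |F₀ z| ^ 3 with ha0
  set a1 := ∫ z in Set.Ici (0 : ℝ) ×ˢ Set.Ici (0 : ℝ), |F₁ z| ^ 3 with ha1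
  set a2 := ∫ z in Set.Ici (0 : ℝ) ×ˢ Set.Ici (0 : ℝ), |F₂ z| ^ 3 with ha2
  have hk : ∀ δ : ℝ, 0 < δ → ∑ i ∈ 𝓘, |localForm i.1 i.2.1 i.2.2 (i.2.1 ^^^ i.2.2) F₀ F₁ F₂| ≤
      3 * C * ((a0 + δ) ^ ((1 : ℝ) / 3) * (a1 + δ) ^ ((1 : ℝ) / 3) * (a2 + δ) ^ ((1 : ℝ) / 3)) + δ :=
    fun δ hδ => key_step hC0 hD hF₀ hF₁ hF₂ hM0 (fun z => (hM z).1) (fun z => (hM z).2.1)
      (fun z => (hM z).2.2) hc₀ hc₁ hc₂ 𝓘 hδ
  have hcont : Continuous fun δ : ℝ =>
      3 * C * ((a0 + δ) ^ ((1 : ℝ) / 3) * (a1 + δ) ^ ((1 : ℝ) / 3) * (a2 + δ) ^ ((1 : ℝ) / 3)) + δ := by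
    have hp : ∀ a : ℝ, Continuous fun δ : ℝ => (a + δ) ^ ((1 : ℝ) / 3) := fun a =>
      (continuous_const.add continuous_id).rpow_const (fun _ => Or.inr (by norm_num))
    exact (continuous_const.mul (((hp a0).mul (hp a1)).mul (hp a2))).add continuous_id
  have hlim : ∑ i ∈ 𝓘, |localForm i.1 i.2.1 i.2.2 (i.2.1 ^^^ i.2.2) F₀ F₁ F₂| ≤
      3 * C * ((a0 + 0) ^ ((1 : ℝ) / 3) * (a1 + 0) ^ ((1 : ℝ) / 3) * (a2 + 0) ^ ((1 : ℝ) / 3)) + 0 := by
    have ht := hcont.tendsto' 0 _ rfl |>.mono_left (nhdsWithin_le_nhds (s := Set.Ioi (0 : ℝ)))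
    refine ge_of_tendsto ht ?_
    filter_upwards [self_mem_nhdsWithin] with δ hδ
    exact hk δ hδ
  simp only [add_zero] at hlim
  have hnn : 0 ≤ a0 ^ ((1 : ℝ) / 3) * a1 ^ ((1 : ℝ) / 3) * a2 ^ ((1 : ℝ) / 3) := by
    have a0nn : 0 ≤ a0 := setIntegral_nonneg (measurableSet_Ici.prod measurableSet_Ici)
      (fun _ _ => by positivity)
    have a1nn : 0 ≤ a1 := setIntegral_nonneg (measurableSet_Ici.prod measurableSet_Ici)
      (fun _ _ => by positivity)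
    have a2nn : 0 ≤ a2 := setIntegral_nonneg (measurableSet_Ici.prod measurableSet_Ici)
      (fun _ _ => by positivity)
    positivity
  calc _ ≤ 3 * C * (a0 ^ ((1 : ℝ) / 3) * a1 ^ ((1 : ℝ) / 3) * a2 ^ ((1 : ℝ) / 3)) := hlim
    _ ≤ 40 * (a0 ^ ((1 : ℝ) / 3) * a1 ^ ((1 : ℝ) / 3) * a2 ^ ((1 : ℝ) / 3)) := by
        apply mul_le_mul_of_nonneg_right _ hnn
        linarith
    _ = _ := by ring

end Crest.Agent.TriH
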