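import Mathlib
import Crest.Agent.TriH.Energy
import Crest.Agent.TriH.Reduce

/-!
# The even tree: from the local inequality on matrices to `DiscreteBound`

`mat f d n n'` is the normalised block matrix of `f` on the blocks of width `2^d`
(zero outside the blocks); the even children of a block triple are obtained by
`cld σ σ' d d' A = ½ diag(1+σ d) A diag(1+σ' d')`.
-/

set_option autoImplicit false

namespace Crest.Agent.TriH

open Matrix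

set_option linter.unusedSectionVars false

section Swap

variable {m n : Type*} [Fintype m] [DecidableEq m] [Fintype n] [DecidableEq n]

/-- If `Tr WᴴW = 0` then `W = 0`. -/
lemma eq_zero_of_rtr_self {W : Matrix m n ℝ} (h : trace (Wᴴ * W) = 0) : W = 0 :=
  (Matrix.trace_conjTranspose_mul_self_eq_zero_iff).1 h

/-- Intertwining of the roots: `rt(AAᴴ) A = A rt(AᴴA)`. -/
lemma rt_intertwine (A : Matrix m n ℝ) : rt (A * Aᴴ) * A = A * rt (Aᴴ * A) := by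
  have hQ : (A * Aᴴ).PosSemidef := posSemidef_self_mul_conjTranspose A
  have hP : (Aᴴ * A).PosSemidef := posSemidef_conjTranspose_mul_self A
  set Q := rt (A * Aᴴ) with hQd
  set P := rt (Aᴴ * A) with hPd
  have hQ' : Q.PosSemidef := rt_psd hQ
  have hP' : P.PosSemidef := rt_psd hP
  have hQQ : Q * Q = A * Aᴴ := rt_mul_self hQ
  have hPP : P * P = Aᴴ * A := rt_mul_self hP
  have hQh : Qᴴ = Q := hQ'.1.eq
  have hPh : Pᴴ = P := hP'.1.eq
  set W := Q * A - A * P with hW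
  have hsyl : Q * W + W * P = 0 := by
    have : Q * W + W * P = Q * Q * A - A * (P * P) := by
      rw [hW, Matrix.mul_sub, Matrix.sub_mul]
      simp only [Matrix.mul_assoc]
      abel
    rw [this, hQQ, hPP]; simp [Matrix.mul_assoc]
  -- `Tr Wᴴ Q W + Tr W P Wᴴ = 0`, both nonnegative.
  have h1 : 0 ≤ (trace (Wᴴ * Q * W)) := by
    have := (hQ'.conjTranspose_mul_mul_same W).trace_nonneg
    simpa using this
  have h2 : 0 ≤ (trace (W * P * Wᴴ)) := by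
    have := (hP'.mul_mul_conjTranspose_same W).trace_nonneg
    simpa using this
  have hsum : trace (Wᴴ * Q * W) + trace (W * P * Wᴴ) = 0 := by
    have e : trace (W * P * Wᴴ) = trace (Wᴴ * (W * P)) := by
      rw [Matrix.trace_mul_comm]
    rw [e, Matrix.mul_assoc, ← trace_add, ← Matrix.mul_add, hsyl]
    simp
  have h1' : trace (Wᴴ * Q * W) = 0 := by linarith
  have h2' : trace (W * P * Wᴴ) = 0 := by linarith
  -- hence `QW = 0` and `WP = 0`.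
  obtain ⟨S, hS, hSS⟩ := exists_psd_sqrt hQ'
  obtain ⟨T, hT, hTT⟩ := exists_psd_sqrt hP'
  have hSW : S * W = 0 := by
    apply eq_zero_of_rtr_self
    rw [conjTranspose_mul, hS.1.eq]
    have : Wᴴ * S * (S * W) = Wᴴ * (S * S) * W := by simp only [Matrix.mul_assoc]
    rw [this, hSS, h1']
  have hWT : T * Wᴴ = 0 := by
    apply eq_zero_of_rtr_self
    rw [conjTranspose_mul, hT.1.eq, conjTranspose_conjTranspose]
    have : W * T * (T * Wᴴ) = W * (T * T) * Wᴴ := by simp only [Matrix.mul_assoc]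
    rw [this, hTT, h2']
  have hQW : Q * W = 0 := by rw [← hSS, Matrix.mul_assoc, hSW, Matrix.mul_zero]
  have hWP : W * P = 0 := by
    have : P * Wᴴ = 0 := by rw [← hTT, Matrix.mul_assoc, hWT, Matrix.mul_zero]
    have h3 := congrArg conjTranspose this
    rwa [conjTranspose_mul, conjTranspose_conjTranspose, hPh, conjTranspose_zero] at h3
  -- finally `Tr WᴴW = 0`.
  have hWW : trace (Wᴴ * W) = 0 := by
    have e : Wᴴ * W = (Wᴴ * Q) * A - Wᴴ * A * P := by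
      nth_rw 2 [hW]
      rw [Matrix.mul_sub]
      simp only [Matrix.mul_assoc]
    have e1 : Wᴴ * Q = 0 := by
      have h3 := congrArg conjTranspose hQW
      rwa [conjTranspose_mul, hQh, conjTranspose_zero] at h3
    rw [e, e1, Matrix.zero_mul, zero_sub, trace_neg, Matrix.trace_mul_comm, ← Matrix.mul_assoc]
    have e2 : P * Wᴴ = 0 := by
      have h3 := congrArg conjTranspose hWP
      rwa [conjTranspose_mul, hPh, conjTranspose_zero] at h3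
    rw [e2]; simp
  have hW0 := eq_zero_of_rtr_self hWW
  exact sub_eq_zero.1 hW0

/-- `E32 (A Aᴴ) = E32 (Aᴴ A)` for rectangular `A`. -/
lemma E32_swap (A : Matrix m n ℝ) : E32 (A * Aᴴ) = E32 (Aᴴ * A) := by
  have hQ : (A * Aᴴ).PosSemidef := posSemidef_self_mul_conjTranspose A
  have hP : (Aᴴ * A).PosSemidef := posSemidef_conjTranspose_mul_self A
  have hQQ : rt (A * Aᴴ) * rt (A * Aᴴ) = A * Aᴴ := rt_mul_self hQ
  have hPP : rt (Aᴴ * A) * rt (Aᴴ * A) = Aᴴ * A := rt_mul_self hP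
  have hint := rt_intertwine A
  unfold E32
  rw [hQQ, hPP]
  simp only [rtr]
  congr 1
  rw [Matrix.trace_mul_comm, ← Matrix.mul_assoc, hint, Matrix.mul_assoc,
    Matrix.trace_mul_comm, Matrix.mul_assoc]
  exact Matrix.trace_mul_comm _ _

end Swap

section Abstract

variable {ι : Type*} [Fintype ι] [DecidableEq ι]

/-- `diag(1 + σ d)`. -/
noncomputable def Ee (σ : ℝ) (d : ι → ℝ) : Matrix ι ι ℝ := diagonal (fun x => 1 + σ * d x)

/-- The child matrix. -/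
noncomputable def cld (σ σ' : ℝ) (d d' : ι → ℝ) (A : Matrix ι ι ℝ) : Matrix ι ι ℝ :=
  (1 / 2 : ℝ) • (Ee σ d * A * Ee σ' d')

/-- The column operator on the middle space. -/
noncomputable def Zc (A B : Matrix ι ι ℝ) : Matrix ι ι ℝ := Aᴴ * A + B * Bᴴ

/-- The column matrix `[A ; Bᴴ]`. -/
noncomputable def Fc (A B : Matrix ι ι ℝ) : Matrix (ι ⊕ ι) ι ℝ := Matrix.fromRows A Bᴴ

/-- The gap of the middle step. -/
noncomputable def gapF (A B : Matrix ι ι ℝ) (d1 : ι → ℝ) : ℝ :=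
  (E32 (Fc A B * Ee 1 d1 * (Fc A B)ᴴ) + E32 (Fc A B * Ee (-1) d1 * (Fc A B)ᴴ)) / 2 -
    E32 (Zc A B)

lemma Ee_conj (σ : ℝ) (d : ι → ℝ) : (Ee σ d)ᴴ = Ee σ d := by
  simp [Ee]

lemma Fc_conj_mul (A B : Matrix ι ι ℝ) : (Fc A B)ᴴ * Fc A B = Zc A B := by
  unfold Fc Zc
  rw [Matrix.conjTranspose_fromRows_eq_fromCols_conjTranspose, Matrix.fromCols_mul_fromRows,
    conjTranspose_conjTranspose]

lemma Zc_posSemidef (A B : Matrix ι ι ℝ) : (Zc A B).PosSemidef :=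
  (posSemidef_conjTranspose_mul_self A).add (posSemidef_self_mul_conjTranspose B)

lemma conj_Ee_sq' {κ : Type*} [Fintype κ] (B : Matrix κ ι ℝ) (σ : ℝ) (d : ι → ℝ) (hσ : σ ^ 2 = 1)
    (hB : ∀ x y, B x y ≠ 0 → d y ^ 2 = 1) :
    B * (Ee σ d * Ee σ d) * Bᴴ = (2 : ℝ) • (B * Ee σ d * Bᴴ) := by
  ext i j
  simp only [Ee, diagonal_mul_diagonal, Matrix.smul_apply, smul_eq_mul]
  rw [Matrix.mul_apply, Matrix.mul_apply, Finset.mul_sum]
  apply Finset.sum_congr rfl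
  intro x _
  rw [Matrix.mul_diagonal, Matrix.mul_diagonal]
  by_cases h : B i x = 0
  · simp [h]
  · have := hB i x h
    have e : (1 + σ * d x) * (1 + σ * d x) = 2 * (1 + σ * d x) := by
      have : (σ * d x) ^ 2 = 1 := by rw [mul_pow, hσ, this]; ring
      nlinarith
    rw [e]; ring

/-- `Aᴴ E² A = 2 Aᴴ E A` on the support. -/
lemma conj_Ee_sq (A : Matrix ι ι ℝ) (σ : ℝ) (d : ι → ℝ) (hσ : σ ^ 2 = 1)
    (hA : ∀ x y, A x y ≠ 0 → d x ^ 2 = 1) :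
    Aᴴ * (Ee σ d * Ee σ d) * A = (2 : ℝ) • (Aᴴ * Ee σ d * A) := by
  have := conj_Ee_sq' Aᴴ σ d hσ (fun x y h => hA y x (by simpa using h))
  simpa using this

/-- The column operator of a child. -/
lemma Zc_cld (A B : Matrix ι ι ℝ) (d0 d1 d2 : ι → ℝ) (σ0 σ1 σ2 : ℝ)
    (h0 : σ0 ^ 2 = 1) (h2 : σ2 ^ 2 = 1)
    (hA : ∀ x y, A x y ≠ 0 → d0 x ^ 2 = 1) (hB : ∀ x y, B x y ≠ 0 → d2 y ^ 2 = 1) :
    Zc (cld σ0 σ1 d0 d1 A) (cld σ1 σ2 d1 d2 B) =
      (1 / 2 : ℝ) • (Ee σ1 d1 * (Aᴴ * Ee σ0 d0 * A + B * Ee σ2 d2 * Bᴴ) * Ee σ1 d1) := by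
  have e1 : (cld σ0 σ1 d0 d1 A)ᴴ * cld σ0 σ1 d0 d1 A =
      (1 / 2 : ℝ) • (Ee σ1 d1 * (Aᴴ * Ee σ0 d0 * A) * Ee σ1 d1) := by
    unfold cld
    rw [conjTranspose_smul, Matrix.smul_mul, Matrix.mul_smul, smul_smul, conjTranspose_mul,
      conjTranspose_mul, Ee_conj, Ee_conj]
    have : Ee σ1 d1 * (Aᴴ * Ee σ0 d0) * (Ee σ0 d0 * A * Ee σ1 d1) =
        Ee σ1 d1 * (Aᴴ * (Ee σ0 d0 * Ee σ0 d0) * A) * Ee σ1 d1 := by
      simp only [Matrix.mul_assoc]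
    rw [this, conj_Ee_sq A σ0 d0 h0 hA, Matrix.mul_smul, Matrix.smul_mul, smul_smul]
    norm_num
  have e2 : cld σ1 σ2 d1 d2 B * (cld σ1 σ2 d1 d2 B)ᴴ =
      (1 / 2 : ℝ) • (Ee σ1 d1 * (B * Ee σ2 d2 * Bᴴ) * Ee σ1 d1) := by
    unfold cld
    rw [conjTranspose_smul, Matrix.smul_mul, Matrix.mul_smul, smul_smul, conjTranspose_mul,
      conjTranspose_mul, Ee_conj, Ee_conj]
    have : Ee σ1 d1 * B * Ee σ2 d2 * (Ee σ2 d2 * (Bᴴ * Ee σ1 d1)) =
        Ee σ1 d1 * (B * (Ee σ2 d2 * Ee σ2 d2) * Bᴴ) * Ee σ1 d1 := by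
      simp only [Matrix.mul_assoc]
    rw [this, conj_Ee_sq' B σ2 d2 h2 hB, Matrix.mul_smul, Matrix.smul_mul, smul_smul]
    norm_num
  unfold Zc
  rw [e1, e2, ← smul_add, Matrix.mul_add, Matrix.add_mul]

/-- `E(σ,d) = 1 + σ d` as matrices. -/
lemma Ee_eq (σ : ℝ) (d : ι → ℝ) : Ee σ d = 1 + σ • diagonal d := by
  ext i j
  by_cases h : i = j
  · subst h; simp [Ee]
  · simp [Ee, h]

/-- The averaged child form. -/
lemma Zc_jensen_form (A B : Matrix ι ι ℝ) (d0 d2 : ι → ℝ) (τ : ℝ) :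
    Aᴴ * Ee 1 d0 * A + B * Ee τ d2 * Bᴴ =
        (Aᴴ * A + B * Bᴴ) + (Aᴴ * diagonal d0 * A + τ • (B * diagonal d2 * Bᴴ)) ∧
    Aᴴ * Ee (-1) d0 * A + B * Ee (-τ) d2 * Bᴴ =
        (Aᴴ * A + B * Bᴴ) - (Aᴴ * diagonal d0 * A + τ • (B * diagonal d2 * Bᴴ)) := by
  constructor
  · simp only [Ee_eq, Matrix.mul_add, Matrix.add_mul, Matrix.mul_one, one_smul, Matrix.smul_mul,
      Matrix.mul_smul]
    abel
  · simp only [Ee_eq, Matrix.mul_add, Matrix.add_mul, Matrix.mul_one, neg_smul, one_smul,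
      Matrix.smul_mul, Matrix.mul_smul, Matrix.neg_mul, Matrix.mul_neg]
    abel

/-- `E32 (½ E Z E) = E32 (F E Fᴴ)` when the columns of `F` live on the support of `d1`. -/
lemma E32_half_conj (A B : Matrix ι ι ℝ) (d1 : ι → ℝ) (σ : ℝ) (hσ : σ ^ 2 = 1)
    (hA : ∀ x y, A x y ≠ 0 → d1 y ^ 2 = 1) (hB : ∀ x y, B x y ≠ 0 → d1 x ^ 2 = 1) :
    E32 ((1 / 2 : ℝ) • (Ee σ d1 * Zc A B * Ee σ d1)) =
      E32 (Fc A B * Ee σ d1 * (Fc A B)ᴴ) := by
  set s : ℝ := √(1 / 2) with hs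
  have hss : s * s = 1 / 2 := Real.mul_self_sqrt (by norm_num)
  set G : Matrix (ι ⊕ ι) ι ℝ := s • (Fc A B * Ee σ d1) with hG
  have e1 : Gᴴ * G = (1 / 2 : ℝ) • (Ee σ d1 * Zc A B * Ee σ d1) := by
    rw [hG, conjTranspose_smul, Matrix.smul_mul, Matrix.mul_smul, smul_smul, conjTranspose_mul,
      Ee_conj]
    have : Ee σ d1 * (Fc A B)ᴴ * (Fc A B * Ee σ d1) = Ee σ d1 * ((Fc A B)ᴴ * Fc A B) * Ee σ d1 := by
      simp only [Matrix.mul_assoc]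
    rw [this, Fc_conj_mul]
    simp [hss]
  have e2 : G * Gᴴ = Fc A B * Ee σ d1 * (Fc A B)ᴴ := by
    rw [hG, conjTranspose_smul, Matrix.smul_mul, Matrix.mul_smul, smul_smul, conjTranspose_mul,
      Ee_conj]
    have h1 : Fc A B * Ee σ d1 * (Ee σ d1 * (Fc A B)ᴴ) = Fc A B * (Ee σ d1 * Ee σ d1) * (Fc A B)ᴴ := by
      simp only [Matrix.mul_assoc]
    have h2 : Fc A B * (Ee σ d1 * Ee σ d1) * (Fc A B)ᴴ = (2 : ℝ) • (Fc A B * Ee σ d1 * (Fc A B)ᴴ) := by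
      apply conj_Ee_sq' (Fc A B) σ d1 hσ
      rintro (x | x) y h
      · exact hA x y h
      · exact hB y x (by
          intro h0
          apply h
          simp [Fc, h0])
    rw [h1, h2, smul_smul, star_trivial, hss]
    norm_num
  rw [← e1, ← e2, E32_swap]

/-- Jensen for the two children with the same middle sign. -/
lemma middle_jensen (A B : Matrix ι ι ℝ) (d0 d1 d2 : ι → ℝ) (σ τ : ℝ) (hσ : σ ^ 2 = 1)
    (hτ : τ ^ 2 = 1)
    (hA0 : ∀ x y, A x y ≠ 0 → d0 x ^ 2 = 1) (hA1 : ∀ x y, A x y ≠ 0 → d1 y ^ 2 = 1)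
    (hB1 : ∀ x y, B x y ≠ 0 → d1 x ^ 2 = 1) (hB2 : ∀ x y, B x y ≠ 0 → d2 y ^ 2 = 1) :
    2 * E32 (Fc A B * Ee σ d1 * (Fc A B)ᴴ) ≤
      E32 (Zc (cld 1 σ d0 d1 A) (cld σ τ d1 d2 B)) +
        E32 (Zc (cld (-1) σ d0 d1 A) (cld σ (-τ) d1 d2 B)) := by
  have c1 := Zc_cld A B d0 d1 d2 1 σ τ (by norm_num) hτ hA0 hB2
  have c2 := Zc_cld A B d0 d1 d2 (-1) σ (-τ) (by norm_num) (by rw [neg_sq]; exact hτ) hA0 hB2
  obtain ⟨f1, f2⟩ := Zc_jensen_form A B d0 d2 τ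
  set Y0 := Aᴴ * diagonal d0 * A + τ • (B * diagonal d2 * Bᴴ) with hY0
  set X : Matrix ι ι ℝ := (1 / 2 : ℝ) • (Ee σ d1 * Zc A B * Ee σ d1) with hX
  set Y : Matrix ι ι ℝ := (1 / 2 : ℝ) • (Ee σ d1 * Y0 * Ee σ d1) with hY
  have g1 : Zc (cld 1 σ d0 d1 A) (cld σ τ d1 d2 B) = X + Y := by
    rw [c1, f1, hX, hY, ← smul_add, ← Matrix.add_mul, ← Matrix.mul_add]
    rfl
  have g2 : Zc (cld (-1) σ d0 d1 A) (cld σ (-τ) d1 d2 B) = X - Y := by
    rw [c2, f2, hX, hY, ← smul_sub, ← Matrix.sub_mul, ← Matrix.mul_sub]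
    rfl
  have hp : (X + Y).PosSemidef := g1 ▸ Zc_posSemidef _ _
  have hm : (X - Y).PosSemidef := g2 ▸ Zc_posSemidef _ _
  have hj := E32_jensen hp hm
  rw [g1, g2, ← E32_half_conj A B d1 σ hσ hA1 hB1]
  exact hj

/-- The energy step over the four even children. -/
lemma step_energy (A B : Matrix ι ι ℝ) (d0 d1 d2 : ι → ℝ)
    (hA0 : ∀ x y, A x y ≠ 0 → d0 x ^ 2 = 1) (hA1 : ∀ x y, A x y ≠ 0 → d1 y ^ 2 = 1)
    (hB1 : ∀ x y, B x y ≠ 0 → d1 x ^ 2 = 1) (hB2 : ∀ x y, B x y ≠ 0 → d2 y ^ 2 = 1) :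
    E32 (Zc A B) + gapF A B d1 ≤
      (E32 (Zc (cld 1 1 d0 d1 A) (cld 1 1 d1 d2 B)) +
        E32 (Zc (cld (-1) 1 d0 d1 A) (cld 1 (-1) d1 d2 B)) +
        E32 (Zc (cld 1 (-1) d0 d1 A) (cld (-1) (-1) d1 d2 B)) +
        E32 (Zc (cld (-1) (-1) d0 d1 A) (cld (-1) 1 d1 d2 B))) / 4 := by
  have h1 := middle_jensen A B d0 d1 d2 1 1 (by norm_num) (by norm_num) hA0 hA1 hB1 hB2
  have h2 := middle_jensen A B d0 d1 d2 (-1) (-1) (by norm_num) (by norm_num) hA0 hA1 hB1 hB2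
  rw [neg_neg] at h2
  unfold gapF
  linarith

end Abstract

/-! ### The block matrices -/

section Tree

/-- The normalised block matrix of `f` on the blocks of width `2^d`. -/
noncomputable def mat (r : ℕ) (f : ℕ → ℕ → ℝ) (d n n' : ℕ) : Matrix (Fin (2 ^ r)) (Fin (2 ^ r)) ℝ :=
  Matrix.of fun x y => if (x : ℕ) / 2 ^ d = n ∧ (y : ℕ) / 2 ^ d = n' then ((2 : ℝ) ^ d)⁻¹ * f x y else 0

/-- The Haar sign of a block, zero outside the block. -/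
noncomputable def sg (r d n : ℕ) : Fin (2 ^ r) → ℝ :=
  fun x => if (x : ℕ) / 2 ^ d = n then sgn d x else 0

lemma mat_apply (r : ℕ) (f : ℕ → ℕ → ℝ) (d n n' : ℕ) (x y : Fin (2 ^ r)) :
    mat r f d n n' x y =
      if (x : ℕ) / 2 ^ d = n ∧ (y : ℕ) / 2 ^ d = n' then ((2 : ℝ) ^ d)⁻¹ * f x y else 0 := rfl

lemma sgn_sq (d x : ℕ) : sgn d x ^ 2 = 1 := by
  unfold sgn; split_ifs <;> norm_num

lemma abs_sg_le (r d n : ℕ) (x : Fin (2 ^ r)) : |sg r d n x| ≤ 1 := by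
  unfold sg sgn; split_ifs <;> norm_num

lemma sg_sq (r d n : ℕ) (x : Fin (2 ^ r)) (h : (x : ℕ) / 2 ^ d = n) : sg r d n x ^ 2 = 1 := by
  unfold sg; rw [if_pos h]; exact sgn_sq _ _

lemma mat_supp_left (r : ℕ) (f : ℕ → ℕ → ℝ) (d n n' : ℕ) (x y : Fin (2 ^ r))
    (h : mat r f d n n' x y ≠ 0) : sg r d n x ^ 2 = 1 := by
  rw [mat_apply] at h
  by_cases hc : (x : ℕ) / 2 ^ d = n ∧ (y : ℕ) / 2 ^ d = n'
  · exact sg_sq r d n x hc.1
  · rw [if_neg hc] at h; exact absurd rfl h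

lemma mat_supp_right (r : ℕ) (f : ℕ → ℕ → ℝ) (d n n' : ℕ) (x y : Fin (2 ^ r))
    (h : mat r f d n n' x y ≠ 0) : sg r d n' y ^ 2 = 1 := by
  rw [mat_apply] at h
  by_cases hc : (x : ℕ) / 2 ^ d = n ∧ (y : ℕ) / 2 ^ d = n'
  · exact sg_sq r d n' y hc.2
  · rw [if_neg hc] at h; exact absurd rfl h

lemma cld_apply {ι : Type*} [Fintype ι] [DecidableEq ι] (σ σ' : ℝ) (d d' : ι → ℝ)
    (A : Matrix ι ι ℝ) (x y : ι) :
    cld σ σ' d d' A x y = (1 / 2) * ((1 + σ * d x) * A x y * (1 + σ' * d' y)) := by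
  simp [cld, Ee, Matrix.mul_diagonal, Matrix.diagonal_mul]

/-- The factor `1 + σ_b sg` of a child: `2` on the child, `0` on the sibling, `1` elsewhere. -/
lemma factor_even (r e n : ℕ) (x : Fin (2 ^ r)) (h : (x : ℕ) / 2 ^ (e + 1) = n) :
    1 + 1 * sg r (e + 1) n x = if (x : ℕ) / 2 ^ e = 2 * n then 2 else 0 := by
  have hu : (x : ℕ) / 2 ^ (e + 1) = ((x : ℕ) / 2 ^ e) / 2 := by
    rw [Nat.div_div_eq_div_mul, pow_succ]
  unfold sg sgn
  rw [if_pos h]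
  simp only [Nat.add_sub_cancel]
  set u := (x : ℕ) / 2 ^ e
  rw [hu] at h
  by_cases h2 : u % 2 = 0
  · rw [if_pos h2, if_pos (by omega)]; norm_num
  · rw [if_neg h2, if_neg (by omega)]; norm_num

lemma factor_odd (r e n : ℕ) (x : Fin (2 ^ r)) (h : (x : ℕ) / 2 ^ (e + 1) = n) :
    1 + (-1) * sg r (e + 1) n x = if (x : ℕ) / 2 ^ e = 2 * n + 1 then 2 else 0 := by
  have hu : (x : ℕ) / 2 ^ (e + 1) = ((x : ℕ) / 2 ^ e) / 2 := by
    rw [Nat.div_div_eq_div_mul, pow_succ]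
  unfold sg sgn
  rw [if_pos h]
  simp only [Nat.add_sub_cancel]
  set u := (x : ℕ) / 2 ^ e
  rw [hu] at h
  by_cases h2 : u % 2 = 0
  · rw [if_pos h2, if_neg (by omega)]; norm_num
  · rw [if_neg h2, if_pos (by omega)]; norm_num

/-- A unified form of the child index. -/
lemma child_div {e n u x : ℕ} (hu : x / 2 ^ e = u) (h : x / 2 ^ (e + 1) ≠ n) :
    u ≠ 2 * n ∧ u ≠ 2 * n + 1 := by
  have hu' : x / 2 ^ (e + 1) = (x / 2 ^ e) / 2 := by
    rw [Nat.div_div_eq_div_mul, pow_succ]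
  rw [hu'] at h
  rw [hu] at h
  omega

/-- The general form of the child identity; `s = ±1`, `b` the corresponding bit. -/
lemma mat_child_aux (r : ℕ) (f : ℕ → ℕ → ℝ) (e n n' b b' : ℕ) (s s' : ℝ)
    (hb : ∀ x : Fin (2 ^ r), (x : ℕ) / 2 ^ (e + 1) = n →
      1 + s * sg r (e + 1) n x = if (x : ℕ) / 2 ^ e = 2 * n + b then 2 else 0)
    (hb' : ∀ x : Fin (2 ^ r), (x : ℕ) / 2 ^ (e + 1) = n' →
      1 + s' * sg r (e + 1) n' x = if (x : ℕ) / 2 ^ e = 2 * n' + b' then 2 else 0)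
    (hb2 : b < 2) (hb2' : b' < 2) :
    mat r f e (2 * n + b) (2 * n' + b') =
      cld s s' (sg r (e + 1) n) (sg r (e + 1) n') (mat r f (e + 1) n n') := by
  ext x y
  rw [cld_apply, mat_apply, mat_apply]
  have hux : (x : ℕ) / 2 ^ (e + 1) = ((x : ℕ) / 2 ^ e) / 2 := by
    rw [Nat.div_div_eq_div_mul, pow_succ]
  have huy : (y : ℕ) / 2 ^ (e + 1) = ((y : ℕ) / 2 ^ e) / 2 := by
    rw [Nat.div_div_eq_div_mul, pow_succ]
  by_cases hc : (x : ℕ) / 2 ^ (e + 1) = n ∧ (y : ℕ) / 2 ^ (e + 1) = n'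
  · rw [if_pos hc, hb x hc.1, hb' y hc.2]
    have h2 : ((2 : ℝ) ^ (e + 1))⁻¹ = ((2 : ℝ) ^ e)⁻¹ / 2 := by
      rw [pow_succ]; field_simp
    by_cases h3 : (x : ℕ) / 2 ^ e = 2 * n + b
    · by_cases h4 : (y : ℕ) / 2 ^ e = 2 * n' + b'
      · rw [if_pos ⟨h3, h4⟩, if_pos h3, if_pos h4, h2]; ring
      · rw [if_neg (fun h => h4 h.2), if_neg h4]; ring
    · rw [if_neg (fun h => h3 h.1), if_neg h3]; ring
  · rw [if_neg hc, if_neg]
    · ring
    · rintro ⟨h3, h4⟩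
      apply hc
      rw [hux, huy, h3, h4]
      constructor <;> omega

lemma mat_child00 (r : ℕ) (f : ℕ → ℕ → ℝ) (e n n' : ℕ) :
    mat r f e (2 * n) (2 * n') =
      cld 1 1 (sg r (e + 1) n) (sg r (e + 1) n') (mat r f (e + 1) n n') :=
  mat_child_aux r f e n n' 0 0 1 1 (fun x h => factor_even r e n x h)
    (fun x h => factor_even r e n' x h) (by norm_num) (by norm_num)

lemma mat_child01 (r : ℕ) (f : ℕ → ℕ → ℝ) (e n n' : ℕ) :
    mat r f e (2 * n) (2 * n' + 1) =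
      cld 1 (-1) (sg r (e + 1) n) (sg r (e + 1) n') (mat r f (e + 1) n n') :=
  mat_child_aux r f e n n' 0 1 1 (-1) (fun x h => factor_even r e n x h)
    (fun x h => factor_odd r e n' x h) (by norm_num) (by norm_num)

lemma mat_child10 (r : ℕ) (f : ℕ → ℕ → ℝ) (e n n' : ℕ) :
    mat r f e (2 * n + 1) (2 * n') =
      cld (-1) 1 (sg r (e + 1) n) (sg r (e + 1) n') (mat r f (e + 1) n n') :=
  mat_child_aux r f e n n' 1 0 (-1) 1 (fun x h => factor_odd r e n x h)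
    (fun x h => factor_even r e n' x h) (by norm_num) (by norm_num)

lemma mat_child11 (r : ℕ) (f : ℕ → ℕ → ℝ) (e n n' : ℕ) :
    mat r f e (2 * n + 1) (2 * n' + 1) =
      cld (-1) (-1) (sg r (e + 1) n) (sg r (e + 1) n') (mat r f (e + 1) n n') :=
  mat_child_aux r f e n n' 1 1 (-1) (-1) (fun x h => factor_odd r e n x h)
    (fun x h => factor_odd r e n' x h) (by norm_num) (by norm_num)

/-- The energy of a pair of block matrices through the middle block `b`. -/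
noncomputable def Ept (r : ℕ) (g h : ℕ → ℕ → ℝ) (d a b c : ℕ) : ℝ :=
  E32 (Zc (mat r g d a b) (mat r h d b c))

/-- The gap of a pair of block matrices. -/
noncomputable def Gpt (r : ℕ) (g h : ℕ → ℕ → ℝ) (d a b c : ℕ) : ℝ :=
  gapF (mat r g d a b) (mat r h d b c) (sg r d b)

lemma Ept_nonneg (r : ℕ) (g h : ℕ → ℕ → ℝ) (d a b c : ℕ) : 0 ≤ Ept r g h d a b c :=
  E32_nonneg (Zc_posSemidef _ _)

/-- The step for a pair: children are the even triples. -/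
lemma Ept_step (r : ℕ) (g h : ℕ → ℕ → ℝ) (e a b c : ℕ) :
    Ept r g h (e + 1) a b c + Gpt r g h (e + 1) a b c ≤
      (Ept r g h e (2 * a) (2 * b) (2 * c) + Ept r g h e (2 * a + 1) (2 * b) (2 * c + 1) +
        Ept r g h e (2 * a) (2 * b + 1) (2 * c + 1) + Ept r g h e (2 * a + 1) (2 * b + 1) (2 * c)) / 4 := by
  have := step_energy (mat r g (e + 1) a b) (mat r h (e + 1) b c) (sg r (e + 1) a) (sg r (e + 1) b)
    (sg r (e + 1) c) (fun x y h => mat_supp_left r g (e + 1) a b x y h)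
    (fun x y h => mat_supp_right r g (e + 1) a b x y h)
    (fun x y h' => mat_supp_left r h (e + 1) b c x y h')
    (fun x y h' => mat_supp_right r h (e + 1) b c x y h')
  unfold Ept Gpt
  rw [mat_child00, mat_child00, mat_child10, mat_child01, mat_child01, mat_child11, mat_child11,
    mat_child10]
  exact this

/-- The three-term energy of a triple of blocks. -/
noncomputable def Wpt (r : ℕ) (f0 f1 f2 : ℕ → ℕ → ℝ) (d n0 n1 n2 : ℕ) : ℝ :=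
  Ept r f0 f1 d n0 n1 n2 + Ept r f1 f2 d n1 n2 n0 + Ept r f2 f0 d n2 n0 n1

/-- The three-term gap of a triple of blocks. -/
noncomputable def Vpt (r : ℕ) (f0 f1 f2 : ℕ → ℕ → ℝ) (d n0 n1 n2 : ℕ) : ℝ :=
  Gpt r f0 f1 d n0 n1 n2 + Gpt r f1 f2 d n1 n2 n0 + Gpt r f2 f0 d n2 n0 n1

lemma Wpt_nonneg (r : ℕ) (f0 f1 f2 : ℕ → ℕ → ℝ) (d n0 n1 n2 : ℕ) :
    0 ≤ Wpt r f0 f1 f2 d n0 n1 n2 :=
  add_nonneg (add_nonneg (Ept_nonneg ..) (Ept_nonneg ..)) (Ept_nonneg ..)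

lemma Wpt_step (r : ℕ) (f0 f1 f2 : ℕ → ℕ → ℝ) (e n0 n1 n2 : ℕ) :
    Wpt r f0 f1 f2 (e + 1) n0 n1 n2 + Vpt r f0 f1 f2 (e + 1) n0 n1 n2 ≤
      (Wpt r f0 f1 f2 e (2 * n0) (2 * n1) (2 * n2) +
        Wpt r f0 f1 f2 e (2 * n0) (2 * n1 + 1) (2 * n2 + 1) +
        Wpt r f0 f1 f2 e (2 * n0 + 1) (2 * n1) (2 * n2 + 1) +
        Wpt r f0 f1 f2 e (2 * n0 + 1) (2 * n1 + 1) (2 * n2)) / 4 := by
  have h1 := Ept_step r f0 f1 e n0 n1 n2
  have h2 := Ept_step r f1 f2 e n1 n2 n0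
  have h3 := Ept_step r f2 f0 e n2 n0 n1
  unfold Wpt Vpt
  linarith

/-! ### Reindexing of the tree -/

lemma sum_range_two_mul (g : ℕ → ℝ) (N : ℕ) :
    ∑ n ∈ Finset.range (2 * N), g n = ∑ n ∈ Finset.range N, (g (2 * n) + g (2 * n + 1)) := by
  induction N with
  | zero => simp
  | succ N ih =>
    rw [show 2 * (N + 1) = 2 * N + 1 + 1 by ring, Finset.sum_range_succ, Finset.sum_range_succ, ih,
      Finset.sum_range_succ]
    ring

lemma sum_range_pow_succ (g : ℕ → ℝ) (l : ℕ) :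
    ∑ n ∈ Finset.range (2 ^ (l + 1)), g n =
      ∑ n ∈ Finset.range (2 ^ l), (g (2 * n) + g (2 * n + 1)) := by
  rw [pow_succ, mul_comm, sum_range_two_mul]

lemma xor_even_even (a b : ℕ) : (2 * a) ^^^ (2 * b) = 2 * (a ^^^ b) := by
  have := Nat.xor_bit false a false b
  simpa [Nat.bit] using this

lemma xor_odd_even (a b : ℕ) : (2 * a + 1) ^^^ (2 * b) = 2 * (a ^^^ b) + 1 := by
  have := Nat.xor_bit true a false b
  simpa [Nat.bit] using this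

lemma xor_even_odd (a b : ℕ) : (2 * a) ^^^ (2 * b + 1) = 2 * (a ^^^ b) + 1 := by
  have := Nat.xor_bit false a true b
  simpa [Nat.bit] using this

lemma xor_odd_odd (a b : ℕ) : (2 * a + 1) ^^^ (2 * b + 1) = 2 * (a ^^^ b) := by
  have := Nat.xor_bit true a true b
  simpa [Nat.bit] using this

/-- The total energy at level `l`. -/
noncomputable def Phi (r : ℕ) (f0 f1 f2 : ℕ → ℕ → ℝ) (l : ℕ) : ℝ :=
  ∑ n0 ∈ Finset.range (2 ^ l), ∑ n1 ∈ Finset.range (2 ^ l),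
    ((4 : ℝ) ^ l)⁻¹ * Wpt r f0 f1 f2 (r - l) n0 n1 (n0 ^^^ n1)

lemma Phi_nonneg (r : ℕ) (f0 f1 f2 : ℕ → ℕ → ℝ) (l : ℕ) : 0 ≤ Phi r f0 f1 f2 l :=
  Finset.sum_nonneg fun _ _ => Finset.sum_nonneg fun _ _ =>
    mul_nonneg (by positivity) (Wpt_nonneg ..)

lemma Phi_step (r : ℕ) (f0 f1 f2 : ℕ → ℕ → ℝ) (l : ℕ) (hl : l < r) :
    ∑ n0 ∈ Finset.range (2 ^ l), ∑ n1 ∈ Finset.range (2 ^ l),
      ((4 : ℝ) ^ l)⁻¹ * Vpt r f0 f1 f2 (r - l) n0 n1 (n0 ^^^ n1) ≤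
      Phi r f0 f1 f2 (l + 1) - Phi r f0 f1 f2 l := by
  obtain ⟨e, he⟩ : ∃ e, r - (l + 1) = e := ⟨_, rfl⟩
  have hd : r - l = e + 1 := by omega
  have hexp : Phi r f0 f1 f2 (l + 1) =
      ∑ n0 ∈ Finset.range (2 ^ l), ∑ n1 ∈ Finset.range (2 ^ l),
        ((4 : ℝ) ^ l)⁻¹ * ((Wpt r f0 f1 f2 e (2 * n0) (2 * n1) (2 * (n0 ^^^ n1)) +
        Wpt r f0 f1 f2 e (2 * n0) (2 * n1 + 1) (2 * (n0 ^^^ n1) + 1) +
        Wpt r f0 f1 f2 e (2 * n0 + 1) (2 * n1) (2 * (n0 ^^^ n1) + 1) +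
        Wpt r f0 f1 f2 e (2 * n0 + 1) (2 * n1 + 1) (2 * (n0 ^^^ n1))) / 4) := by
    unfold Phi
    rw [he, sum_range_pow_succ]
    apply Finset.sum_congr rfl
    intro n0 _
    rw [sum_range_pow_succ, sum_range_pow_succ, ← Finset.sum_add_distrib]
    apply Finset.sum_congr rfl
    intro n1 _
    rw [xor_even_even, xor_even_odd, xor_odd_even, xor_odd_odd, pow_succ, mul_inv]
    ring
  rw [hexp]
  unfold Phi
  rw [hd, le_sub_iff_add_le, ← Finset.sum_add_distrib]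
  apply Finset.sum_le_sum
  intro n0 _
  rw [← Finset.sum_add_distrib]
  apply Finset.sum_le_sum
  intro n1 _
  rw [← mul_add]
  apply mul_le_mul_of_nonneg_left _ (by positivity)
  have := Wpt_step r f0 f1 f2 e n0 n1 (n0 ^^^ n1)
  linarith

/-- Telescoping. -/
lemma sum_Vpt_le (r : ℕ) (f0 f1 f2 : ℕ → ℕ → ℝ) :
    ∑ l ∈ Finset.range r, ∑ n0 ∈ Finset.range (2 ^ l), ∑ n1 ∈ Finset.range (2 ^ l),
      ((4 : ℝ) ^ l)⁻¹ * Vpt r f0 f1 f2 (r - l) n0 n1 (n0 ^^^ n1) ≤ Phi r f0 f1 f2 r := by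
  have key : ∀ t, t ≤ r → ∑ l ∈ Finset.range t, ∑ n0 ∈ Finset.range (2 ^ l),
      ∑ n1 ∈ Finset.range (2 ^ l), ((4 : ℝ) ^ l)⁻¹ * Vpt r f0 f1 f2 (r - l) n0 n1 (n0 ^^^ n1) ≤
      Phi r f0 f1 f2 t - Phi r f0 f1 f2 0 := by
    intro t
    induction t with
    | zero => intro _; simp
    | succ t ih =>
      intro ht
      rw [Finset.sum_range_succ]
      have h1 := ih (by omega)
      have h2 := Phi_step r f0 f1 f2 t (by omega)
      linarith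
  have := key r le_rfl
  have h0 := Phi_nonneg r f0 f1 f2 0
  linarith

/-! ### The form `H` as a trace -/

lemma sum_fin_blk {r d n : ℕ} (hd : d ≤ r) (hn : n < 2 ^ (r - d)) (g : ℕ → ℝ) :
    ∑ x : Fin (2 ^ r), (if (x : ℕ) / 2 ^ d = n then g x else 0) = ∑ x ∈ blk d n, g x := by
  rw [Fin.sum_univ_eq_sum_range (fun x => if x / 2 ^ d = n then g x else 0) (2 ^ r),
    ← Finset.sum_filter]
  apply Finset.sum_congr _ (fun _ _ => rfl)
  ext x
  simp only [Finset.mem_filter, Finset.mem_range, mem_blk]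
  constructor
  · exact fun h => h.2
  · intro h
    refine ⟨?_, h⟩
    have h2 : 0 < 2 ^ d := by positivity
    have h3 : x < (n + 1) * 2 ^ d := by
      have := Nat.lt_div_mul_add (a := x) h2
      rw [h] at this
      nlinarith
    have h4 : (n + 1) * 2 ^ d ≤ 2 ^ (r - d) * 2 ^ d := Nat.mul_le_mul_right _ hn
    rw [← pow_add, Nat.sub_add_cancel hd] at h4
    omega

lemma trace_six_diag {ι : Type*} [Fintype ι] [DecidableEq ι] (A0 A1 A2 : Matrix ι ι ℝ)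
    (d0 d1 d2 : ι → ℝ) :
    trace (A0 * diagonal d1 * A1 * diagonal d2 * A2 * diagonal d0) =
      ∑ x0, ∑ x1, ∑ x2, A0 x0 x1 * d1 x1 * A1 x1 x2 * d2 x2 * A2 x2 x0 * d0 x0 := by
  rw [Matrix.trace]
  apply Finset.sum_congr rfl
  intro x0 _
  rw [Matrix.diag_apply, Matrix.mul_diagonal, Matrix.mul_apply, Finset.sum_mul]
  have : ∀ x2, (A0 * diagonal d1 * A1 * diagonal d2) x0 x2 * A2 x2 x0 * d0 x0 =
      ∑ x1, A0 x0 x1 * d1 x1 * A1 x1 x2 * d2 x2 * A2 x2 x0 * d0 x0 := by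
    intro x2
    rw [Matrix.mul_diagonal, Matrix.mul_apply, Finset.sum_mul, Finset.sum_mul, Finset.sum_mul]
    apply Finset.sum_congr rfl
    intro x1 _
    rw [Matrix.mul_diagonal]
  simp only [this]
  rw [Finset.sum_comm]

/-- The local form as a trace. -/
lemma H_eq_trace (r : ℕ) (f0 f1 f2 : ℕ → ℕ → ℝ) (d n0 n1 n2 : ℕ) (hd : d ≤ r)
    (h0 : n0 < 2 ^ (r - d)) (h1 : n1 < 2 ^ (r - d)) (h2 : n2 < 2 ^ (r - d)) :
    H d n0 n1 n2 f0 f1 f2 =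
      trace (mat r f0 d n0 n1 * diagonal (sg r d n1) * mat r f1 d n1 n2 * diagonal (sg r d n2) *
        mat r f2 d n2 n0 * diagonal (sg r d n0)) := by
  have e8 : ((8 : ℝ) ^ d)⁻¹ = ((2 : ℝ) ^ d)⁻¹ * ((2 : ℝ) ^ d)⁻¹ * ((2 : ℝ) ^ d)⁻¹ := by
    rw [show (8 : ℝ) = 2 * 2 * 2 by norm_num, mul_pow, mul_pow]
    simp only [mul_inv]
  unfold H
  rw [trace_six_diag]
  simp only [← sum_fin_blk hd h0, ← sum_fin_blk hd h1, ← sum_fin_blk hd h2]
  rw [Finset.mul_sum]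
  apply Finset.sum_congr rfl
  intro x0 _
  by_cases c0 : (x0 : ℕ) / 2 ^ d = n0
  · rw [if_pos c0, Finset.mul_sum]
    apply Finset.sum_congr rfl
    intro x1 _
    by_cases c1 : (x1 : ℕ) / 2 ^ d = n1
    · rw [if_pos c1, Finset.mul_sum]
      apply Finset.sum_congr rfl
      intro x2 _
      by_cases c2 : (x2 : ℕ) / 2 ^ d = n2
      · simp only [mat_apply, sg, c0, c1, c2, and_self, if_true]
        rw [e8]
        ring
      · simp [mat_apply, c2]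
    · simp [mat_apply, c1]
  · simp [mat_apply, c0]

/-! ### The final level -/

lemma mat_zero (r : ℕ) (g : ℕ → ℕ → ℝ) (a b : ℕ) (ha : a < 2 ^ r) (hb : b < 2 ^ r) :
    mat r g 0 a b = Matrix.single (⟨a, ha⟩ : Fin (2 ^ r)) (⟨b, hb⟩ : Fin (2 ^ r)) (g a b) := by
  ext x y
  rw [mat_apply, Matrix.single_apply]
  simp only [pow_zero, Nat.div_one, inv_one, one_mul, Fin.ext_iff]
  by_cases h : (x : ℕ) = a ∧ (y : ℕ) = b
  · rw [if_pos h, if_pos ⟨h.1.symm, h.2.symm⟩, h.1, h.2]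
  · rw [if_neg h, if_neg (fun h' => h ⟨h'.1.symm, h'.2.symm⟩)]

lemma pow_three_half_le {a b s : ℝ} (ha : 0 ≤ a) (hb : 0 ≤ b)
    (h : s ^ 2 = a ^ 2 + b ^ 2) : s ^ 3 ≤ 2 * (a ^ 3 + b ^ 3) := by
  apply abs_le_of_sq_le_sq' _ (by positivity) |>.2
  have e : (s ^ 3) ^ 2 = (a ^ 2 + b ^ 2) ^ 3 := by rw [← h]; ring
  rw [e]
  have h1 : 0 ≤ (a ^ 4 - b ^ 4) * (a ^ 2 - b ^ 2) := by
    have : (a ^ 4 - b ^ 4) * (a ^ 2 - b ^ 2) = (a ^ 2 - b ^ 2) ^ 2 * (a ^ 2 + b ^ 2) := by ring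
    rw [this]; positivity
  have h2 : 0 ≤ a ^ 3 * b ^ 3 := by positivity
  nlinarith [h1, h2, sq_nonneg (a ^ 3), sq_nonneg (b ^ 3)]

/-- The energy at the last level. -/
lemma Ept_zero_le (r : ℕ) (g h : ℕ → ℕ → ℝ) (a b c : ℕ) (ha : a < 2 ^ r) (hb : b < 2 ^ r)
    (hc : c < 2 ^ r) : Ept r g h 0 a b c ≤ 2 * (|g a b| ^ 3 + |h b c| ^ 3) := by
  set ib : Fin (2 ^ r) := ⟨b, hb⟩ with hib
  set s : ℝ := √(g a b ^ 2 + h b c ^ 2) with hs
  have hs0 : 0 ≤ s := Real.sqrt_nonneg _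
  have hss : s * s = g a b ^ 2 + h b c ^ 2 := Real.mul_self_sqrt (by positivity)
  have hZ : Zc (mat r g 0 a b) (mat r h 0 b c) = Matrix.single ib ib (s * s) := by
    unfold Zc
    rw [mat_zero r g a b ha hb, mat_zero r h b c hb hc, conjTranspose_single, conjTranspose_single,
      Matrix.single_mul_single_same, Matrix.single_mul_single_same, ← Matrix.single_add, hss]
    simp only [star_trivial]
    congr 1
    ring
  have hD : (Matrix.single ib ib s).PosSemidef := by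
    rw [← Matrix.diagonal_single]
    apply PosSemidef.diagonal
    intro i
    by_cases hi : i = ib
    · subst hi; simpa using hs0
    · simp [hi]
  have hDD : Matrix.single ib ib s * Matrix.single ib ib s = Zc (mat r g 0 a b) (mat r h 0 b c) := by
    rw [hZ, Matrix.single_mul_single_same]
  have hval : Ept r g h 0 a b c = s ^ 3 := by
    unfold Ept
    rw [E32_eq_of_root hD hDD]
    simp only [rtr]
    rw [Matrix.single_mul_single_same, Matrix.single_mul_single_same, Matrix.trace_single_eq_same]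
    simp
    ring
  rw [hval]
  apply pow_three_half_le (abs_nonneg _) (abs_nonneg _)
  rw [sq_abs, sq_abs, ← hss]
  ring

/-- `n ↦ n ^^^ a` permutes `range (2^r)`. -/
lemma sum_range_xor (g : ℕ → ℝ) (r a : ℕ) (ha : a < 2 ^ r) :
    ∑ n ∈ Finset.range (2 ^ r), g (n ^^^ a) = ∑ n ∈ Finset.range (2 ^ r), g n := by
  apply Finset.sum_nbij' (fun n => n ^^^ a) (fun n => n ^^^ a)
  · intro n hn
    exact Finset.mem_range.2 (Nat.xor_lt_two_pow (Finset.mem_range.1 hn) ha)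
  · intro n hn
    exact Finset.mem_range.2 (Nat.xor_lt_two_pow (Finset.mem_range.1 hn) ha)
  · intro n _
    simp
  · intro n _
    simp
  · intro n _
    rfl

lemma sum_range_xor' (g : ℕ → ℝ) (r a : ℕ) (ha : a < 2 ^ r) :
    ∑ n ∈ Finset.range (2 ^ r), g (a ^^^ n) = ∑ n ∈ Finset.range (2 ^ r), g n := by
  simp only [Nat.xor_comm a]
  exact sum_range_xor g r a ha

/-- The final energy is bounded by the masses. -/
lemma Phi_final (r : ℕ) (f0 f1 f2 : ℕ → ℕ → ℝ) :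
    Phi r f0 f1 f2 r ≤ 4 * (M r f0 + M r f1 + M r f2) := by
  unfold Phi M
  simp only [Nat.sub_self]
  have hW : ∀ n0 ∈ Finset.range (2 ^ r), ∀ n1 ∈ Finset.range (2 ^ r),
      ((4 : ℝ) ^ r)⁻¹ * Wpt r f0 f1 f2 0 n0 n1 (n0 ^^^ n1) ≤
        4 * ((4 : ℝ) ^ r)⁻¹ * (|f0 n0 n1| ^ 3 + |f1 n1 (n0 ^^^ n1)| ^ 3 +
          |f2 (n0 ^^^ n1) n0| ^ 3) := by
    intro n0 h0 n1 h1
    have h0' := Finset.mem_range.1 h0
    have h1' := Finset.mem_range.1 h1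
    have h2' : n0 ^^^ n1 < 2 ^ r := Nat.xor_lt_two_pow h0' h1'
    have e1 := Ept_zero_le r f0 f1 n0 n1 (n0 ^^^ n1) h0' h1' h2'
    have e2 := Ept_zero_le r f1 f2 n1 (n0 ^^^ n1) n0 h1' h2' h0'
    have e3 := Ept_zero_le r f2 f0 (n0 ^^^ n1) n0 n1 h2' h0' h1'
    have hp : (0 : ℝ) ≤ ((4 : ℝ) ^ r)⁻¹ := by positivity
    unfold Wpt
    nlinarith
  refine (Finset.sum_le_sum fun n0 h0 => Finset.sum_le_sum fun n1 h1 => hW n0 h0 n1 h1).trans ?_
  simp only [mul_add, Finset.sum_add_distrib, ← Finset.mul_sum]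
  have s1 : ∑ n0 ∈ Finset.range (2 ^ r), ∑ n1 ∈ Finset.range (2 ^ r), |f1 n1 (n0 ^^^ n1)| ^ 3 =
      ∑ x ∈ Finset.range (2 ^ r), ∑ y ∈ Finset.range (2 ^ r), |f1 x y| ^ 3 := by
    rw [Finset.sum_comm]
    apply Finset.sum_congr rfl
    intro n1 h1
    exact sum_range_xor (fun y => |f1 n1 y| ^ 3) r n1 (Finset.mem_range.1 h1)
  have s2 : ∑ n0 ∈ Finset.range (2 ^ r), ∑ n1 ∈ Finset.range (2 ^ r), |f2 (n0 ^^^ n1) n0| ^ 3 =
      ∑ x ∈ Finset.range (2 ^ r), ∑ y ∈ Finset.range (2 ^ r), |f2 x y| ^ 3 := by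
    rw [Finset.sum_comm (s := Finset.range (2 ^ r)) (t := Finset.range (2 ^ r))
      (f := fun x y => |f2 x y| ^ 3)]
    apply Finset.sum_congr rfl
    intro n0 h0
    exact sum_range_xor' (fun x => |f2 x n0| ^ 3) r n0 (Finset.mem_range.1 h0)
  rw [s1, s2]
  apply le_of_eq
  ring

/-! ### The main theorem, from the local inequality -/

/-- The local inequality on matrices. -/
def LocalIneq (K : ℝ) : Prop :=
  ∀ (N : ℕ) (A0 A1 A2 : Matrix (Fin N) (Fin N) ℝ) (d0 d1 d2 : Fin N → ℝ),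
    (∀ x, |d0 x| ≤ 1) → (∀ x, |d1 x| ≤ 1) → (∀ x, |d2 x| ≤ 1) →
    |trace (A0 * diagonal d1 * A1 * diagonal d2 * A2 * diagonal d0)| ≤
      K * (gapF A0 A1 d1 + gapF A1 A2 d2 + gapF A2 A0 d0)

/-- `DiscreteBound` from the local inequality. -/
theorem discreteBound_of_local {K : ℝ} (hK : 0 ≤ K) (hL : LocalIneq K) :
    DiscreteBound (4 * K) := by
  intro r f0 f1 f2
  have hterm : ∀ l ∈ Finset.range r, ∀ n0 ∈ Finset.range (2 ^ l), ∀ n1 ∈ Finset.range (2 ^ l),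
      ((4 : ℝ) ^ l)⁻¹ * |H (r - l) n0 n1 (n0 ^^^ n1) f0 f1 f2| ≤
        K * (((4 : ℝ) ^ l)⁻¹ * Vpt r f0 f1 f2 (r - l) n0 n1 (n0 ^^^ n1)) := by
    intro l hl n0 h0 n1 h1
    have hl' : l < r := Finset.mem_range.1 hl
    have h0' := Finset.mem_range.1 h0
    have h1' := Finset.mem_range.1 h1
    have e : r - (r - l) = l := by omega
    have hH := H_eq_trace r f0 f1 f2 (r - l) n0 n1 (n0 ^^^ n1) (by omega) (by rw [e]; exact h0')
      (by rw [e]; exact h1') (by rw [e]; exact Nat.xor_lt_two_pow h0' h1')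
    have hloc := hL (2 ^ r) (mat r f0 (r - l) n0 n1) (mat r f1 (r - l) n1 (n0 ^^^ n1))
      (mat r f2 (r - l) (n0 ^^^ n1) n0) (sg r (r - l) n0) (sg r (r - l) n1)
      (sg r (r - l) (n0 ^^^ n1)) (abs_sg_le _ _ _) (abs_sg_le _ _ _) (abs_sg_le _ _ _)
    rw [hH]
    have hp : (0 : ℝ) ≤ ((4 : ℝ) ^ l)⁻¹ := by positivity
    unfold Vpt Gpt
    calc _ ≤ ((4 : ℝ) ^ l)⁻¹ * _ := mul_le_mul_of_nonneg_left hloc hp
      _ = _ := by ring
  calc ∑ l ∈ Finset.range r, ∑ n0 ∈ Finset.range (2 ^ l), ∑ n1 ∈ Finset.range (2 ^ l),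
        ((4 : ℝ) ^ l)⁻¹ * |H (r - l) n0 n1 (n0 ^^^ n1) f0 f1 f2|
      ≤ ∑ l ∈ Finset.range r, ∑ n0 ∈ Finset.range (2 ^ l), ∑ n1 ∈ Finset.range (2 ^ l),
        K * (((4 : ℝ) ^ l)⁻¹ * Vpt r f0 f1 f2 (r - l) n0 n1 (n0 ^^^ n1)) :=
        Finset.sum_le_sum fun l hl => Finset.sum_le_sum fun n0 h0 => Finset.sum_le_sum fun n1 h1 =>
          hterm l hl n0 h0 n1 h1
    _ = K * ∑ l ∈ Finset.range r, ∑ n0 ∈ Finset.range (2 ^ l), ∑ n1 ∈ Finset.range (2 ^ l),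
        ((4 : ℝ) ^ l)⁻¹ * Vpt r f0 f1 f2 (r - l) n0 n1 (n0 ^^^ n1) := by
        simp only [Finset.mul_sum]
    _ ≤ K * Phi r f0 f1 f2 r := mul_le_mul_of_nonneg_left (sum_Vpt_le r f0 f1 f2) hK
    _ ≤ K * (4 * (M r f0 + M r f1 + M r f2)) :=
        mul_le_mul_of_nonneg_left (Phi_final r f0 f1 f2) hK
    _ = 4 * K * (M r f0 + M r f1 + M r f2) := by ring

end Tree

end Crest.Agent.TriH
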