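import Mathlib
import Crest.Agent.TriH.Tree
import Crest.Agent.TriH.Gap

/-!
# The local inequality (`LocalIneq (4/3)`), hence `DiscreteBound (16/3)`
-/

set_option autoImplicit false
set_option linter.unusedSectionVars false

namespace Crest.Agent.TriH

open Matrix

variable {ι : Type*} [Fintype ι] [DecidableEq ι]

lemma Fc_eq_colOp (A B : Matrix ι ι ℝ) : Fc A B = (colOp A B)ᴴ := by
  unfold Fc colOp
  rw [conjTranspose_fromCols_eq_fromRows_conjTranspose, conjTranspose_conjTranspose]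

lemma Ee_one_eq (d : ι → ℝ) : Ee 1 d = 1 + diagonal d := by
  rw [Ee_eq, one_smul]

lemma Ee_neg_one_eq (d : ι → ℝ) : Ee (-1) d = 1 - diagonal d := by
  rw [Ee_eq, neg_smul, one_smul, sub_eq_add_neg]

lemma diag_pm_psd (d : ι → ℝ) (h : ∀ x, |d x| ≤ 1) :
    (1 + diagonal d : Matrix ι ι ℝ).PosSemidef ∧ (1 - diagonal d : Matrix ι ι ℝ).PosSemidef := by
  constructor
  · rw [← Ee_one_eq]
    apply PosSemidef.diagonal
    intro i
    have := abs_le.1 (h i)
    show (0 : ℝ) ≤ 1 + 1 * d i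
    linarith
  · rw [← Ee_neg_one_eq]
    apply PosSemidef.diagonal
    intro i
    have := abs_le.1 (h i)
    show (0 : ℝ) ≤ 1 + (-1) * d i
    linarith

lemma diag_contr (d : ι → ℝ) (h : ∀ x, |d x| ≤ 1) :
    (1 - (diagonal d)ᴴ * diagonal d : Matrix ι ι ℝ).PosSemidef := by
  have e : (1 - (diagonal d)ᴴ * diagonal d : Matrix ι ι ℝ) = diagonal (fun x => 1 - d x * d x) := by
    rw [diagonal_conjTranspose, diagonal_mul_diagonal]
    ext i j
    by_cases hij : i = j
    · subst hij; simp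
    · simp [hij]
  rw [e]
  apply PosSemidef.diagonal
  intro i
  have := abs_le.1 (h i)
  show (0 : ℝ) ≤ 1 - d i * d i
  nlinarith

/-- The pair functional is controlled by the gap. -/
lemma pairS_le_gap (A B : Matrix ι ι ℝ) (d : ι → ℝ) (h : ∀ x, |d x| ≤ 1) :
    (3 / 4) * pairS A B (diagonal d) ≤ gapF A B d := by
  obtain ⟨hp, hm⟩ := diag_pm_psd d h
  have g := gap_pair (A := A) (B := B) (D := diagonal d) hp hm
  have e0 : E32 ((colOp A B)ᴴ * colOp A B) = E32 (Zc A B) := E32_base A B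
  have e1 : (colOp A B)ᴴ * ((1 + diagonal d) * colOp A B) = Fc A B * Ee 1 d * (Fc A B)ᴴ := by
    rw [Fc_eq_colOp, conjTranspose_conjTranspose, Ee_one_eq, Matrix.mul_assoc]
  have e2 : (colOp A B)ᴴ * ((1 - diagonal d) * colOp A B) = Fc A B * Ee (-1) d * (Fc A B)ᴴ := by
    rw [Fc_eq_colOp, conjTranspose_conjTranspose, Ee_neg_one_eq, Matrix.mul_assoc]
  rw [e0, e1, e2] at g
  unfold gapF
  linarith

/-- **The local inequality.** -/
theorem localIneq : LocalIneq (4 / 3) := by
  intro N A0 A1 A2 d0 d1 d2 h0 h1 h2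
  have hA := lemmaA_matrix A0 A1 A2 (diagonal d0) (diagonal d1) (diagonal d2)
    (diag_contr d0 h0) (diag_contr d1 h1) (diag_contr d2 h2)
  rw [Real.norm_eq_abs] at hA
  have k1 := pairS_le_gap A0 A1 d1 h1
  have k2 := pairS_le_gap A1 A2 d2 h2
  have k0 := pairS_le_gap A2 A0 d0 h0
  linarith

/-- The discrete form of S0097. -/
theorem discreteBound : DiscreteBound (16 / 3) := by
  have := discreteBound_of_local (K := 4 / 3) (by norm_num) localIneq
  have e : (4 : ℝ) * (4 / 3) = 16 / 3 := by norm_num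
  rwa [e] at this

end Crest.Agent.TriH
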