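import Mathlib

/-!
# Lemma A of the S_3 Bellman proof for the triangular Hilbert form (abstract, SVD coordinates)

`phi a b = a²b²/(a+b)`.  For nonnegative weights `a,b,c` and contractions `X,Y,Z`,
`‖∑ a_i b_j c_k X_ij Y_jk Z_ki‖ ≤ ∑ φ(a_i,b_j)|X_ij|² + ∑ φ(b_j,c_k)|Y_jk|² + ∑ φ(c_k,a_i)|Z_ki|²`.
-/

namespace Crest.Agent.TriH

open Finset

/-- `φ(a,b)=a²b²/(a+b)`, `φ(0,0)=0` by Lean's convention. -/
noncomputable def phi (a b : ℝ) : ℝ := a ^ 2 * b ^ 2 / (a + b)

lemma phi_comm (a b : ℝ) : phi a b = phi b a := by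
  unfold phi; rw [add_comm, mul_comm]

lemma phi_nonneg {a b : ℝ} (ha : 0 ≤ a) (hb : 0 ≤ b) : 0 ≤ phi a b := by
  unfold phi; positivity

/-- `t u² / 2 ≤ φ(t,u)` when `0 ≤ u ≤ t`. -/
lemma half_le_phi {t u : ℝ} (hu : 0 ≤ u) (hut : u ≤ t) : t * u ^ 2 / 2 ≤ phi t u := by
  unfold phi
  rcases eq_or_lt_of_le (add_nonneg (hu.trans hut) hu) with h | h
  · have ht0 : t = 0 := by nlinarith
    have hu0 : u = 0 := by nlinarith
    simp [ht0, hu0]
  · rw [le_div_iff₀ h]
    have : 0 ≤ t * u ^ 2 * (t - u) := by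
      apply mul_nonneg (mul_nonneg (hu.trans hut) (sq_nonneg u)); linarith
    nlinarith

variable {𝕜 : Type*} [RCLike 𝕜] {I J K : Type*} [Fintype I] [Fintype J] [Fintype K]

/-- A matrix is a contraction in the bilinear-form sense. -/
def IsContr (Y : Matrix J K 𝕜) : Prop :=
  ∀ (p : J → 𝕜) (q : K → 𝕜),
    ‖∑ j, ∑ k, p j * Y j k * q k‖ ^ 2 ≤ (∑ j, ‖p j‖ ^ 2) * (∑ k, ‖q k‖ ^ 2)

/-- One region of the splitting: the top index is fixed with weight `t`. -/
lemma region_bound (Y : Matrix J K 𝕜) (hY : IsContr Y) {t : ℝ} (ht : 0 ≤ t)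
    (u : J → ℝ) (v : K → ℝ) (hu : ∀ j, 0 ≤ u j) (hv : ∀ k, 0 ≤ v k)
    (Js : Finset J) (Ks : Finset K) (hJs : ∀ j ∈ Js, u j ≤ t) (hKs : ∀ k ∈ Ks, v k ≤ t)
    (P : J → 𝕜) (Q : K → 𝕜) :
    t * ‖∑ j ∈ Js, ∑ k ∈ Ks, ((u j * v k : ℝ) : 𝕜) * P j * Y j k * Q k‖ ≤
      ∑ j ∈ Js, phi t (u j) * ‖P j‖ ^ 2 + ∑ k ∈ Ks, phi t (v k) * ‖Q k‖ ^ 2 := by
  classical
  set p : J → 𝕜 := fun j => if j ∈ Js then ((u j : ℝ) : 𝕜) * P j else 0 with hp
  set q : K → 𝕜 := fun k => if k ∈ Ks then ((v k : ℝ) : 𝕜) * Q k else 0 with hq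
  have hsum : ∑ j ∈ Js, ∑ k ∈ Ks, ((u j * v k : ℝ) : 𝕜) * P j * Y j k * Q k =
      ∑ j, ∑ k, p j * Y j k * q k := by
    rw [← Finset.sum_subset (Finset.subset_univ Js)]
    · apply Finset.sum_congr rfl
      intro j hj
      rw [← Finset.sum_subset (Finset.subset_univ Ks)]
      · apply Finset.sum_congr rfl
        intro k hk
        simp only [hp, hq, if_pos hj, if_pos hk]
        push_cast
        ring
      · intro k _ hk
        simp [hq, hk]
    · intro j _ hj
      simp [hp, hj]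
  have hP : ∑ j, ‖p j‖ ^ 2 = ∑ j ∈ Js, (u j) ^ 2 * ‖P j‖ ^ 2 := by
    rw [← Finset.sum_subset (Finset.subset_univ Js)]
    · apply Finset.sum_congr rfl
      intro j hj
      simp only [hp, if_pos hj, norm_mul, RCLike.norm_ofReal, abs_of_nonneg (hu j)]
      ring
    · intro j _ hj
      simp [hp, hj]
  have hQ : ∑ k, ‖q k‖ ^ 2 = ∑ k ∈ Ks, (v k) ^ 2 * ‖Q k‖ ^ 2 := by
    rw [← Finset.sum_subset (Finset.subset_univ Ks)]
    · apply Finset.sum_congr rfl
      intro k hk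
      simp only [hq, if_pos hk, norm_mul, RCLike.norm_ofReal, abs_of_nonneg (hv k)]
      ring
    · intro k _ hk
      simp [hq, hk]
  set A := ∑ j, ‖p j‖ ^ 2 with hA
  set B := ∑ k, ‖q k‖ ^ 2 with hB
  have hA0 : 0 ≤ A := Finset.sum_nonneg (fun _ _ => by positivity)
  have hB0 : 0 ≤ B := Finset.sum_nonneg (fun _ _ => by positivity)
  have hmain : ‖∑ j, ∑ k, p j * Y j k * q k‖ ≤ (A + B) / 2 := by
    have h1 := hY p q
    have h2 : ‖∑ j, ∑ k, p j * Y j k * q k‖ ^ 2 ≤ ((A + B) / 2) ^ 2 := by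
      refine h1.trans ?_
      nlinarith [sq_nonneg (A - B)]
    exact abs_le_of_sq_le_sq' h2 (by positivity) |>.2
  rw [hsum]
  have hstep : t * ‖∑ j, ∑ k, p j * Y j k * q k‖ ≤ t * A / 2 + t * B / 2 := by
    have := mul_le_mul_of_nonneg_left hmain ht
    linarith
  refine hstep.trans ?_
  apply add_le_add
  · rw [hP, Finset.mul_sum, Finset.sum_div]
    apply Finset.sum_le_sum
    intro j hj
    have := half_le_phi (hu j) (hJs j hj)
    have hn : 0 ≤ ‖P j‖ ^ 2 := by positivity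
    nlinarith [mul_le_mul_of_nonneg_right this hn]
  · rw [hQ, Finset.mul_sum, Finset.sum_div]
    apply Finset.sum_le_sum
    intro k hk
    have := half_le_phi (hv k) (hKs k hk)
    have hn : 0 ≤ ‖Q k‖ ^ 2 := by positivity
    nlinarith [mul_le_mul_of_nonneg_right this hn]


omit [Fintype I] [Fintype J] [Fintype K] in
lemma sum_filter2 {α β : Type*} {E : Type*} [AddCommMonoid E] [Fintype α] [Fintype β]
    (p : α → Prop) (q : β → Prop) [DecidablePred p] [DecidablePred q] (f : α → β → E) :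
    ∑ x ∈ univ.filter p, ∑ y ∈ univ.filter q, f x y =
      ∑ x, ∑ y, if p x ∧ q y then f x y else 0 := by
  rw [Finset.sum_filter]
  apply sum_congr rfl
  intro x _
  by_cases hp : p x
  · simp [hp, Finset.sum_filter]
  · simp [hp]

/-- **Lemma A, SVD coordinates.** -/
theorem lemmaA_core (a : I → ℝ) (b : J → ℝ) (c : K → ℝ)
    (ha : ∀ i, 0 ≤ a i) (hb : ∀ j, 0 ≤ b j) (hc : ∀ k, 0 ≤ c k)
    (X : Matrix I J 𝕜) (Y : Matrix J K 𝕜) (Z : Matrix K I 𝕜)
    (hX : IsContr X) (hY : IsContr Y) (hZ : IsContr Z) :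
    ‖∑ i, ∑ j, ∑ k, ((a i * b j * c k : ℝ) : 𝕜) * X i j * Y j k * Z k i‖ ≤
      ∑ i, ∑ j, phi (a i) (b j) * ‖X i j‖ ^ 2 +
      ∑ j, ∑ k, phi (b j) (c k) * ‖Y j k‖ ^ 2 +
      ∑ k, ∑ i, phi (c k) (a i) * ‖Z k i‖ ^ 2 := by
  classical
  set g : I → J → K → 𝕜 := fun i j k => ((a i * b j * c k : ℝ) : 𝕜) * X i j * Y j k * Z k i with hg
  -- region a
  have Ra : ∀ i, ‖∑ j ∈ univ.filter (fun j => b j ≤ a i), ∑ k ∈ univ.filter (fun k => c k ≤ a i),
      g i j k‖ ≤ ∑ j ∈ univ.filter (fun j => b j ≤ a i), phi (a i) (b j) * ‖X i j‖ ^ 2 +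
        ∑ k ∈ univ.filter (fun k => c k ≤ a i), phi (a i) (c k) * ‖Z k i‖ ^ 2 := by
    intro i
    have := region_bound Y hY (ha i) b c hb hc (univ.filter (fun j => b j ≤ a i))
      (univ.filter (fun k => c k ≤ a i)) (fun j hj => (mem_filter.mp hj).2)
      (fun k hk => (mem_filter.mp hk).2) (fun j => X i j) (fun k => Z k i)
    have e : ∑ j ∈ univ.filter (fun j => b j ≤ a i), ∑ k ∈ univ.filter (fun k => c k ≤ a i),
        g i j k = ((a i : ℝ) : 𝕜) * ∑ j ∈ univ.filter (fun j => b j ≤ a i),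
          ∑ k ∈ univ.filter (fun k => c k ≤ a i),
            ((b j * c k : ℝ) : 𝕜) * X i j * Y j k * Z k i := by
      rw [Finset.mul_sum]; apply sum_congr rfl; intro j _
      rw [Finset.mul_sum]; apply sum_congr rfl; intro k _
      simp only [hg]; push_cast; ring
    rw [e, norm_mul, RCLike.norm_ofReal, abs_of_nonneg (ha i)]
    exact this
  -- region b
  have Rb : ∀ j, ‖∑ k ∈ univ.filter (fun k => c k ≤ b j), ∑ i ∈ univ.filter (fun i => a i < b j),
      g i j k‖ ≤ ∑ k ∈ univ.filter (fun k => c k ≤ b j), phi (b j) (c k) * ‖Y j k‖ ^ 2 +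
        ∑ i ∈ univ.filter (fun i => a i < b j), phi (b j) (a i) * ‖X i j‖ ^ 2 := by
    intro j
    have := region_bound Z hZ (hb j) c a hc ha (univ.filter (fun k => c k ≤ b j))
      (univ.filter (fun i => a i < b j)) (fun k hk => (mem_filter.mp hk).2)
      (fun i hi => (mem_filter.mp hi).2.le) (fun k => Y j k) (fun i => X i j)
    have e : ∑ k ∈ univ.filter (fun k => c k ≤ b j), ∑ i ∈ univ.filter (fun i => a i < b j),
        g i j k = ((b j : ℝ) : 𝕜) * ∑ k ∈ univ.filter (fun k => c k ≤ b j),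
          ∑ i ∈ univ.filter (fun i => a i < b j),
            ((c k * a i : ℝ) : 𝕜) * Y j k * Z k i * X i j := by
      rw [Finset.mul_sum]; apply sum_congr rfl; intro k _
      rw [Finset.mul_sum]; apply sum_congr rfl; intro i _
      simp only [hg]; push_cast; ring
    rw [e, norm_mul, RCLike.norm_ofReal, abs_of_nonneg (hb j)]
    exact this
  -- region c
  have Rc : ∀ k, ‖∑ i ∈ univ.filter (fun i => a i < c k), ∑ j ∈ univ.filter (fun j => b j < c k),
      g i j k‖ ≤ ∑ i ∈ univ.filter (fun i => a i < c k), phi (c k) (a i) * ‖Z k i‖ ^ 2 +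
        ∑ j ∈ univ.filter (fun j => b j < c k), phi (c k) (b j) * ‖Y j k‖ ^ 2 := by
    intro k
    have := region_bound X hX (hc k) a b ha hb (univ.filter (fun i => a i < c k))
      (univ.filter (fun j => b j < c k)) (fun i hi => (mem_filter.mp hi).2.le)
      (fun j hj => (mem_filter.mp hj).2.le) (fun i => Z k i) (fun j => Y j k)
    have e : ∑ i ∈ univ.filter (fun i => a i < c k), ∑ j ∈ univ.filter (fun j => b j < c k),
        g i j k = ((c k : ℝ) : 𝕜) * ∑ i ∈ univ.filter (fun i => a i < c k),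
          ∑ j ∈ univ.filter (fun j => b j < c k),
            ((a i * b j : ℝ) : 𝕜) * Z k i * X i j * Y j k := by
      rw [Finset.mul_sum]; apply sum_congr rfl; intro i _
      rw [Finset.mul_sum]; apply sum_congr rfl; intro j _
      simp only [hg]; push_cast; ring
    rw [e, norm_mul, RCLike.norm_ofReal, abs_of_nonneg (hc k)]
    exact this
  -- the splitting of the triple sum
  have split : ∑ i, ∑ j, ∑ k, g i j k =
      ∑ i, ∑ j ∈ univ.filter (fun j => b j ≤ a i), ∑ k ∈ univ.filter (fun k => c k ≤ a i), g i j k +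
      ∑ j, ∑ k ∈ univ.filter (fun k => c k ≤ b j), ∑ i ∈ univ.filter (fun i => a i < b j), g i j k +
      ∑ k, ∑ i ∈ univ.filter (fun i => a i < c k), ∑ j ∈ univ.filter (fun j => b j < c k), g i j k := by
    have e1 : ∑ i, ∑ j ∈ univ.filter (fun j => b j ≤ a i), ∑ k ∈ univ.filter (fun k => c k ≤ a i),
        g i j k = ∑ i, ∑ j, ∑ k, if b j ≤ a i ∧ c k ≤ a i then g i j k else 0 := by
      apply sum_congr rfl; intro i _; exact sum_filter2 _ _ _
    have e2 : ∑ j, ∑ k ∈ univ.filter (fun k => c k ≤ b j), ∑ i ∈ univ.filter (fun i => a i < b j),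
        g i j k = ∑ i, ∑ j, ∑ k, if c k ≤ b j ∧ a i < b j then g i j k else 0 := by
      have : ∀ j, ∑ k ∈ univ.filter (fun k => c k ≤ b j), ∑ i ∈ univ.filter (fun i => a i < b j),
          g i j k = ∑ k, ∑ i, if c k ≤ b j ∧ a i < b j then g i j k else 0 :=
        fun j => sum_filter2 _ _ _
      simp only [this]
      rw [Finset.sum_congr rfl (fun j _ => Finset.sum_comm), Finset.sum_comm]
    have e3 : ∑ k, ∑ i ∈ univ.filter (fun i => a i < c k), ∑ j ∈ univ.filter (fun j => b j < c k),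
        g i j k = ∑ i, ∑ j, ∑ k, if a i < c k ∧ b j < c k then g i j k else 0 := by
      have : ∀ k, ∑ i ∈ univ.filter (fun i => a i < c k), ∑ j ∈ univ.filter (fun j => b j < c k),
          g i j k = ∑ i, ∑ j, if a i < c k ∧ b j < c k then g i j k else 0 :=
        fun k => sum_filter2 _ _ _
      simp only [this]
      rw [Finset.sum_comm]
      apply sum_congr rfl; intro i _
      rw [Finset.sum_comm]
    rw [e1, e2, e3, ← Finset.sum_add_distrib, ← Finset.sum_add_distrib]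
    apply sum_congr rfl; intro i _
    rw [← Finset.sum_add_distrib, ← Finset.sum_add_distrib]
    apply sum_congr rfl; intro j _
    rw [← Finset.sum_add_distrib, ← Finset.sum_add_distrib]
    apply sum_congr rfl; intro k _
    by_cases h1 : b j ≤ a i
    · by_cases h2 : c k ≤ a i
      · have h3 : ¬ (c k ≤ b j ∧ a i < b j) := fun h => absurd h.2 (not_lt.mpr h1)
        have h4 : ¬ (a i < c k ∧ b j < c k) := fun h => absurd h.1 (not_lt.mpr h2)
        simp [h1, h2, h3, h4]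
      · have h2' : a i < c k := not_le.mp h2
        have h3 : ¬ (c k ≤ b j ∧ a i < b j) := fun h => absurd h.2 (not_lt.mpr h1)
        have h4 : a i < c k ∧ b j < c k := ⟨h2', lt_of_le_of_lt h1 h2'⟩
        simp [h1, h2, h3, h4]
    · have h1' : a i < b j := not_le.mp h1
      by_cases h2 : c k ≤ b j
      · have h4 : ¬ (a i < c k ∧ b j < c k) := fun h => absurd h.2 (not_lt.mpr h2)
        simp [h1, h2, h1', h4]
      · have h2' : b j < c k := not_le.mp h2
        simp [h1, h2, h1', h2', lt_trans h1' h2']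
  have e : ∑ i, ∑ j, ∑ k, ((a i * b j * c k : ℝ) : 𝕜) * X i j * Y j k * Z k i =
      ∑ i, ∑ j, ∑ k, g i j k := rfl
  rw [e, split]
  have tX : ∑ i, ∑ j ∈ univ.filter (fun j => b j ≤ a i), phi (a i) (b j) * ‖X i j‖ ^ 2 +
      ∑ j, ∑ i ∈ univ.filter (fun i => a i < b j), phi (b j) (a i) * ‖X i j‖ ^ 2 =
      ∑ i, ∑ j, phi (a i) (b j) * ‖X i j‖ ^ 2 := by
    simp only [Finset.sum_filter]
    rw [Finset.sum_comm (f := fun j i => if a i < b j then phi (b j) (a i) * ‖X i j‖ ^ 2 else 0),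
      ← Finset.sum_add_distrib]
    apply sum_congr rfl; intro i _
    rw [← Finset.sum_add_distrib]
    apply sum_congr rfl; intro j _
    by_cases h : b j ≤ a i
    · simp [h, not_lt.mpr h]
    · simp [h, not_le.mp h, phi_comm (b j) (a i)]
  have tY : ∑ j, ∑ k ∈ univ.filter (fun k => c k ≤ b j), phi (b j) (c k) * ‖Y j k‖ ^ 2 +
      ∑ k, ∑ j ∈ univ.filter (fun j => b j < c k), phi (c k) (b j) * ‖Y j k‖ ^ 2 =
      ∑ j, ∑ k, phi (b j) (c k) * ‖Y j k‖ ^ 2 := by
    simp only [Finset.sum_filter]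
    rw [Finset.sum_comm (f := fun k j => if b j < c k then phi (c k) (b j) * ‖Y j k‖ ^ 2 else 0),
      ← Finset.sum_add_distrib]
    apply sum_congr rfl; intro j _
    rw [← Finset.sum_add_distrib]
    apply sum_congr rfl; intro k _
    by_cases h : c k ≤ b j
    · simp [h, not_lt.mpr h]
    · simp [h, not_le.mp h, phi_comm (c k) (b j)]
  have tZ : ∑ i, ∑ k ∈ univ.filter (fun k => c k ≤ a i), phi (a i) (c k) * ‖Z k i‖ ^ 2 +
      ∑ k, ∑ i ∈ univ.filter (fun i => a i < c k), phi (c k) (a i) * ‖Z k i‖ ^ 2 =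
      ∑ k, ∑ i, phi (c k) (a i) * ‖Z k i‖ ^ 2 := by
    simp only [Finset.sum_filter]
    rw [Finset.sum_comm (f := fun i k => if c k ≤ a i then phi (a i) (c k) * ‖Z k i‖ ^ 2 else 0),
      ← Finset.sum_add_distrib]
    apply sum_congr rfl; intro k _
    rw [← Finset.sum_add_distrib]
    apply sum_congr rfl; intro i _
    by_cases h : c k ≤ a i
    · simp [h, not_lt.mpr h, phi_comm (a i) (c k)]
    · simp [h, not_le.mp h]
  have b1 := Finset.sum_le_sum (fun i (_ : i ∈ (univ : Finset I)) => Ra i)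
  have b2 := Finset.sum_le_sum (fun j (_ : j ∈ (univ : Finset J)) => Rb j)
  have b3 := Finset.sum_le_sum (fun k (_ : k ∈ (univ : Finset K)) => Rc k)
  simp only [Finset.sum_add_distrib] at b1 b2 b3
  have n1 := norm_sum_le (univ : Finset I) (fun i => ∑ j ∈ univ.filter (fun j => b j ≤ a i),
    ∑ k ∈ univ.filter (fun k => c k ≤ a i), g i j k)
  have n2 := norm_sum_le (univ : Finset J) (fun j => ∑ k ∈ univ.filter (fun k => c k ≤ b j),
    ∑ i ∈ univ.filter (fun i => a i < b j), g i j k)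
  have n3 := norm_sum_le (univ : Finset K) (fun k => ∑ i ∈ univ.filter (fun i => a i < c k),
    ∑ j ∈ univ.filter (fun j => b j < c k), g i j k)
  have n4 := norm_add₃_le (a := ∑ i, ∑ j ∈ univ.filter (fun j => b j ≤ a i),
    ∑ k ∈ univ.filter (fun k => c k ≤ a i), g i j k)
    (b := ∑ j, ∑ k ∈ univ.filter (fun k => c k ≤ b j),
      ∑ i ∈ univ.filter (fun i => a i < b j), g i j k)
    (c := ∑ k, ∑ i ∈ univ.filter (fun i => a i < c k),
      ∑ j ∈ univ.filter (fun j => b j < c k), g i j k)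
  linarith

end Crest.Agent.TriH
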