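import Mathlib

/-!
# The one dimensional Hardy--Littlewood maximal theorem at exponent 3/2

Mathlib has no maximal function. Proof: discrete rising sun lemma + Abel summation + Hoelder.
-/

set_option autoImplicit false

namespace Crest.Agent.TriH.MaxFn

open Finset
open scoped ENNReal

/-- Discrete rising sun lemma. -/
theorem rising_sun_aux (G : ℕ → ℝ) (N : ℕ) :
    ∀ d m, N - m = d → m ≤ N →
      0 ≤ ∑ n ∈ (Ico m N).filter (fun n => ∃ m' ∈ Ioc n N, G n ≤ G m'), (G (n + 1) - G n) := by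
  classical
  intro d
  induction d using Nat.strong_induction_on with
  | _ d ih =>
    intro m hd hm
    rcases Nat.eq_or_lt_of_le hm with rfl | hlt
    · simp
    by_cases hW : ∃ m' ∈ Ioc m N, G m ≤ G m'
    · -- the least witness
      have hW' : ∃ m', (m < m' ∧ m' ≤ N) ∧ G m ≤ G m' := by
        obtain ⟨m', hm', h⟩ := hW
        exact ⟨m', Finset.mem_Ioc.mp hm', h⟩
      let m' := Nat.find hW'
      obtain ⟨⟨h1, h2⟩, h3⟩ : (m < m' ∧ m' ≤ N) ∧ G m ≤ G m' := Nat.find_spec hW'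
      have hmin : ∀ i, m < i → i < m' → G i < G m := by
        intro i hi hi'
        have := Nat.find_min hW' hi'
        by_contra hc
        exact this ⟨⟨hi, by omega⟩, not_lt.mp hc⟩
      have hsplit : Ico m N = Ico m m' ∪ Ico m' N := by
        rw [Finset.Ico_union_Ico_eq_Ico h1.le h2]
      have hdisj : Disjoint (Ico m m') (Ico m' N) := by
        exact Finset.Ico_disjoint_Ico_consecutive m m' N
      rw [hsplit, Finset.filter_union, Finset.sum_union (Finset.disjoint_filter_filter hdisj)]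
      have hfirst : (Ico m m').filter (fun n => ∃ m'' ∈ Ioc n N, G n ≤ G m'') = Ico m m' := by
        apply Finset.filter_true_of_mem
        intro i hi
        have hi' := Finset.mem_Ico.mp hi
        refine ⟨m', Finset.mem_Ioc.mpr ⟨hi'.2, h2⟩, ?_⟩
        rcases Nat.eq_or_lt_of_le hi'.1 with rfl | hlt'
        · exact h3
        · exact ((hmin i hlt' hi'.2).le).trans h3
      rw [hfirst]
      have htel : ∑ n ∈ Ico m m', (G (n + 1) - G n) = G m' - G m :=
        Finset.sum_Ico_sub G h1.le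
      rw [htel]
      have := ih (N - m') (by omega) m' rfl h2
      linarith
    · have hsplit : Ico m N = insert m (Ico (m + 1) N) := by
        ext x; simp only [Finset.mem_Ico, Finset.mem_insert]; omega
      rw [hsplit, Finset.filter_insert, if_neg hW]
      exact ih (N - (m + 1)) (by omega) (m + 1) rfl (by omega)

theorem rising_sun (G : ℕ → ℝ) (N : ℕ) :
    0 ≤ ∑ n ∈ (range N).filter (fun n => ∃ m ∈ Ioc n N, G n ≤ G m), (G (n + 1) - G n) := by
  have := rising_sun_aux G N (N - 0) 0 rfl (Nat.zero_le _)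
  rwa [← Finset.range_eq_Ico] at this


/-- The pointwise inequality behind Abel summation (Bernoulli). -/
theorem rpow_diff_le {p : ℝ} (hp : 1 < p) {u v : ℝ} (hu : 0 ≤ u) (huv : u < v) :
    v ^ p - u ^ p ≤ (p / (p - 1)) * (v ^ (p - 1) - u ^ (p - 1)) * v := by
  have hv : 0 < v := lt_of_le_of_lt hu huv
  have hq : 0 < p - 1 := by linarith
  set q := p - 1 with hqdef
  have hpq : 1 ≤ p / q := by
    rw [le_div_iff₀ hq]; linarith
  set r := u / v with hr
  have hr0 : 0 ≤ r := div_nonneg hu hv.le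
  have hr1 : r ≤ 1 := (div_le_one hv).mpr huv.le
  set s := r ^ q with hs
  have hs0 : 0 ≤ s := Real.rpow_nonneg hr0 _
  have hB := one_add_mul_self_le_rpow_one_add (s := s - 1) (by linarith) hpq
  have e1 : (1 + (s - 1)) = s := by ring
  rw [e1] at hB
  have e2 : s ^ (p / q) = r ^ p := by
    rw [hs, ← Real.rpow_mul hr0]
    congr 1
    field_simp
  rw [e2] at hB
  have hu' : u = r * v := by rw [hr]; field_simp
  have hup : u ^ p = r ^ p * v ^ p := by rw [hu', Real.mul_rpow hr0 hv.le]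
  have huq : u ^ q = s * v ^ q := by rw [hu', Real.mul_rpow hr0 hv.le]
  have hvp : v ^ p = v ^ q * v := by
    rw [← Real.rpow_add_one hv.ne']
    congr 1
    rw [hqdef]; ring
  rw [hup, huq]
  have hvp0 : 0 ≤ v ^ p := Real.rpow_nonneg hv.le _
  have : v ^ p * (1 + p / q * (s - 1)) ≤ v ^ p * r ^ p := mul_le_mul_of_nonneg_left hB hvp0
  have e3 : p / q * (v ^ q - s * v ^ q) * v = v ^ p * (p / q * (1 - s)) := by
    rw [hvp]; ring
  rw [e3]
  nlinarith

/-- Abel summation: weak inequality on all superlevel sets gives the `L^p` estimate. -/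
theorem abel_rpow {ι : Type*} [DecidableEq ι] {p : ℝ} (hp : 1 < p) (s : Finset ι) (a f : ι → ℝ) :
    ∀ v₀ : ℝ, 0 ≤ v₀ → (∀ n ∈ s, v₀ < a n) →
      (∀ v, v₀ < v → v * ((s.filter (fun n => v ≤ a n)).card : ℝ) ≤
        ∑ n ∈ s.filter (fun n => v ≤ a n), f n) →
      ∑ n ∈ s, (a n ^ p - v₀ ^ p) ≤
        (p / (p - 1)) * ∑ n ∈ s, f n * (a n ^ (p - 1) - v₀ ^ (p - 1)) := by
  induction s using Finset.strongInduction with
  | H s ih =>
    intro v₀ hv₀ ha hw
    rcases s.eq_empty_or_nonempty with rfl | hs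
    · simp
    obtain ⟨n₀, hn₀, hmin⟩ := Finset.exists_min_image s a hs
    set v := a n₀ with hv
    have hvv₀ : v₀ < v := ha n₀ hn₀
    have hv0 : 0 ≤ v := hv₀.trans hvv₀.le
    set s' := s.filter (fun n => v < a n) with hs'
    have hss' : s' ⊂ s := by
      refine Finset.filter_ssubset.mpr ⟨n₀, hn₀, ?_⟩
      simp [hv]
    have hIH := ih s' hss' v hv0 (fun n hn => (Finset.mem_filter.mp hn).2) (by
      intro w hw'
      have heq : s'.filter (fun n => w ≤ a n) = s.filter (fun n => w ≤ a n) := by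
        ext n
        simp only [hs', Finset.mem_filter]
        constructor
        · rintro ⟨⟨h1, _⟩, h3⟩; exact ⟨h1, h3⟩
        · rintro ⟨h1, h3⟩; exact ⟨⟨h1, lt_of_lt_of_le hw' h3⟩, h3⟩
      rw [heq]
      exact hw w (hvv₀.trans hw'))
    have hall : s.filter (fun n => v ≤ a n) = s := by
      apply Finset.filter_true_of_mem
      intro n hn
      exact hmin n hn
    have hwv := hw v hvv₀
    rw [hall] at hwv
    -- split the two sums
    have hsum1 : ∑ n ∈ s, (a n ^ p - v ^ p) = ∑ n ∈ s', (a n ^ p - v ^ p) := by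
      symm
      apply Finset.sum_subset (Finset.filter_subset _ _)
      intro n hn hn'
      have : a n = v := by
        by_contra hne
        exact hn' (Finset.mem_filter.mpr ⟨hn, lt_of_le_of_ne (hmin n hn) (Ne.symm hne)⟩)
      rw [this]; ring
    have hsum2 : ∑ n ∈ s, f n * (a n ^ (p - 1) - v ^ (p - 1)) =
        ∑ n ∈ s', f n * (a n ^ (p - 1) - v ^ (p - 1)) := by
      symm
      apply Finset.sum_subset (Finset.filter_subset _ _)
      intro n hn hn'
      have : a n = v := by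
        by_contra hne
        exact hn' (Finset.mem_filter.mpr ⟨hn, lt_of_le_of_ne (hmin n hn) (Ne.symm hne)⟩)
      rw [this]; ring
    have e1 : ∑ n ∈ s, (a n ^ p - v₀ ^ p) =
        ∑ n ∈ s, (a n ^ p - v ^ p) + (s.card : ℝ) * (v ^ p - v₀ ^ p) := by
      rw [← nsmul_eq_mul, ← Finset.sum_const, ← Finset.sum_add_distrib]
      apply Finset.sum_congr rfl
      intros; ring
    have e2 : ∑ n ∈ s, f n * (a n ^ (p - 1) - v₀ ^ (p - 1)) =
        ∑ n ∈ s, f n * (a n ^ (p - 1) - v ^ (p - 1)) +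
          (∑ n ∈ s, f n) * (v ^ (p - 1) - v₀ ^ (p - 1)) := by
      rw [Finset.sum_mul, ← Finset.sum_add_distrib]
      apply Finset.sum_congr rfl
      intros; ring
    rw [e1, e2, hsum1, hsum2]
    have hq : 0 < p - 1 := by linarith
    have hc : 0 < p / (p - 1) := div_pos (by linarith) hq
    have ht : v₀ ^ (p - 1) ≤ v ^ (p - 1) := Real.rpow_le_rpow hv₀ hvv₀.le hq.le
    have hkey := rpow_diff_le hp hv₀ hvv₀
    have hcard : (0 : ℝ) ≤ (s.card : ℝ) := by positivity
    have h4 : (s.card : ℝ) * (v ^ p - v₀ ^ p) ≤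
        (s.card : ℝ) * ((p / (p - 1)) * (v ^ (p - 1) - v₀ ^ (p - 1)) * v) :=
      mul_le_mul_of_nonneg_left hkey hcard
    have h5 : v * (s.card : ℝ) * ((p / (p - 1)) * (v ^ (p - 1) - v₀ ^ (p - 1))) ≤
        (∑ n ∈ s, f n) * ((p / (p - 1)) * (v ^ (p - 1) - v₀ ^ (p - 1))) :=
      mul_le_mul_of_nonneg_right hwv (mul_nonneg hc.le (by linarith))
    have h3 : (s.card : ℝ) * (v ^ p - v₀ ^ p) ≤
        (p / (p - 1)) * ((∑ n ∈ s, f n) * (v ^ (p - 1) - v₀ ^ (p - 1))) := by
      nlinarith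
    rw [mul_add]
    linarith

/-- Forward average of `f` over `[n, m)`. -/
noncomputable def avgF (f : ℕ → ℝ) (n m : ℕ) : ℝ := (∑ k ∈ Ico n m, f k) / ((m : ℝ) - n)

/-- Finite horizon forward maximal function. -/
noncomputable def amax (f : ℕ → ℝ) (N n : ℕ) : ℝ :=
  if h : n < N then (Ioc n N).sup' (by simpa using h) (fun m => avgF f n m) else 0

theorem le_amax_iff (f : ℕ → ℝ) {N n : ℕ} (h : n < N) (v : ℝ) :
    v ≤ amax f N n ↔ ∃ m ∈ Ioc n N, v ≤ avgF f n m := by
  unfold amax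
  rw [dif_pos h, Finset.le_sup'_iff]

theorem avgF_le_amax (f : ℕ → ℝ) {N n m : ℕ} (h : n < m) (h' : m ≤ N) :
    avgF f n m ≤ amax f N n :=
  (le_amax_iff f (lt_of_lt_of_le h h') _).mpr ⟨m, Finset.mem_Ioc.mpr ⟨h, h'⟩, le_rfl⟩

theorem amax_nonneg (f : ℕ → ℝ) (hf : ∀ k, 0 ≤ f k) (N n : ℕ) : 0 ≤ amax f N n := by
  by_cases h : n < N
  · refine (le_amax_iff f h 0).mpr ⟨n + 1, Finset.mem_Ioc.mpr ⟨by omega, by omega⟩, ?_⟩
    unfold avgF
    apply div_nonneg (Finset.sum_nonneg fun k _ => hf k)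
    push_cast; linarith
  · simp [amax, h]

/-- The weak inequality on superlevel sets. -/
theorem weak_amax (f : ℕ → ℝ) (N : ℕ) (v : ℝ) :
    v * (((range N).filter (fun n => v ≤ amax f N n)).card : ℝ) ≤
      ∑ n ∈ (range N).filter (fun n => v ≤ amax f N n), f n := by
  classical
  let G : ℕ → ℝ := fun m => ∑ k ∈ range m, (f k - v)
  have hG : ∀ n m, n ≤ m → G m - G n = (∑ k ∈ Ico n m, f k) - ((m : ℝ) - n) * v := by
    intro n m hnm
    have h1 : G m - G n = ∑ k ∈ Ico n m, (f k - v) := by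
      simp only [G]
      rw [Finset.sum_Ico_eq_sub _ hnm]
    rw [h1, Finset.sum_sub_distrib, Finset.sum_const, Nat.card_Ico, nsmul_eq_mul,
      Nat.cast_sub hnm]
  have hfilter : (range N).filter (fun n => v ≤ amax f N n) =
      (range N).filter (fun n => ∃ m ∈ Ioc n N, G n ≤ G m) := by
    apply Finset.filter_congr
    intro n hn
    have hn' : n < N := Finset.mem_range.mp hn
    rw [le_amax_iff f hn']
    constructor
    · rintro ⟨m, hm, hv⟩
      refine ⟨m, hm, ?_⟩
      have hm' := Finset.mem_Ioc.mp hm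
      have hpos : (0 : ℝ) < (m : ℝ) - n := by
        have : (n : ℝ) < m := by exact_mod_cast hm'.1
        linarith
      have := hG n m hm'.1.le
      unfold avgF at hv
      rw [le_div_iff₀ hpos] at hv
      nlinarith
    · rintro ⟨m, hm, hv⟩
      refine ⟨m, hm, ?_⟩
      have hm' := Finset.mem_Ioc.mp hm
      have hpos : (0 : ℝ) < (m : ℝ) - n := by
        have : (n : ℝ) < m := by exact_mod_cast hm'.1
        linarith
      have := hG n m hm'.1.le
      unfold avgF
      rw [le_div_iff₀ hpos]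
      nlinarith
  have hrs := rising_sun G N
  rw [← hfilter] at hrs
  have hstep : ∀ n, G (n + 1) - G n = f n - v := by
    intro n
    simp only [G]
    rw [Finset.sum_range_succ]; ring
  simp only [hstep] at hrs
  rw [Finset.sum_sub_distrib, Finset.sum_const, nsmul_eq_mul] at hrs
  linarith

/-- The constant of the forward maximal theorem. -/
noncomputable def cF (p : ℝ) : ℝ := 2 ^ p / (p - 1)

theorem cF_pos {p : ℝ} (hp : 1 < p) : 0 < cF p :=
  div_pos (Real.rpow_pos_of_pos (by norm_num) _) (by linarith)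

/-- Young in the form used for absorption. -/
theorem young_absorb {p : ℝ} (hp : 1 < p) {x y : ℝ} (hx : 0 ≤ x) (hy : 0 ≤ y) :
    (p / (p - 1)) * (x * y ^ (p - 1)) ≤ cF p / 2 * x ^ p + y ^ p / 2 := by
  have hq : 0 < p - 1 := by linarith
  set q := p - 1 with hqdef
  have hp0 : 0 < p := by linarith
  -- conjugate exponents p and p/q
  have hpq : (p).HolderConjugate (p / q) := by
    refine ⟨?_, ?_, ?_⟩
    · rw [inv_eq_one_div, inv_eq_one_div]
      field_simp
      rw [hqdef]; ring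
    · exact hp0
    · exact div_pos hp0 hq
  -- κ with κ^(p/q) = 2
  set κ : ℝ := (2 : ℝ) ^ (q / p) with hκ
  have hκ0 : 0 < κ := Real.rpow_pos_of_pos (by norm_num) _
  have hκp : κ ^ (p / q) = 2 := by
    rw [hκ, ← Real.rpow_mul (by norm_num)]
    have : q / p * (p / q) = 1 := by field_simp
    rw [this, Real.rpow_one]
  have hκpp : κ ^ p = 2 ^ q := by
    rw [hκ, ← Real.rpow_mul (by norm_num)]
    congr 1
    field_simp
  have hY := Real.young_inequality_of_nonneg (a := κ * x) (b := y ^ q / κ)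
    (mul_nonneg hκ0.le hx) (div_nonneg (Real.rpow_nonneg hy _) hκ0.le) hpq
  have e0 : κ * x * (y ^ q / κ) = x * y ^ q := by field_simp
  rw [e0] at hY
  have e1 : (κ * x) ^ p = 2 ^ q * x ^ p := by
    rw [Real.mul_rpow hκ0.le hx, hκpp]
  have e2 : (y ^ q / κ) ^ (p / q) = y ^ p / 2 := by
    rw [Real.div_rpow (Real.rpow_nonneg hy _) hκ0.le, hκp, ← Real.rpow_mul hy]
    congr 2
    field_simp
  rw [e1, e2] at hY
  have hc : 0 < p / q := div_pos hp0 hq
  have := mul_le_mul_of_nonneg_left hY hc.le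
  have e3 : p / q * (2 ^ q * x ^ p / p + y ^ p / 2 / (p / q)) =
      cF p / 2 * x ^ p + y ^ p / 2 := by
    unfold cF
    rw [show p - 1 = q from rfl]
    have h2p : (2 : ℝ) ^ p = 2 ^ q * 2 := by
      rw [hqdef, ← Real.rpow_add_one (by norm_num)]
      congr 1; ring
    rw [h2p]
    field_simp
  rw [e3] at this
  exact this

/-- The finite horizon forward maximal theorem. -/
theorem amax_bound {p : ℝ} (hp : 1 < p) (f : ℕ → ℝ) (hf : ∀ k, 0 ≤ f k) (N : ℕ) :
    ∑ n ∈ range N, amax f N n ^ p ≤ cF p * ∑ n ∈ range N, f n ^ p := by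
  classical
  have hp0 : 0 < p := by linarith
  have hq : 0 < p - 1 := by linarith
  set a := amax f N with ha
  have ha0 : ∀ n, 0 ≤ a n := amax_nonneg f hf N
  set s := (range N).filter (fun n => 0 < a n) with hs
  have hw : ∀ v, 0 < v → v * ((s.filter (fun n => v ≤ a n)).card : ℝ) ≤
      ∑ n ∈ s.filter (fun n => v ≤ a n), f n := by
    intro v hv
    have heq : s.filter (fun n => v ≤ a n) = (range N).filter (fun n => v ≤ a n) := by
      ext n
      simp only [hs, Finset.mem_filter]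
      constructor
      · rintro ⟨⟨h1, _⟩, h3⟩; exact ⟨h1, h3⟩
      · rintro ⟨h1, h3⟩; exact ⟨⟨h1, lt_of_lt_of_le hv h3⟩, h3⟩
    rw [heq]
    exact weak_amax f N v
  have h1 := abel_rpow hp s a f 0 le_rfl (fun n hn => (Finset.mem_filter.mp hn).2) hw
  simp only [Real.zero_rpow hp0.ne', Real.zero_rpow hq.ne', sub_zero] at h1
  have hz1 : ∑ n ∈ s, a n ^ p = ∑ n ∈ range N, a n ^ p := by
    apply Finset.sum_subset (Finset.filter_subset _ _)
    intro n hn hn'
    have : a n = 0 := by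
      by_contra hne
      exact hn' (Finset.mem_filter.mpr ⟨hn, lt_of_le_of_ne (ha0 n) (Ne.symm hne)⟩)
    simp [this, Real.zero_rpow hp0.ne']
  have hz2 : ∑ n ∈ s, f n * a n ^ (p - 1) = ∑ n ∈ range N, f n * a n ^ (p - 1) := by
    apply Finset.sum_subset (Finset.filter_subset _ _)
    intro n hn hn'
    have : a n = 0 := by
      by_contra hne
      exact hn' (Finset.mem_filter.mpr ⟨hn, lt_of_le_of_ne (ha0 n) (Ne.symm hne)⟩)
    simp [this, Real.zero_rpow hq.ne']
  rw [hz1, hz2] at h1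
  have h2 : (p / (p - 1)) * ∑ n ∈ range N, f n * a n ^ (p - 1) ≤
      cF p / 2 * ∑ n ∈ range N, f n ^ p + (∑ n ∈ range N, a n ^ p) / 2 := by
    rw [Finset.mul_sum, Finset.mul_sum, Finset.sum_div, ← Finset.sum_add_distrib]
    exact Finset.sum_le_sum fun n _ => young_absorb hp (hf n) (ha0 n)
  linarith

/-! ### The maximal theorem on `ℤ` with values in `ℝ≥0∞` -/

/-- Forward average on `ℤ`. -/
noncomputable def avgZ (f : ℤ → ℝ≥0∞) (n : ℤ) (r : ℕ) : ℝ≥0∞ :=
  (∑ k ∈ range (r + 1), f (n + k)) / ((r : ℝ≥0∞) + 1)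

/-- Forward maximal function on `ℤ`. -/
noncomputable def maxF (f : ℤ → ℝ≥0∞) (n : ℤ) : ℝ≥0∞ := ⨆ r : ℕ, avgZ f n r

/-- Main finite estimate on `ℤ`. -/
theorem maxF_finite {p : ℝ} (hp : 1 < p) (f : ℤ → ℝ≥0∞) (hf : ∀ k, f k ≠ ∞) (S : Finset ℤ)
    (R : ℕ) :
    ∑ n ∈ S, ((range (R + 1)).sup (avgZ f n)) ^ p ≤
      ENNReal.ofReal (cF p) * ∑' k, f k ^ p := by
  classical
  have hp0 : 0 < p := by linarith
  set L : ℕ := S.sup Int.natAbs with hL
  have hLn : ∀ n ∈ S, -(L : ℤ) ≤ n := by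
    intro n hn
    have : n.natAbs ≤ L := Finset.le_sup (f := Int.natAbs) hn
    omega
  have hLn' : ∀ n ∈ S, n ≤ (L : ℤ) := by
    intro n hn
    have : n.natAbs ≤ L := Finset.le_sup (f := Int.natAbs) hn
    omega
  set N : ℕ := 2 * L + R + 1 with hN
  let g : ℕ → ℝ := fun i => (f (-(L : ℤ) + i)).toReal
  have hg : ∀ i, 0 ≤ g i := fun i => ENNReal.toReal_nonneg
  let idx : ℤ → ℕ := fun n => (n + L).toNat
  have hidx : ∀ n ∈ S, ((idx n : ℕ) : ℤ) = n + L := by
    intro n hn
    have := hLn n hn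
    simp only [idx]
    omega
  have hidxlt : ∀ n ∈ S, idx n < 2 * L + 1 := by
    intro n hn
    have h1 := hidx n hn
    have h2 := hLn' n hn
    omega
  have hinj : Set.InjOn idx (S : Set ℤ) := by
    intro n hn m hm h
    have h1 := hidx n hn
    have h2 := hidx m hm
    rw [h] at h1
    omega
  -- average comparison
  have havg : ∀ n ∈ S, ∀ r ∈ range (R + 1),
      avgZ f n r ≤ ENNReal.ofReal (amax g N (idx n)) := by
    intro n hn r hr
    have hr' : r < R + 1 := Finset.mem_range.mp hr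
    have hi := hidxlt n hn
    have h1 : avgF g (idx n) (idx n + (r + 1)) ≤ amax g N (idx n) :=
      avgF_le_amax g (by omega) (by omega)
    have h2 : avgZ f n r = ENNReal.ofReal (avgF g (idx n) (idx n + (r + 1))) := by
      unfold avgZ avgF
      have e1 : ∑ k ∈ Ico (idx n) (idx n + (r + 1)), g k =
          ∑ k ∈ range (r + 1), (f (n + k)).toReal := by
        rw [Finset.sum_Ico_eq_sum_range]
        simp only [Nat.add_sub_cancel_left]
        apply Finset.sum_congr rfl
        intro k _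
        simp only [g]
        congr 2
        have := hidx n hn
        push_cast
        omega
      rw [e1]
      have e2 : ((idx n + (r + 1) : ℕ) : ℝ) - (idx n : ℝ) = (r : ℝ) + 1 := by
        push_cast; ring
      rw [e2, ENNReal.ofReal_div_of_pos (by positivity),
        ENNReal.ofReal_sum_of_nonneg (fun _ _ => ENNReal.toReal_nonneg)]
      congr 1
      · apply Finset.sum_congr rfl
        intro k _
        exact (ENNReal.ofReal_toReal (hf _)).symm
      · rw [ENNReal.ofReal_add (by positivity) (by norm_num)]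
        simp
    rw [h2]
    exact ENNReal.ofReal_le_ofReal h1
  have hsup : ∀ n ∈ S, ((range (R + 1)).sup (avgZ f n)) ^ p ≤
      ENNReal.ofReal (amax g N (idx n) ^ p) := by
    intro n hn
    rw [← ENNReal.ofReal_rpow_of_nonneg (amax_nonneg g hg N _) hp0.le]
    apply ENNReal.rpow_le_rpow _ hp0.le
    exact Finset.sup_le (havg n hn)
  calc ∑ n ∈ S, ((range (R + 1)).sup (avgZ f n)) ^ p
      ≤ ∑ n ∈ S, ENNReal.ofReal (amax g N (idx n) ^ p) :=
        Finset.sum_le_sum hsup
    _ = ∑ i ∈ S.image idx, ENNReal.ofReal (amax g N i ^ p) := by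
        rw [Finset.sum_image hinj]
    _ ≤ ∑ i ∈ range N, ENNReal.ofReal (amax g N i ^ p) := by
        apply Finset.sum_le_sum_of_subset
        intro i hi
        obtain ⟨n, hn, rfl⟩ := Finset.mem_image.mp hi
        have := hidxlt n hn
        exact Finset.mem_range.mpr (by omega)
    _ = ENNReal.ofReal (∑ i ∈ range N, amax g N i ^ p) := by
        rw [ENNReal.ofReal_sum_of_nonneg]
        intro i _
        exact Real.rpow_nonneg (amax_nonneg g hg N i) _
    _ ≤ ENNReal.ofReal (cF p * ∑ i ∈ range N, g i ^ p) :=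
        ENNReal.ofReal_le_ofReal (amax_bound hp g hg N)
    _ = ENNReal.ofReal (cF p) * ∑ i ∈ range N, f (-(L : ℤ) + i) ^ p := by
        rw [ENNReal.ofReal_mul (cF_pos hp).le, ENNReal.ofReal_sum_of_nonneg
          (fun i _ => Real.rpow_nonneg (hg i) _)]
        congr 1
        apply Finset.sum_congr rfl
        intro i _
        rw [← ENNReal.ofReal_rpow_of_nonneg (hg i) hp0.le]
        simp only [g]
        rw [ENNReal.ofReal_toReal (hf _)]
    _ ≤ ENNReal.ofReal (cF p) * ∑' k, f k ^ p := by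
        gcongr
        have hinj2 : Function.Injective (fun i : ℕ => -(L : ℤ) + i) := by
          intro a b h
          simpa using h
        calc ∑ i ∈ range N, f (-(L : ℤ) + i) ^ p
            ≤ ∑' i : ℕ, f (-(L : ℤ) + i) ^ p := ENNReal.sum_le_tsum _
          _ ≤ ∑' k, f k ^ p :=
            ENNReal.tsum_comp_le_tsum_of_injective hinj2 (fun k => f k ^ p)

/-- The forward maximal theorem on `ℤ`. -/
theorem maxF_bound {p : ℝ} (hp : 1 < p) (f : ℤ → ℝ≥0∞) :
    ∑' n, (maxF f n) ^ p ≤ ENNReal.ofReal (cF p) * ∑' k, f k ^ p := by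
  classical
  have hp0 : 0 < p := by linarith
  by_cases htop : ∑' k, f k ^ p = ∞
  · rw [htop, ENNReal.mul_top (by simpa using cF_pos hp)]
    exact le_top
  have hf : ∀ k, f k ≠ ∞ := by
    intro k hk
    apply htop
    apply top_unique
    calc (⊤ : ℝ≥0∞) = f k ^ p := by rw [hk]; simp [hp0]
      _ ≤ ∑' k, f k ^ p := ENNReal.le_tsum k
  rw [ENNReal.tsum_eq_iSup_sum]
  apply iSup_le
  intro S
  have hmono : ∀ n, Monotone (fun R : ℕ => ((range (R + 1)).sup (avgZ f n)) ^ p) := by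
    intro n R R' hRR'
    apply ENNReal.rpow_le_rpow _ hp0.le
    apply Finset.sup_mono
    intro x hx
    have := Finset.mem_range.mp hx
    exact Finset.mem_range.mpr (by omega)
  have hrepr : ∀ n, (maxF f n) ^ p = ⨆ R : ℕ, ((range (R + 1)).sup (avgZ f n)) ^ p := by
    intro n
    have h1 : maxF f n = ⨆ R : ℕ, (range (R + 1)).sup (avgZ f n) := by
      unfold maxF
      apply le_antisymm
      · apply iSup_le
        intro r
        apply le_iSup_of_le r
        exact Finset.le_sup (f := avgZ f n) (Finset.mem_range.mpr (by omega))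
      · apply iSup_le
        intro R
        apply Finset.sup_le
        intro r _
        exact le_iSup (avgZ f n) r
    rw [h1]
    exact (ENNReal.orderIsoRpow p hp0).map_iSup _
  simp only [hrepr]
  rw [ENNReal.finsetSum_iSup_of_monotone hmono]
  apply iSup_le
  intro R
  exact maxF_finite hp f hf S R

/-! ### Two sided maximal function on `ℤ` -/

/-- Centered (two sided) maximal function on `ℤ`. -/
noncomputable def maxZ (f : ℤ → ℝ≥0∞) (n : ℤ) : ℝ≥0∞ :=
  ⨆ r : ℕ, (∑ k ∈ Finset.Icc (-(r : ℤ)) r, f (n + k)) / (2 * (r : ℝ≥0∞) + 1)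

theorem maxZ_le (f : ℤ → ℝ≥0∞) (n : ℤ) :
    maxZ f n ≤ maxF f n + maxF (fun k => f (-k)) (-n) := by
  unfold maxZ
  apply iSup_le
  intro r
  -- split the symmetric interval
  have hsub : ∑ k ∈ Finset.Icc (-(r : ℤ)) r, f (n + k) ≤
      ∑ k ∈ range (r + 1), f (n + k) + ∑ k ∈ range (r + 1), (fun k => f (-k)) (-n + k) := by
    classical
    have hcover : Finset.Icc (-(r : ℤ)) r ⊆
        (range (r + 1)).image (fun k : ℕ => (k : ℤ)) ∪
          (range (r + 1)).image (fun k : ℕ => -(k : ℤ)) := by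
      intro k hk
      have hk' := Finset.mem_Icc.mp hk
      rcases le_total 0 k with h | h
      · apply Finset.mem_union_left
        refine Finset.mem_image.mpr ⟨k.toNat, Finset.mem_range.mpr (by omega), by omega⟩
      · apply Finset.mem_union_right
        refine Finset.mem_image.mpr ⟨(-k).toNat, Finset.mem_range.mpr (by omega), by omega⟩
    calc ∑ k ∈ Finset.Icc (-(r : ℤ)) r, f (n + k)
        ≤ ∑ k ∈ (range (r + 1)).image (fun k : ℕ => (k : ℤ)) ∪
            (range (r + 1)).image (fun k : ℕ => -(k : ℤ)), f (n + k) :=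
          Finset.sum_le_sum_of_subset hcover
      _ ≤ ∑ k ∈ (range (r + 1)).image (fun k : ℕ => (k : ℤ)), f (n + k) +
            ∑ k ∈ (range (r + 1)).image (fun k : ℕ => -(k : ℤ)), f (n + k) := by
          rw [← Finset.sum_union_inter]
          exact le_self_add
      _ = _ := by
          rw [Finset.sum_image (fun a _ b _ h => by simpa using h),
            Finset.sum_image (fun a _ b _ h => by simpa using h)]
          congr 1
          apply Finset.sum_congr rfl
          intro k _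
          simp only
          congr 1
          ring
  have hden : ((r : ℝ≥0∞) + 1) ≤ 2 * (r : ℝ≥0∞) + 1 := by
    gcongr
    calc (r : ℝ≥0∞) = 1 * r := by simp
      _ ≤ 2 * r := by gcongr; norm_num
  calc (∑ k ∈ Finset.Icc (-(r : ℤ)) r, f (n + k)) / (2 * (r : ℝ≥0∞) + 1)
      ≤ (∑ k ∈ range (r + 1), f (n + k) +
          ∑ k ∈ range (r + 1), (fun k => f (-k)) (-n + k)) / (2 * (r : ℝ≥0∞) + 1) := by
        gcongr
    _ ≤ (∑ k ∈ range (r + 1), f (n + k) +
          ∑ k ∈ range (r + 1), (fun k => f (-k)) (-n + k)) / ((r : ℝ≥0∞) + 1) := by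
        gcongr
    _ = avgZ f n r + avgZ (fun k => f (-k)) (-n) r := by
        unfold avgZ
        rw [ENNReal.add_div]
    _ ≤ _ := add_le_add (le_iSup (avgZ f n) r) (le_iSup (avgZ (fun k => f (-k)) (-n)) r)

/-- The constant of the centered maximal theorem. -/
noncomputable def cZ (p : ℝ) : ℝ := 2 ^ p * cF p

theorem cZ_pos {p : ℝ} (hp : 1 < p) : 0 < cZ p :=
  mul_pos (Real.rpow_pos_of_pos (by norm_num) _) (cF_pos hp)

/-- The Hardy--Littlewood maximal theorem on `ℤ`, exponent `p > 1`, constant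
`cZ p = 4^p/(p-1)`. -/
theorem maxZ_bound {p : ℝ} (hp : 1 < p) (f : ℤ → ℝ≥0∞) :
    ∑' n, (maxZ f n) ^ p ≤ ENNReal.ofReal (cZ p) * ∑' k, f k ^ p := by
  have hp0 : 0 < p := by linarith
  have hF := maxF_bound hp f
  have hB := maxF_bound hp (fun k => f (-k))
  have hB' : ∑' n, (maxF (fun k => f (-k)) (-n)) ^ p ≤ ENNReal.ofReal (cF p) * ∑' k, f k ^ p := by
    calc ∑' n, (maxF (fun k => f (-k)) (-n)) ^ p
        = ∑' n, (maxF (fun k => f (-k)) n) ^ p :=
          (Equiv.neg ℤ).tsum_eq (fun n => (maxF (fun k => f (-k)) n) ^ p)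
      _ ≤ ENNReal.ofReal (cF p) * ∑' k, (f (-k)) ^ p := hB
      _ = ENNReal.ofReal (cF p) * ∑' k, f k ^ p := by
          congr 1
          exact (Equiv.neg ℤ).tsum_eq (fun k => f k ^ p)
  have hpt : ∀ n, (maxZ f n) ^ p ≤
      ENNReal.ofReal (2 ^ (p - 1)) * ((maxF f n) ^ p + (maxF (fun k => f (-k)) (-n)) ^ p) := by
    intro n
    calc (maxZ f n) ^ p ≤ (maxF f n + maxF (fun k => f (-k)) (-n)) ^ p :=
          ENNReal.rpow_le_rpow (maxZ_le f n) hp0.le
      _ ≤ 2 ^ (p - 1) * ((maxF f n) ^ p + (maxF (fun k => f (-k)) (-n)) ^ p) :=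
          ENNReal.rpow_add_le_mul_rpow_add_rpow _ _ hp.le
      _ = _ := by
          congr 1
          rw [← ENNReal.ofReal_rpow_of_pos (by norm_num)]
          simp
  calc ∑' n, (maxZ f n) ^ p
      ≤ ∑' n, ENNReal.ofReal (2 ^ (p - 1)) *
          ((maxF f n) ^ p + (maxF (fun k => f (-k)) (-n)) ^ p) := ENNReal.tsum_le_tsum hpt
    _ = ENNReal.ofReal (2 ^ (p - 1)) *
          (∑' n, (maxF f n) ^ p + ∑' n, (maxF (fun k => f (-k)) (-n)) ^ p) := by
        rw [ENNReal.tsum_mul_left, ENNReal.tsum_add]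
    _ ≤ ENNReal.ofReal (2 ^ (p - 1)) *
          (ENNReal.ofReal (cF p) * ∑' k, f k ^ p + ENNReal.ofReal (cF p) * ∑' k, f k ^ p) := by
        gcongr
    _ = ENNReal.ofReal (cZ p) * ∑' k, f k ^ p := by
        rw [← two_mul, ← mul_assoc, ← mul_assoc]
        congr 1
        unfold cZ
        have h2p : (2 : ℝ) ^ p = 2 ^ (p - 1) * 2 := by
          rw [← Real.rpow_add_one (by norm_num)]
          congr 1; ring
        have h20 : (0 : ℝ) ≤ 2 ^ (p - 1) := Real.rpow_nonneg (by norm_num) _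
        rw [h2p, ENNReal.ofReal_mul (mul_nonneg h20 (by norm_num)), ENNReal.ofReal_mul h20]
        simp only [ENNReal.ofReal_ofNat]

theorem sum_Icc_le_maxZ (f : ℤ → ℝ≥0∞) (n : ℤ) (r : ℕ) :
    ∑ k ∈ Finset.Icc (-(r : ℤ)) r, f (n + k) ≤ (2 * (r : ℝ≥0∞) + 1) * maxZ f n := by
  have h := le_iSup (fun r : ℕ => (∑ k ∈ Finset.Icc (-(r : ℤ)) r, f (n + k)) /
    (2 * (r : ℝ≥0∞) + 1)) r
  have h0 : (2 * (r : ℝ≥0∞) + 1) ≠ 0 := by simp
  have h1 : (2 * (r : ℝ≥0∞) + 1) ≠ ∞ := by
    simp [ENNReal.mul_eq_top]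
  calc ∑ k ∈ Finset.Icc (-(r : ℤ)) r, f (n + k)
      = (2 * (r : ℝ≥0∞) + 1) * ((∑ k ∈ Finset.Icc (-(r : ℤ)) r, f (n + k)) /
          (2 * (r : ℝ≥0∞) + 1)) := (ENNReal.mul_div_cancel h0 h1).symm
    _ ≤ _ := by
        gcongr
        exact h

theorem window_aux (f : ℤ → ℝ≥0∞) (n : ℤ) (R : ℕ) :
    ∀ w : ℕ → ℝ≥0∞, Antitone w → (∀ r, w r ≠ ∞) →
      ∑ k ∈ Finset.Icc (-(R : ℤ)) R, w k.natAbs * f (n + k) ≤
        maxZ f n * ∑ k ∈ Finset.Icc (-(R : ℤ)) R, w k.natAbs := by
  induction R with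
  | zero =>
    intro w _ _
    simp only [Nat.cast_zero, neg_zero, Finset.Icc_self, Finset.sum_singleton, Int.natAbs_zero,
      add_zero]
    have := sum_Icc_le_maxZ f n 0
    simp only [Nat.cast_zero, neg_zero, Finset.Icc_self, Finset.sum_singleton, add_zero,
      mul_zero, zero_add, one_mul] at this
    rw [mul_comm]
    gcongr
  | succ R ih =>
    intro w hw hwf
    set c := w (R + 1) with hc
    set w' : ℕ → ℝ≥0∞ := fun r => w r - c with hw'
    have hw'anti : Antitone w' := fun a b hab => tsub_le_tsub_right (hw hab) _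
    have hw'f : ∀ r, w' r ≠ ∞ := fun r => ne_top_of_le_ne_top (hwf r) tsub_le_self
    have hih := ih w' hw'anti hw'f
    have hsubset : Finset.Icc (-(R : ℤ)) R ⊆ Finset.Icc (-((R + 1 : ℕ) : ℤ)) ((R + 1 : ℕ) : ℤ) := by
      intro k hk
      have := Finset.mem_Icc.mp hk
      refine Finset.mem_Icc.mpr ?_
      push_cast
      omega
    have hzero : ∀ k ∈ Finset.Icc (-((R + 1 : ℕ) : ℤ)) ((R + 1 : ℕ) : ℤ),
        k ∉ Finset.Icc (-(R : ℤ)) R → w' k.natAbs = 0 := by
      intro k hk hk'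
      have h1 := Finset.mem_Icc.mp hk
      have h2 : k.natAbs = R + 1 := by
        simp only [Finset.mem_Icc, not_and_or, not_le] at hk'
        push_cast at h1
        omega
      simp [hw', h2, hc]
    have hsplit : ∀ k ∈ Finset.Icc (-((R + 1 : ℕ) : ℤ)) ((R + 1 : ℕ) : ℤ),
        w k.natAbs = w' k.natAbs + c := by
      intro k hk
      have h1 := Finset.mem_Icc.mp hk
      have h2 : k.natAbs ≤ R + 1 := by
        push_cast at h1
        omega
      exact (tsub_add_cancel_of_le (hw h2)).symm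
    have e1 : ∑ k ∈ Finset.Icc (-((R + 1 : ℕ) : ℤ)) ((R + 1 : ℕ) : ℤ), w k.natAbs * f (n + k) =
        ∑ k ∈ Finset.Icc (-(R : ℤ)) R, w' k.natAbs * f (n + k) +
          c * ∑ k ∈ Finset.Icc (-((R + 1 : ℕ) : ℤ)) ((R + 1 : ℕ) : ℤ), f (n + k) := by
      rw [Finset.mul_sum]
      have : ∑ k ∈ Finset.Icc (-(R : ℤ)) R, w' k.natAbs * f (n + k) =
          ∑ k ∈ Finset.Icc (-((R + 1 : ℕ) : ℤ)) ((R + 1 : ℕ) : ℤ), w' k.natAbs * f (n + k) := by
        apply Finset.sum_subset hsubset
        intro k hk hk'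
        rw [hzero k hk hk', zero_mul]
      rw [this, ← Finset.sum_add_distrib]
      apply Finset.sum_congr rfl
      intro k hk
      rw [hsplit k hk, add_mul]
    have e2 : ∑ k ∈ Finset.Icc (-((R + 1 : ℕ) : ℤ)) ((R + 1 : ℕ) : ℤ), w k.natAbs =
        ∑ k ∈ Finset.Icc (-(R : ℤ)) R, w' k.natAbs +
          c * (2 * ((R + 1 : ℕ) : ℝ≥0∞) + 1) := by
      have : ∑ k ∈ Finset.Icc (-(R : ℤ)) R, w' k.natAbs =
          ∑ k ∈ Finset.Icc (-((R + 1 : ℕ) : ℤ)) ((R + 1 : ℕ) : ℤ), w' k.natAbs := by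
        apply Finset.sum_subset hsubset
        intro k hk hk'
        exact hzero k hk hk'
      rw [this, Finset.sum_congr rfl hsplit, Finset.sum_add_distrib, Finset.sum_const,
        Int.card_Icc, nsmul_eq_mul]
      congr 1
      rw [mul_comm]
      congr 1
      have : (((R + 1 : ℕ) : ℤ) + 1 - -((R + 1 : ℕ) : ℤ)).toNat = 2 * (R + 1) + 1 := by
        push_cast
        omega
      rw [this]
      push_cast
      ring
    have hmax := sum_Icc_le_maxZ f n (R + 1)
    rw [e1, e2, mul_add]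
    refine add_le_add hih ?_
    calc c * ∑ k ∈ Finset.Icc (-((R + 1 : ℕ) : ℤ)) ((R + 1 : ℕ) : ℤ), f (n + k)
        ≤ c * ((2 * ((R + 1 : ℕ) : ℝ≥0∞) + 1) * maxZ f n) := by gcongr
      _ = _ := by ring

/-- Radially decreasing windows are dominated by the maximal function: if `w : ℕ → ℝ≥0∞` is
antitone with `∑_{k ∈ ℤ} w |k| ≤ 1` then `∑_k w |k| f (n + k) ≤ maxZ f n`. -/
theorem window_le_maxZ (f : ℤ → ℝ≥0∞) (w : ℕ → ℝ≥0∞) (hw : Antitone w)
    (hw1 : ∑' k : ℤ, w k.natAbs ≤ 1) (n : ℤ) :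
    ∑' k : ℤ, w k.natAbs * f (n + k) ≤ maxZ f n := by
  classical
  have hwf : ∀ r, w r ≠ ∞ := by
    intro r hr
    have h1 : w r ≤ ∑' k : ℤ, w k.natAbs := by
      have := ENNReal.le_tsum (f := fun k : ℤ => w k.natAbs) (r : ℤ)
      simpa using this
    rw [hr] at h1
    exact absurd (h1.trans hw1) (by simp)
  rw [ENNReal.tsum_eq_iSup_sum]
  apply iSup_le
  intro S
  set R : ℕ := S.sup Int.natAbs with hR
  have hsub : S ⊆ Finset.Icc (-(R : ℤ)) R := by
    intro k hk
    have : k.natAbs ≤ R := Finset.le_sup (f := Int.natAbs) hk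
    refine Finset.mem_Icc.mpr ?_
    omega
  calc ∑ k ∈ S, w k.natAbs * f (n + k)
      ≤ ∑ k ∈ Finset.Icc (-(R : ℤ)) R, w k.natAbs * f (n + k) :=
        Finset.sum_le_sum_of_subset hsub
    _ ≤ maxZ f n * ∑ k ∈ Finset.Icc (-(R : ℤ)) R, w k.natAbs := window_aux f n R w hw hwf
    _ ≤ maxZ f n * ∑' k : ℤ, w k.natAbs := by
        gcongr
        exact ENNReal.sum_le_tsum _
    _ ≤ maxZ f n * 1 := by gcongr
    _ = maxZ f n := mul_one _

end Crest.Agent.TriH.MaxFn
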